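import Vale.Agent.P179.Defs

/-! P179: the semisimple quotient of the group algebra.

A = k[G] is finite dimensional, so Artinian and semiprimary: the Jacobson radical J (Ring.jacobson) is nilpotent and A ⧸ J is
semisimple; IsSemisimpleRing.exists_algEquiv_pi_matrix_of_isAlgClosed.
-/

open Finset
open scoped Classical

noncomputable section

namespace Vale.Agent.P179

set_option linter.unusedSectionVars false

variable {p : ℕ} [Fact p.Prime] {G : Type} [Group G] [Fintype G] {k : Type} [Field k] [IsAlgClosed k]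
  [CharP k p]

theorem exists_wedd (k G : Type) [Field k] [IsAlgClosed k] [Group G] [Fintype G] :
    ∃ (r : ℕ) (d : Fin r → ℕ) (π : MonoidAlgebra k G →ₐ[k] ∀ i, Matrix (Fin (d i)) (Fin (d i)) k),
      (∀ i, d i ≠ 0) ∧ Function.Surjective π ∧ IsNilpotent (RingHom.ker π) := by
  have : IsArtinianRing (MonoidAlgebra k G) := IsArtinianRing.of_finite k _
  have hs := Ideal.Quotient.mkₐ_surjective k (Ring.jacobson (MonoidAlgebra k G))
  have : FiniteDimensional k (MonoidAlgebra k G ⧸ Ring.jacobson (MonoidAlgebra k G)) :=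
    Module.Finite.of_surjective
      (Ideal.Quotient.mkₐ k (Ring.jacobson (MonoidAlgebra k G))).toLinearMap hs
  obtain ⟨r, d, hd, ⟨e⟩⟩ := IsSemisimpleRing.exists_algEquiv_pi_matrix_of_isAlgClosed k
    (MonoidAlgebra k G ⧸ Ring.jacobson (MonoidAlgebra k G))
  refine ⟨r, d, e.toAlgHom.comp (Ideal.Quotient.mkₐ k _), fun i => (hd i).out,
    e.surjective.comp hs, ?_⟩
  have h : RingHom.ker (e.toAlgHom.comp
      (Ideal.Quotient.mkₐ k (Ring.jacobson (MonoidAlgebra k G)))) =
      Ring.jacobson (MonoidAlgebra k G) := by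
    ext x
    rw [RingHom.mem_ker, AlgHom.comp_apply, Ideal.Quotient.mkₐ_eq_mk]
    exact (map_eq_zero_iff _ e.injective).trans Ideal.Quotient.eq_zero_iff_mem
  rw [h]
  exact IsSemiprimaryRing.isNilpotent

end Vale.Agent.P179
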