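import Vale.Agent.P179.Defs

/-! P179: the simple modules.

Bijection Fin r → classes, i ↦ the representation g ↦ toLin (π (of g) i) on Fin (d i) → k (irreducible: π is onto and the
matrix ring is transitive on nonzero vectors). Injective: an element a with π a = Pi.single i 1 acts as 1 on the i-th and 0 on the
j-th. Surjective: for irreducible ρ the nilpotent ideal ker π acts as zero (ker π • V is a proper submodule), pick i, v and a with
π a = single i (E 0 0) and a v ≠ 0; the map e ↦ (lift of the matrix with column 0 equal to e) v is a nonzero intertwining map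
between irreducible representations (IsIrreducible.bijective_or_eq_zero).
-/

open Finset
open scoped Classical

noncomputable section

namespace Vale.Agent.P179

set_option linter.unusedSectionVars false

variable {p : ℕ} [Fact p.Prime] {G : Type} [Group G] [Fintype G] {k : Type} [Field k] [IsAlgClosed k]
  [CharP k p]

section Gen
variable {V W : Type} [AddCommGroup V] [Module k V] [AddCommGroup W] [Module k W]

theorem BB_int {ρ : Representation k G V} {σ : Representation k G W} (f : ρ.IntertwiningMap σ)
    (a : MonoidAlgebra k G) (v : V) : f (ρ.asAlgebraHom a v) = σ.asAlgebraHom a (f v) := by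
  induction a using MonoidAlgebra.induction_linear with
  | zero => simp
  | add x y hx hy => simp only [map_add, LinearMap.add_apply, hx, hy]
  | single g c =>
    simp only [Representation.asAlgebraHom_single, LinearMap.smul_apply, map_smul]
    rw [f.isIntertwining]

theorem BB_sub {ρ : Representation k G V} (U : Subrepresentation ρ) (a : MonoidAlgebra k G) {v : V}
    (hv : v ∈ U.toSubmodule) : ρ.asAlgebraHom a v ∈ U.toSubmodule := by
  induction a using MonoidAlgebra.induction_linear with
  | zero => simp
  | add x y hx hy =>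
    simp only [map_add, LinearMap.add_apply]
    exact U.toSubmodule.add_mem hx hy
  | single g c =>
    simp only [Representation.asAlgebraHom_single, LinearMap.smul_apply]
    exact U.toSubmodule.smul_mem c (U.apply_mem_toSubmodule g hv)

theorem BB_nontriv {ρ : Representation k G V} (h : ρ.IsIrreducible) : ∃ v : V, v ≠ 0 := by
  by_contra hn
  have h0 : ∀ v : V, v = 0 := fun v => by
    by_contra hv
    exact hn ⟨v, hv⟩
  apply bot_ne_top (α := Subrepresentation ρ)
  apply Subrepresentation.toSubmodule_injective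
  ext v
  rw [h0 v]
  simp

/-- A nilpotent ideal that is stable under right multiplication acts as zero. -/
theorem BB_nil {ρ : Representation k G V} (h : ρ.IsIrreducible) (I : Ideal (MonoidAlgebra k G))
    (hI : ∀ a ∈ I, ∀ b, a * b ∈ I) (hn : IsNilpotent I) {a : MonoidAlgebra k G} (ha : a ∈ I)
    (v : V) : ρ.asAlgebraHom a v = 0 := by
  let U : Subrepresentation ρ :=
    { toSubmodule :=
        { carrier := {v | ∀ a ∈ I, ρ.asAlgebraHom a v = 0}
          add_mem' := fun {x y} hx hy a ha => by rw [map_add, hx a ha, hy a ha, add_zero]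
          zero_mem' := fun a _ => map_zero _
          smul_mem' := fun c x hx a ha => by rw [map_smul, hx a ha, smul_zero] }
      apply_mem_toSubmodule := fun g v hv a ha => by
        have h1 := hv _ (hI a ha (MonoidAlgebra.of k G g))
        rwa [map_mul, Representation.asAlgebraHom_of] at h1 }
  rcases eq_bot_or_eq_top U with hU | hU
  · exfalso
    have h0 : ∀ v : V, (∀ a ∈ I, ρ.asAlgebraHom a v = 0) → v = 0 := fun v hv => by
      have h1 : v ∈ U.toSubmodule := hv
      rw [hU] at h1
      exact h1
    have h1 : ∀ (m : ℕ) (v : V), (∀ a ∈ I ^ m, ρ.asAlgebraHom a v = 0) → v = 0 := by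
      intro m
      induction m with
      | zero =>
        intro v hv
        have h2 := hv 1 (by
          rw [Submodule.pow_zero, Ideal.one_eq_top]
          trivial)
        simpa using h2
      | succ m ih =>
        intro v hv
        refine h0 v fun b hb => ih _ fun a ha => ?_
        have h2 := hv (a * b) (by
          rw [Submodule.pow_succ]
          exact Ideal.mul_mem_mul ha hb)
        rwa [map_mul] at h2
    obtain ⟨m, hm⟩ := hn
    obtain ⟨w, hw⟩ := BB_nontriv h
    refine hw (h1 m w fun a ha => ?_)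
    rw [hm] at ha
    have h2 : a = 0 := ha
    rw [h2, map_zero, LinearMap.zero_apply]
  · have h1 : v ∈ U.toSubmodule := by
      rw [hU]
      trivial
    exact h1 a ha

end Gen

section Mod
variable {r : ℕ} {d : Fin r → ℕ}
  (π : MonoidAlgebra k G →ₐ[k] ∀ i, Matrix (Fin (d i)) (Fin (d i)) k)

/-- The representation on the `i`-th column space. -/
def BB_rep (i : Fin r) : Representation k G (Fin (d i) → k) where
  toFun g := Matrix.toLin' (π (MonoidAlgebra.of k G g) i)
  map_one' := by
    rw [map_one, map_one, Pi.one_apply, Matrix.toLin'_one]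
    rfl
  map_mul' g h := by
    rw [map_mul, map_mul, Pi.mul_apply, Matrix.toLin'_mul]
    rfl

theorem BB_act (i : Fin r) (a : MonoidAlgebra k G) (v : Fin (d i) → k) :
    (BB_rep π i).asAlgebraHom a v = (π a i).mulVec v := by
  induction a using MonoidAlgebra.induction_linear with
  | zero => simp
  | add x y hx hy => simp only [map_add, LinearMap.add_apply, hx, hy, Pi.add_apply, Matrix.add_mulVec]
  | single g c =>
    have e : MonoidAlgebra.single g c = c • MonoidAlgebra.of k G g := by simp
    rw [e, map_smul, map_smul, Representation.asAlgebraHom_of, LinearMap.smul_apply, Pi.smul_apply,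
      Matrix.smul_mulVec]
    rfl

theorem BB_irr (hd : ∀ i, d i ≠ 0) (hs : Function.Surjective π) (i : Fin r) :
    (BB_rep π i).IsIrreducible := by
  have hne : (⊥ : Subrepresentation (BB_rep π i)) ≠ ⊤ := by
    intro h
    have h1 : (fun _ => 1 : Fin (d i) → k) ∈ (⊥ : Subrepresentation (BB_rep π i)).toSubmodule := by
      rw [h]
      trivial
    have h2 : (fun _ => 1 : Fin (d i) → k) = 0 := h1
    exact one_ne_zero (congrFun h2 ⟨0, Nat.pos_of_ne_zero (hd i)⟩)
  have : Nontrivial (Subrepresentation (BB_rep π i)) := ⟨⟨_, _, hne⟩⟩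
  refine ⟨fun U => ?_⟩
  by_cases hU : U.toSubmodule = ⊥
  · exact Or.inl (Subrepresentation.toSubmodule_injective hU)
  · right
    obtain ⟨v, hv, hv0⟩ := Submodule.exists_mem_ne_zero_of_ne_bot hU
    obtain ⟨j, hj⟩ := Function.ne_iff.1 hv0
    have hj' : v j ≠ 0 := hj
    apply Subrepresentation.toSubmodule_injective
    refine eq_top_iff.2 fun w _ => ?_
    obtain ⟨a, ha⟩ := hs (Pi.single i (Matrix.vecMulVec w (Pi.single j (v j)⁻¹)))
    have h1 := BB_sub U a hv
    rw [BB_act, ha, Pi.single_eq_same, Matrix.vecMulVec_mulVec, single_dotProduct,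
      inv_mul_cancel₀ hj'] at h1
    simpa using h1

theorem BB_inj (hd : ∀ i, d i ≠ 0) (hs : Function.Surjective π) {i j : Fin r}
    (e : (BB_rep π i).Equiv (BB_rep π j)) : i = j := by
  by_contra hij
  obtain ⟨a, ha⟩ := hs (Pi.single i 1)
  have h1 := BB_int e.toIntertwiningMap a (fun _ => 1)
  rw [BB_act, BB_act, ha, Pi.single_eq_same, Pi.single_eq_of_ne (Ne.symm hij), Matrix.one_mulVec,
    Matrix.zero_mulVec] at h1
  have h2 : (fun _ => 1 : Fin (d i) → k) = 0 := e.toLinearEquiv.map_eq_zero_iff.1 h1
  exact one_ne_zero (congrFun h2 ⟨0, Nat.pos_of_ne_zero (hd i)⟩)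

theorem BB_surj (hd : ∀ i, d i ≠ 0) (hs : Function.Surjective π)
    (hn : IsNilpotent (RingHom.ker π)) {V : Type} [AddCommGroup V] [Module k V]
    {ρ : Representation k G V} (h : ρ.IsIrreducible) : ∃ i, Nonempty ((BB_rep π i).Equiv ρ) := by
  obtain ⟨s, hs'⟩ := π.toLinearMap.exists_rightInverse_of_surjective (LinearMap.range_eq_top.2 hs)
  have hπ : ∀ M, π (s M) = M := fun M => LinearMap.congr_fun hs' M
  have hk : ∀ a b, π a = π b → ∀ v, ρ.asAlgebraHom a v = ρ.asAlgebraHom b v := by
    intro a b hab v
    have h1 := BB_nil h (RingHom.ker π) (fun x hx y => by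
      rw [RingHom.mem_ker] at hx ⊢
      rw [map_mul, hx, zero_mul]) hn (a := a - b) (by
      rw [RingHom.mem_ker, map_sub, hab, sub_self]) v
    rwa [map_sub, LinearMap.sub_apply, sub_eq_zero] at h1
  obtain ⟨v, hv⟩ := BB_nontriv h
  let L : ∀ i, Fin (d i) → (Fin (d i) → k) →ₗ[k] V := fun i j =>
    { toFun := fun e => ρ.asAlgebraHom (s (Pi.single i (Matrix.vecMulVec e (Pi.single j 1)))) v
      map_add' := fun x y => by
        rw [Matrix.add_vecMulVec, Pi.single_add, map_add, map_add, LinearMap.add_apply]
      map_smul' := fun c x => by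
        rw [Matrix.smul_vecMulVec, Pi.single_smul, map_smul, map_smul, LinearMap.smul_apply]
        rfl }
  have hL : ∀ i j e, L i j e =
      ρ.asAlgebraHom (s (Pi.single i (Matrix.vecMulVec e (Pi.single j 1)))) v := fun _ _ _ => rfl
  have hint : ∀ i j g e, L i j (BB_rep π i g e) = ρ g (L i j e) := by
    intro i j g e
    rw [hL, hL, ← ρ.asAlgebraHom_of g, ← (BB_rep π i).asAlgebraHom_of g, BB_act,
      ← Module.End.mul_apply, ← map_mul]
    refine hk _ _ ?_ v
    rw [map_mul, hπ, hπ, ← Matrix.mul_vecMulVec]
    funext i'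
    by_cases hi : i' = i
    · subst hi
      simp
    · simp [Pi.single_eq_of_ne hi]
  by_contra hno
  have hz : ∀ i j e, L i j e = 0 := by
    intro i j e
    have := BB_irr π hd hs i
    let f : (BB_rep π i).IntertwiningMap ρ :=
      (L i j).intertwiningMap_of_isIntertwiningMap _ _ (hint i j)
    rcases Representation.IsIrreducible.bijective_or_eq_zero f with hf | hf
    · exact absurd ⟨i, ⟨f.ofBijective hf⟩⟩ hno
    · have h1 : f e = 0 := by
        rw [hf]
        rfl
      exact h1
  have h1 : (1 : ∀ i, Matrix (Fin (d i)) (Fin (d i)) k) =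
      ∑ i, ∑ j : Fin (d i), (Pi.single i (Matrix.vecMulVec (Pi.single j (1 : k)) (Pi.single j 1)) :
        ∀ i, Matrix (Fin (d i)) (Fin (d i)) k) := by
    funext i
    rw [Finset.sum_apply, Finset.sum_eq_single i]
    · rw [Finset.sum_apply]
      simp only [Pi.single_eq_same, Pi.one_apply]
      ext a b
      simp [Matrix.sum_apply, Matrix.vecMulVec_apply, Pi.single_apply, Matrix.one_apply, eq_comm]
    · intro i' _ hi
      rw [Finset.sum_apply]
      exact Finset.sum_eq_zero fun j _ => Pi.single_eq_of_ne (Ne.symm hi) _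
    · simp
  apply hv
  have h2 := hk 1 (s 1) (by rw [hπ, map_one]) v
  rw [map_one, Module.End.one_apply] at h2
  rw [h2, h1]
  simp only [map_sum, LinearMap.sum_apply]
  exact Finset.sum_eq_zero fun i _ => Finset.sum_eq_zero fun j _ => hz i j _

end Mod

theorem num_simple {r : ℕ} {d : Fin r → ℕ}
    (π : MonoidAlgebra k G →ₐ[k] ∀ i, Matrix (Fin (d i)) (Fin (d i)) k) (hd : ∀ i, d i ≠ 0)
    (hs : Function.Surjective π) (hn : IsNilpotent (RingHom.ker π)) : numSimple k G = r := by
  have heq : Equivalence fun S T : Simple k G => Nonempty (S.ρ.Equiv T.ρ) :=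
    ⟨fun S => ⟨Representation.Equiv.refl _⟩, fun ⟨e⟩ => ⟨e.symm⟩, fun ⟨e⟩ ⟨e'⟩ => ⟨e.trans e'⟩⟩
  let F : Fin r → Quot fun S T : Simple k G => Nonempty (S.ρ.Equiv T.ρ) := fun i =>
    Quot.mk _ ⟨d i, BB_rep π i, BB_irr π hd hs i⟩
  have hF : Function.Bijective F := by
    refine ⟨fun i j hij => ?_, fun q => ?_⟩
    · obtain ⟨e⟩ := heq.eqvGen_iff.1 (Quot.eq.1 hij)
      exact BB_inj π hd hs e
    · obtain ⟨S, rfl⟩ := Quot.exists_rep q
      obtain ⟨i, e⟩ := BB_surj π hd hs hn S.irr
      exact ⟨i, Quot.sound e⟩
  rw [numSimple, ← Nat.card_eq_of_bijective F hF, Nat.card_eq_fintype_card, Fintype.card_fin]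

end Vale.Agent.P179
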