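import Vale.Agent.P179.Defs

/-! P179: at most as many simple modules as regular classes.

τ i g = trace (π (of g) i) is a class function, and τ i g = τ i g1 for the p-regular component g1 of g = g1 u (u a commuting
p-element: π (of g) - π (of g1) = π (of g1) (π (of u) - 1) is nilpotent, (u - 1) ^ p ^ m = 0 in characteristic p,
Matrix.isNilpotent_trace_of_isNilpotent). So the restrictions to regular classes are linearly independent if the τ i are;
a relation ∑ c i τ i = 0 extends linearly to k[G], evaluate at a preimage of single i (E 0 0). fintype_card_le_finrank.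
-/

open Finset
open scoped Classical

noncomputable section

namespace Vale.Agent.P179

set_option linter.unusedSectionVars false

variable {p : ℕ} [Fact p.Prime] {G : Type} [Group G] [Fintype G] {k : Type} [Field k] [IsAlgClosed k]
  [CharP k p]

theorem BC_dec (g : G) : ∃ a u : G, IsReg p a ∧ (∃ m : ℕ, u ^ p ^ m = 1) ∧ Commute a u ∧
    g = a * u := by
  have hp : p.Prime := Fact.out
  obtain ⟨e, m, hm, hn⟩ := Nat.exists_eq_pow_mul_and_not_dvd (orderOf_pos g).ne' p hp.ne_one
  have hc : Nat.Coprime (p ^ e) m := Nat.Coprime.pow_left e ((hp.coprime_iff_not_dvd).2 hm)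
  obtain ⟨s, t, hst⟩ := Nat.isCoprime_iff_coprime.2 hc
  have h1 : g ^ ((p ^ e * m : ℕ) : ℤ) = 1 := by rw [← hn, zpow_natCast, pow_orderOf_eq_one]
  refine ⟨g ^ (s * (p ^ e : ℕ)), g ^ (t * m), ?_, ⟨e, ?_⟩, (Commute.refl g).zpow_zpow _ _, ?_⟩
  · refine Nat.Coprime.coprime_dvd_left (orderOf_dvd_of_pow_eq_one (n := m) ?_)
      ((hp.coprime_iff_not_dvd).2 hm).symm
    rw [← zpow_natCast, ← zpow_mul, mul_assoc, ← Nat.cast_mul, mul_comm, zpow_mul, h1, one_zpow]
  · rw [← zpow_natCast, ← zpow_mul, mul_assoc, ← Nat.cast_mul, mul_comm m, mul_comm, zpow_mul, h1,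
      one_zpow]
  · rw [← zpow_add, hst, zpow_one]

theorem BC_tr {n : ℕ} (hn : n ≠ 0) (φ : G →* Matrix (Fin n) (Fin n) k) {a u : G} {m : ℕ}
    (hu : u ^ p ^ m = 1) (hc : Commute a u) : (φ (a * u)).trace = (φ a).trace := by
  have : Nonempty (Fin n) := ⟨⟨0, Nat.pos_of_ne_zero hn⟩⟩
  have h1 : IsNilpotent (φ u - 1) := ⟨p ^ m, by
    rw [sub_pow_char_pow_of_commute _ _ (Commute.one_right _), ← map_pow, hu, map_one, one_pow,
      sub_self]⟩
  have h2 : IsNilpotent (φ a * (φ u - 1)) :=
    ((hc.map φ).sub_right (Commute.one_right _)).isNilpotent_mul_left h1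
  have h3 := (Matrix.isNilpotent_trace_of_isNilpotent h2).eq_zero
  rw [mul_sub, mul_one, Matrix.trace_sub, ← map_mul, sub_eq_zero] at h3
  exact h3

theorem BC_conj {n : ℕ} (φ : G →* Matrix (Fin n) (Fin n) k) {a b : G} (h : IsConj a b) :
    (φ a).trace = (φ b).trace := by
  obtain ⟨c, rfl⟩ := isConj_iff.1 h
  rw [map_mul, Matrix.trace_mul_comm, ← map_mul, ← mul_assoc, inv_mul_cancel, one_mul]

theorem le_numReg {r : ℕ} {d : Fin r → ℕ}
    (π : MonoidAlgebra k G →ₐ[k] ∀ i, Matrix (Fin (d i)) (Fin (d i)) k) (hd : ∀ i, d i ≠ 0)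
    (hs : Function.Surjective π) : r ≤ numReg p G := by
  let φ : ∀ i, G →* Matrix (Fin (d i)) (Fin (d i)) k := fun i =>
    (((Pi.evalAlgHom k _ i).comp π : MonoidAlgebra k G →ₐ[k] _) : MonoidAlgebra k G →* _).comp
      (MonoidAlgebra.of k G)
  let C := {c : ConjClasses G // ∃ a, ConjClasses.mk a = c ∧ IsReg p a}
  let v : Fin r → C → k := fun i c => (φ i c.2.choose).trace
  have hv : LinearIndependent k v := by
    rw [Fintype.linearIndependent_iff]
    intro c hc j
    have h1 : ∀ g : G, ∑ i, c i * (φ i g).trace = 0 := fun g => by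
      obtain ⟨a, u, ha, ⟨m, hu⟩, hau, rfl⟩ := BC_dec (p := p) g
      have h2 := congrFun hc ⟨ConjClasses.mk a, a, rfl, ha⟩
      rw [Finset.sum_apply, Pi.zero_apply] at h2
      rw [← h2]
      refine Finset.sum_congr rfl fun i _ => ?_
      rw [BC_tr (hd i) (φ i) hu hau, Pi.smul_apply, smul_eq_mul]
      congr 1
      exact (BC_conj (φ i) (ConjClasses.mk_eq_mk_iff_isConj.1
        (Exists.choose_spec (⟨a, rfl, ha⟩ : ∃ b, ConjClasses.mk b = ConjClasses.mk a ∧
          IsReg p b)).1)).symm
    have h2 : ∀ x : MonoidAlgebra k G, ∑ i, c i * (π x i).trace = 0 := fun x => by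
      induction x using MonoidAlgebra.induction_on with
      | of g => exact h1 g
      | add x y hx hy =>
        simp only [map_add, Pi.add_apply, Matrix.trace_add, mul_add, Finset.sum_add_distrib, hx, hy,
          add_zero]
      | smul t x hx =>
        simp only [map_smul, Pi.smul_apply, Matrix.trace_smul, smul_eq_mul, mul_left_comm _ t,
          ← Finset.mul_sum, hx, mul_zero]
    let z : Fin (d j) := ⟨0, Nat.pos_of_ne_zero (hd j)⟩
    obtain ⟨x, hx⟩ := hs (Pi.single j (Matrix.single z z 1))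
    have h3 := h2 x
    rw [hx, Finset.sum_eq_single j] at h3
    · simpa using h3
    · intro i _ hi
      rw [Pi.single_eq_of_ne hi, Matrix.trace_zero, mul_zero]
    · simp
  have h := hv.fintype_card_le_finrank
  rw [Fintype.card_fin, Module.finrank_fintype_fun_eq_card, ← Nat.card_eq_fintype_card] at h
  exact h

end Vale.Agent.P179
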