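import Vale.Agent.P179.Defs

/-! P179: traces of powers in characteristic p.

Expand a ^ q, q = p ^ n, as a sum over tuples Fin q → G (or ZMod q → G) of ∏ a (g i) * f (ordered product). The cyclic group
of order q rotates the tuples, the summand is invariant (f (g h) = f (h g)), orbits of non constant tuples have size divisible by p
and contribute 0 in k; constant tuples give a g ^ q * f (g ^ q). Alternative: induction on n with the commutator subspace S:
(x + y) ^ p - x ^ p - y ^ p ∈ S and S is stable under p-th powers.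
-/

open Finset
open scoped Classical

noncomputable section

namespace Vale.Agent.P179

set_option linter.unusedSectionVars false

variable {p : ℕ} [Fact p.Prime] {G : Type} [Group G] [Fintype G] {k : Type} [Field k] [IsAlgClosed k]
  [CharP k p]

section Aux
open Polynomial
variable {A : Type} [Ring A]

theorem BD_tr (σ : A →+ k) (hσ : ∀ a b, σ (a * b) = σ (b * a)) (P Q : A[X]) (j : ℕ) :
    σ ((P * Q).coeff j) = σ ((Q * P).coeff j) := by
  rw [coeff_mul, coeff_mul, map_sum, map_sum, ← Finset.Nat.sum_antidiagonal_swap]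
  exact sum_congr rfl fun x _ => hσ _ _

theorem BD_der (σ : A →+ k) (hσ : ∀ a b, σ (a * b) = σ (b * a)) (u : A[X]) (j m : ℕ) : ∀ i : ℕ,
    σ ((derivative (u ^ (m + 1)) * u ^ i).coeff j) =
      (m + 1) • σ ((derivative u * u ^ (m + i)).coeff j) := by
  induction m with
  | zero => intro i; simp
  | succ m ih =>
    intro i
    rw [pow_succ, derivative_mul, add_mul, coeff_add, map_add, mul_assoc, ← pow_succ', ih,
      mul_assoc, BD_tr σ hσ (u ^ (m + 1)), mul_assoc, ← pow_add, succ_nsmul _ (m + 1),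
      show m + (i + 1) = m + 1 + i by omega, add_comm i]

theorem BD_add (σ : A →+ k) (hσ : ∀ a b, σ (a * b) = σ (b * a)) (x y : A) :
    σ ((x + y) ^ p) = σ (x ^ p) + σ (y ^ p) := by
  have hp : p.Prime := Fact.out
  obtain ⟨m, hm⟩ : ∃ m, p = m + 1 := ⟨p - 1, by have := hp.pos; omega⟩
  set u : A[X] := C y * X + C x with hu
  have d1 : u.natDegree ≤ 1 := natDegree_linear_le
  have d2 : (u ^ p).natDegree < p + 1 :=
    Nat.lt_succ_of_le ((natDegree_pow_le_of_le p d1).trans_eq (mul_one p))
  have e0 : (u ^ p).coeff 0 = x ^ p := by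
    have := map_pow (constantCoeff (R := A)) u p
    simpa [hu] using this
  have e1 : (u ^ p).coeff p = y ^ p := by
    have := coeff_pow_of_natDegree_le (m := p) d1
    simpa [hu] using this
  have e2 : (u ^ p).eval 1 = (x + y) ^ p := by
    have := map_pow (eval₂RingHom' (RingHom.id A) 1 fun a => Commute.one_right _) u p
    change (u ^ p).eval 1 = (u.eval 1) ^ p at this
    rw [this]
    simp [hu, add_comm]
  have e3 : ∀ j, j + 1 < p → σ ((u ^ p).coeff (j + 1)) = 0 := fun j hj => by
    have h1 := BD_der σ hσ u j m 0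
    rw [← hm, pow_zero, mul_one, coeff_derivative, nsmul_eq_mul, CharP.cast_eq_zero k p, zero_mul,
      ← Nat.cast_succ, ← nsmul_eq_mul', map_nsmul, nsmul_eq_mul] at h1
    refine (mul_eq_zero.1 h1).resolve_left fun h => ?_
    exact absurd (Nat.le_of_dvd (Nat.succ_pos j) ((CharP.cast_eq_zero_iff k p _).1 h)) (by omega)
  rw [← e2, eval_eq_sum_range' d2, sum_range_succ, ← e0, ← e1]
  simp only [one_pow, mul_one, map_add, map_sum]
  congr 1
  rw [hm, sum_range_succ', ← hm, sum_eq_zero fun j hj => e3 j (by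
    have := mem_range.1 hj
    omega), zero_add]

theorem BD_it (σ : A →+ k) (hσ : ∀ a b, σ (a * b) = σ (b * a)) (n : ℕ) :
    ∃ σ' : A →+ k, (∀ a b, σ' (a * b) = σ' (b * a)) ∧ ∀ a, σ' a = σ (a ^ p ^ n) := by
  have hp : p.Prime := Fact.out
  obtain ⟨m, hm⟩ : ∃ m, p = m + 1 := ⟨p - 1, by have := hp.pos; omega⟩
  induction n with
  | zero => exact ⟨σ, hσ, fun a => by simp⟩
  | succ n ih =>
    obtain ⟨σ', h1, h2⟩ := ih
    refine ⟨AddMonoidHom.mk' (fun a => σ' (a ^ p)) (BD_add σ' h1), fun a b => ?_, fun a => ?_⟩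
    · change σ' ((a * b) ^ p) = σ' ((b * a) ^ p)
      rw [hm, pow_succ', mul_assoc, h1, ← mul_pow_mul, mul_assoc, ← pow_succ]
    · change σ' (a ^ p) = _
      rw [h2, ← pow_mul, ← pow_succ']

end Aux

theorem trace_pow (τ : MonoidAlgebra k G →ₗ[k] k) (hτ : ∀ a b, τ (a * b) = τ (b * a))
    (a : MonoidAlgebra k G) (n : ℕ) :
    τ (a ^ p ^ n) = ∑ g : G, a.coeff g ^ p ^ n * τ (MonoidAlgebra.of k G (g ^ p ^ n)) := by
  obtain ⟨σ, -, h⟩ := BD_it (p := p) τ.toAddMonoidHom hτ n
  have e : a = ∑ g : G, a.coeff g • MonoidAlgebra.of k G g := by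
    ext g
    simp [Finsupp.single_apply]
  have h' : ∀ a, σ a = τ (a ^ p ^ n) := h
  rw [← h']
  conv_lhs => rw [e]
  rw [map_sum]
  refine sum_congr rfl fun g _ => ?_
  rw [h', smul_pow, map_smul, map_pow (MonoidAlgebra.of k G), smul_eq_mul]

end Vale.Agent.P179
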