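import Vale.Agent.P179.BD

/-! P179: at least as many simple modules as regular classes.

Choose n large with g ^ p ^ n =: g1 the p-regular component for all g (p ^ n ≡ 1 modulo the p-free part of card G, p ^ n a multiple
of the p-part; multiples of n work too). For a regular class c let f c g = 1 if mk g1 = c, else 0, τ c its linear extension:
τ (a b) = τ (b a), f (g1) = f g, values 0 or 1, so τ a ^ p ^ n = τ (a ^ p ^ n) by trace_pow and sum_pow_char_pow; so τ kills ker π
and factors through π as a functional with τ (x y) = τ (y x) on the product of matrix rings, a combination of the r traces.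
The τ c are linearly independent (evaluate on regular representatives) in a span of r elements.
-/

open Finset
open scoped Classical

noncomputable section

namespace Vale.Agent.P179

set_option linter.unusedSectionVars false

variable {p : ℕ} [Fact p.Prime] {G : Type} [Group G] [Fintype G] {k : Type} [Field k] [IsAlgClosed k]
  [CharP k p]

theorem BE_pow (p : ℕ) [Fact p.Prime] (G : Type) [Group G] [Fintype G] (N : ℕ) :
    ∃ n, N ≤ p ^ n ∧ (∀ g : G, IsReg p g → g ^ p ^ n = g) ∧ ∀ g : G, IsReg p (g ^ p ^ n) := by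
  have hp : p.Prime := Fact.out
  have hc : Nat.card G ≠ 0 := Nat.card_pos.ne'
  obtain ⟨a, m, hm, e⟩ := Nat.exists_eq_pow_mul_and_not_dvd hc p hp.ne_one
  have hco : p.Coprime m := (Nat.Prime.coprime_iff_not_dvd hp).2 hm
  have m0 : 0 < m := Nat.pos_of_ne_zero fun h => hm (h ▸ dvd_zero p)
  have t0 : 0 < m.totient := Nat.totient_pos.2 m0
  have hn : N + a ≤ m.totient * (N + a) := Nat.le_mul_of_pos_left _ t0
  have h1 : p ^ (m.totient * (N + a)) ≡ 1 [MOD m] := by
    rw [pow_mul]
    simpa using (Nat.ModEq.pow_totient hco).pow (N + a)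
  refine ⟨m.totient * (N + a), ?_, fun g hg => ?_, fun g => ?_⟩
  · exact ((Nat.le_add_right N a).trans hn).trans (Nat.lt_pow_self hp.one_lt).le
  · have h2 : orderOf g ∣ m := by
      have := orderOf_dvd_natCard g
      rw [e] at this
      exact (Nat.Coprime.pow_right a hg).dvd_of_dvd_mul_left this
    conv_rhs => rw [← pow_one g]
    exact pow_eq_pow_iff_modEq.2 (h1.of_dvd h2)
  · obtain ⟨b, hb⟩ := Nat.exists_eq_add_of_le ((Nat.le_add_left a N).trans hn)
    have h3 : orderOf (g ^ p ^ (m.totient * (N + a))) ∣ m := by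
      refine orderOf_dvd_of_pow_eq_one ?_
      rw [← pow_mul, hb, pow_add, mul_right_comm, ← e, pow_mul, pow_card_eq_one', one_pow]
    exact Nat.Coprime.coprime_dvd_left h3 hco.symm

theorem BE_tr {r : ℕ} {d : Fin r → ℕ} (hd : ∀ i, d i ≠ 0)
    (σ : (∀ i, Matrix (Fin (d i)) (Fin (d i)) k) →ₗ[k] k) (h : ∀ x y, σ (x * y) = σ (y * x)) :
    ∃ c : Fin r → k, ∀ x, σ x = ∑ i, c i * (x i).trace := by
  let z : ∀ i, Fin (d i) := fun i => ⟨0, Nat.pos_of_ne_zero (hd i)⟩
  refine ⟨fun i => σ (Pi.single i (Matrix.single (z i) (z i) 1)), fun x => ?_⟩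
  have key : ∀ (i : Fin r) (a b : Fin (d i)), σ (Pi.single i (Matrix.single a b 1))
      = if a = b then σ (Pi.single i (Matrix.single (z i) (z i) 1)) else 0 := by
    intro i a b
    have e1 : (Matrix.single a b 1 : Matrix (Fin (d i)) (Fin (d i)) k)
        = Matrix.single a (z i) 1 * Matrix.single (z i) b 1 := by
      rw [Matrix.single_mul_single_same, one_mul]
    rw [e1, Pi.single_mul, h, ← Pi.single_mul]
    split_ifs with hab
    · rw [hab, Matrix.single_mul_single_same, one_mul]
    · rw [Matrix.single_mul_single_of_ne (h := Ne.symm hab), Pi.single_zero, map_zero]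
  conv_lhs => rw [← Finset.univ_sum_single x, map_sum]
  refine sum_congr rfl fun i _ => ?_
  have e2 : (Pi.single i (x i) : ∀ i, Matrix (Fin (d i)) (Fin (d i)) k)
      = ∑ a, ∑ b, x i a b • Pi.single i (Matrix.single a b 1) := by
    conv_lhs => rw [Matrix.matrix_eq_sum_single (x i)]
    rw [← LinearMap.coe_single k, map_sum]
    refine sum_congr rfl fun a _ => ?_
    rw [map_sum]
    refine sum_congr rfl fun b _ => ?_
    rw [← map_smul, Matrix.smul_single, smul_eq_mul, mul_one]
  rw [e2, map_sum, Matrix.trace, mul_sum]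
  refine sum_congr rfl fun a _ => ?_
  rw [map_sum, sum_eq_single a (fun b _ hb => by
    rw [map_smul, key, if_neg (Ne.symm hb), smul_zero]) (by simp), map_smul, key, if_pos rfl,
    smul_eq_mul, mul_comm, Matrix.diag_apply]

theorem BE_fun {r : ℕ} {d : Fin r → ℕ}
    (π : MonoidAlgebra k G →ₐ[k] ∀ i, Matrix (Fin (d i)) (Fin (d i)) k) (hd : ∀ i, d i ≠ 0)
    (hs : Function.Surjective π) {n : ℕ} (hk : ∀ a, π a = 0 → a ^ p ^ n = 0) (f : G → k)
    (h1 : ∀ g h, f (g * h) = f (h * g)) (h2 : ∀ g, f (g ^ p ^ n) = f g ^ p ^ n) :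
    ∃ c : Fin r → k, ∀ g, f g = ∑ i, c i * (π (MonoidAlgebra.of k G g) i).trace := by
  let B := MonoidAlgebra.basis G k
  let τ : MonoidAlgebra k G →ₗ[k] k := B.constr k f
  have hB : ∀ g, B g = MonoidAlgebra.of k G g := fun g => by simp [B]
  have t1 : ∀ g, τ (MonoidAlgebra.of k G g) = f g := fun g => by
    rw [← hB]
    exact B.constr_basis k f g
  have t2 : ∀ a b, τ (a * b) = τ (b * a) := by
    have : (LinearMap.mul k (MonoidAlgebra k G)).compr₂ τ
        = ((LinearMap.mul k (MonoidAlgebra k G)).compr₂ τ).flip :=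
      B.ext fun g => B.ext fun h => by
        simp only [LinearMap.compr₂_apply, LinearMap.mul_apply', LinearMap.flip_apply, hB,
          ← map_mul, t1, h1 g h]
    intro a b
    simpa using LinearMap.congr_fun₂ this a b
  have t3 : ∀ a, τ a = ∑ g, a.coeff g * f g := fun a => by
    simp only [τ, Module.Basis.constr_apply_fintype, smul_eq_mul]
    rfl
  have t4 : ∀ a, π a = 0 → τ a = 0 := fun a ha => by
    have e := trace_pow (p := p) τ t2 a n
    rw [hk a ha, map_zero] at e
    refine pow_eq_zero_iff (n := p ^ n) (pow_ne_zero n (Fact.out : p.Prime).ne_zero) |>.1 ?_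
    rw [t3, sum_pow_char_pow, e]
    exact sum_congr rfl fun g _ => by rw [mul_pow, t1, h2]
  obtain ⟨s, hs'⟩ := π.toLinearMap.exists_rightInverse_of_surjective (LinearMap.range_eq_top.2 hs)
  have t5 : ∀ a, τ (s (π a)) = τ a := fun a => by
    rw [← sub_eq_zero, ← map_sub]
    refine t4 _ ?_
    rw [map_sub, sub_eq_zero]
    exact LinearMap.congr_fun hs' (π a)
  obtain ⟨c, hc⟩ := BE_tr hd (τ ∘ₗ s) fun x y => by
    obtain ⟨a, rfl⟩ := hs x
    obtain ⟨b, rfl⟩ := hs y
    simp only [LinearMap.comp_apply, ← map_mul, t5, t2 a b]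
  exact ⟨c, fun g => by rw [← hc, LinearMap.comp_apply, t5, t1]⟩

theorem numReg_le {r : ℕ} {d : Fin r → ℕ}
    (π : MonoidAlgebra k G →ₐ[k] ∀ i, Matrix (Fin (d i)) (Fin (d i)) k) (hd : ∀ i, d i ≠ 0)
    (hs : Function.Surjective π) (hn : IsNilpotent (RingHom.ker π)) : numReg p G ≤ r := by
  obtain ⟨N, hN⟩ := hn
  obtain ⟨n, h0, h1, h2⟩ := BE_pow p G N
  have hq : p ^ n ≠ 0 := pow_ne_zero n (Fact.out : p.Prime).ne_zero
  have hk : ∀ a, π a = 0 → a ^ p ^ n = 0 := fun a ha => by
    have : a ^ N ∈ RingHom.ker π ^ N := Ideal.pow_mem_pow ((RingHom.mem_ker).2 ha) N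
    rw [hN, Ideal.zero_eq_bot, Ideal.mem_bot] at this
    exact pow_eq_zero_of_le h0 this
  have key : ∀ c : ConjClasses G, ∃ C : Fin r → k, ∀ g : G,
      (if ConjClasses.mk (g ^ p ^ n) = c then (1 : k) else 0)
        = ∑ i, C i * (π (MonoidAlgebra.of k G g) i).trace := fun c =>
    BE_fun π hd hs hk _ (fun g h => by
      have : ConjClasses.mk ((g * h) ^ p ^ n) = ConjClasses.mk ((h * g) ^ p ^ n) :=
        ConjClasses.mk_eq_mk_iff_isConj.2 (IsConj.pow _ (isConj_iff.2 ⟨h, by group⟩))
      rw [this]) fun g => by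
      rw [h1 _ (h2 g)]
      split_ifs
      · rw [one_pow]
      · rw [zero_pow hq]
  choose C hC using key
  have li : LinearIndependent k
      fun c : {c : ConjClasses G // ∃ a, ConjClasses.mk a = c ∧ IsReg p a} => C c.1 := by
    refine Fintype.linearIndependent_iff.2 fun l hl c => ?_
    obtain ⟨a, ha, hr⟩ := c.2
    have e : ∑ c' : {c : ConjClasses G // ∃ a, ConjClasses.mk a = c ∧ IsReg p a},
        l c' * (if ConjClasses.mk (a ^ p ^ n) = c'.1 then (1 : k) else 0) = 0 := by
      simp only [hC, mul_sum]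
      rw [sum_comm]
      refine sum_eq_zero fun i _ => ?_
      have := congrFun hl i
      simp only [Finset.sum_apply, Pi.smul_apply, smul_eq_mul, Pi.zero_apply] at this
      simp only [← mul_assoc, ← sum_mul, this, zero_mul]
    rw [h1 a hr, ha, sum_eq_single c (fun b _ hb => by
      rw [if_neg fun h => hb (Subtype.ext h.symm), mul_zero]) (by simp), if_pos rfl, mul_one] at e
    exact e
  have := li.fintype_card_le_finrank
  rw [Module.finrank_fin_fun] at this
  unfold numReg
  rwa [Nat.card_eq_fintype_card]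

end Vale.Agent.P179
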