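import Vale.Agent.P179.Defs

/-! P179: orthogonality of characters.

Representation.char_orthonormal, char_iso. If χ ≠ ψ the representations are not isomorphic; if χ = ψ use the same
representation. Finiteness: an orthogonal family is linearly independent in H → ℂ (LinearIndependent.setFinite or
finite_of_linearIndependent).
-/

open Finset
open scoped Classical

noncomputable section

namespace Vale.Agent.P179

set_option linter.unusedSectionVars false

variable {p : ℕ} [Fact p.Prime] {H : Type} [Group H] [Fintype H]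

theorem IsIrr.conj {χ : H → ℂ} (hχ : IsIrr χ) (g y : H) : χ (y * g * y⁻¹) = χ g := by
  obtain ⟨n, ρ, -, rfl⟩ := hχ
  exact ρ.char_conj g y

theorem CA_card : (Nat.card H : ℂ) ≠ 0 := Nat.cast_ne_zero.2 Nat.card_pos.ne'

theorem irr_orth {χ ψ : H → ℂ} (hχ : IsIrr χ) (hψ : IsIrr ψ) :
    ∑ g, χ g * ψ g⁻¹ = if χ = ψ then (Nat.card H : ℂ) else 0 := by
  obtain ⟨n, ρ, h1, rfl⟩ := hχ
  obtain ⟨m, σ, h2, rfl⟩ := hψ
  have := invertibleOfNonzero (CA_card (H := H))
  split_ifs with h
  · have h3 := Representation.char_orthonormal ρ ρ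
    rw [if_pos ⟨Representation.Equiv.refl ρ⟩, inv_mul_eq_one₀ CA_card] at h3
    rw [← h, ← h3]
  · have h3 := Representation.char_orthonormal ρ σ
    rw [if_neg fun ⟨e⟩ => h (Representation.char_iso e).symm] at h3
    exact (mul_eq_zero.1 h3).resolve_left (inv_ne_zero CA_card)

theorem IsIrr.deg {χ : H → ℂ} (hχ : IsIrr χ) : ∃ d : ℕ, 0 < d ∧ χ 1 = d := by
  have h := irr_orth hχ hχ
  obtain ⟨n, ρ, -, rfl⟩ := hχ
  refine ⟨n, Nat.pos_of_ne_zero ?_, by simp⟩
  rintro rfl
  rw [if_pos rfl] at h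
  refine CA_card (h.symm.trans (Finset.sum_eq_zero fun g _ => ?_))
  rw [Representation.character, Subsingleton.elim (ρ g) 0, map_zero, zero_mul]

theorem irr_finite : {χ : H → ℂ | IsIrr χ}.Finite := by
  refine LinearIndependent.set_finite_of_isNoetherian (R := ℂ) (linearIndependent_iff'.2 ?_)
  intro s c h ψ hψ
  have h1 : ∑ g, (∑ χ ∈ s, c χ • (χ : H → ℂ)) g * ψ.1 g⁻¹ = 0 := by
    rw [h]
    simp
  simp only [Finset.sum_apply, Pi.smul_apply, smul_eq_mul, Finset.sum_mul, mul_assoc] at h1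
  rw [Finset.sum_comm, Finset.sum_eq_single ψ (fun χ _ hne => ?_) fun h2 => absurd hψ h2,
    ← Finset.mul_sum, irr_orth ψ.2 ψ.2, if_pos rfl] at h1
  · exact (mul_eq_zero.1 h1).resolve_right CA_card
  · rw [← Finset.mul_sum, irr_orth χ.2 ψ.2, if_neg fun e => hne (Subtype.ext e), mul_zero]

end Vale.Agent.P179
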