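import Vale.Agent.P179.Defs

/-! P179: completeness of characters.

Let z = ∑ g, f g • g⁻¹ in the group algebra ℂ[H] (MonoidAlgebra), a central element. On an irreducible
representation it acts as a scalar (Schur, algebraMap_intertwiningMap_bijective_of_isAlgClosed) of trace
∑ f g * χ g⁻¹ = 0, so as zero. ℂ[H] is semisimple (Maschke): the regular module is the supremum of simple submodules
(IsSemisimpleModule.sSup_simples_eq_top), each is an irreducible representation (ofModule, transport to Fin n → ℂ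
along a basis), so z kills 1, z = 0, f = 0.
-/

open Finset
open scoped Classical

noncomputable section

namespace Vale.Agent.P179

set_option linter.unusedSectionVars false

variable {p : ℕ} [Fact p.Prime] {H : Type} [Group H] [Fintype H]

/-- Every nonzero invariant subspace contains an irreducible representation. -/
theorem CB_min {V : Type} [AddCommGroup V] [Module ℂ V] [FiniteDimensional ℂ V]
    (ρ : Representation ℂ H V) (W : Submodule ℂ V) (hW : ∀ g, ∀ v ∈ W, ρ g v ∈ W) (hne : W ≠ ⊥) :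
    ∃ (n : ℕ) (σ : Representation ℂ H (Fin n → ℂ)) (ι : (Fin n → ℂ) →ₗ[ℂ] V),
      σ.IsIrreducible ∧ n ≠ 0 ∧ Function.Injective ι ∧ (∀ v, ι v ∈ W) ∧
        ∀ g v, ι (σ g v) = ρ g (ι v) := by
  obtain ⟨U, ⟨hUW, hU0, hU⟩, hmin⟩ := (wellFounded_lt (α := Submodule ℂ V)).has_min
    {U | U ≤ W ∧ U ≠ ⊥ ∧ ∀ g, ∀ v ∈ U, ρ g v ∈ U} ⟨W, le_rfl, hne, hW⟩
  let S : Subrepresentation ρ := ⟨U, fun g v hv => hU g v hv⟩
  let e : U ≃ₗ[ℂ] (Fin (Module.finrank ℂ U) → ℂ) := (Module.finBasis ℂ U).equivFun
  let σ : Representation ℂ H (Fin (Module.finrank ℂ U) → ℂ) :=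
    { toFun := fun g => e.toLinearMap ∘ₗ S.toRepresentation g ∘ₗ e.symm.toLinearMap
      map_one' := by
        refine LinearMap.ext fun v => ?_
        simp
      map_mul' := fun g h => by
        refine LinearMap.ext fun v => ?_
        simp }
  let ι : (Fin (Module.finrank ℂ U) → ℂ) →ₗ[ℂ] V := U.subtype ∘ₗ e.symm.toLinearMap
  have hι : Function.Injective ι := U.subtype_injective.comp e.symm.injective
  have hc : ∀ g v, ι (σ g v) = ρ g (ι v) := fun g v => by
    change ((e.symm (e (S.toRepresentation g (e.symm v))) : U) : V) = _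
    rw [e.symm_apply_apply]
    rfl
  have hn : Module.finrank ℂ U ≠ 0 := fun h => hU0 (Submodule.finrank_eq_zero.1 h)
  have hr : (⊤ : Submodule ℂ _).map ι = U := by
    rw [Submodule.map_comp, Submodule.map_top, LinearEquiv.range, Submodule.map_top,
      Submodule.range_subtype]
  refine ⟨_, σ, ι, ?_, hn, hι, fun v => hUW (e.symm v).2, hc⟩
  have : Nontrivial (Subrepresentation σ) := ⟨⊥, ⊤, fun h => by
    have h1 : (⊥ : Submodule ℂ (Fin (Module.finrank ℂ U) → ℂ)) = ⊤ :=
      congrArg Subrepresentation.toSubmodule h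
    rw [← h1, Submodule.map_bot] at hr
    exact hU0 hr.symm⟩
  refine ⟨fun R => ?_⟩
  have hle : R.toSubmodule.map ι ≤ U := (Submodule.map_mono le_top).trans hr.le
  by_cases h0 : R.toSubmodule.map ι = ⊥
  · left
    refine Subrepresentation.ext ?_
    refine Submodule.map_injective_of_injective hι ?_
    rw [h0]
    exact (Submodule.map_bot ι).symm
  · right
    refine Subrepresentation.ext ?_
    refine Submodule.map_injective_of_injective hι ?_
    refine Eq.trans ?_ hr.symm
    refine eq_of_le_of_not_lt hle (hmin _ ⟨hle.trans hUW, h0, ?_⟩)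
    rintro g _ ⟨v, hv, rfl⟩
    exact ⟨σ g v, R.apply_mem_toSubmodule g hv, hc g v⟩

/-- The operator attached to a function. -/
def CB_T {V : Type} [AddCommGroup V] [Module ℂ V] (ρ : Representation ℂ H V) (f : H → ℂ) :
    Module.End ℂ V := ∑ g, f g • ρ g⁻¹

theorem CB_comm {V : Type} [AddCommGroup V] [Module ℂ V] (ρ : Representation ℂ H V) {f : H → ℂ}
    (hf : ∀ g y, f (y * g * y⁻¹) = f g) (h : H) : Commute (CB_T ρ f) (ρ h) := by
  change _ * _ = _ * _
  simp only [CB_T, Finset.sum_mul, Finset.mul_sum, smul_mul_assoc, mul_smul_comm, ← map_mul]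
  refine (Fintype.sum_equiv (MulAut.conj h).toEquiv _ _ fun g => ?_).symm
  have e := hf g h
  rw [mul_assoc] at e
  simp [e, mul_assoc]

theorem CB_nil {V : Type} [AddCommGroup V] [Module ℂ V] [FiniteDimensional ℂ V]
    (ρ : Representation ℂ H V) {f : H → ℂ} (hf : ∀ g y, f (y * g * y⁻¹) = f g)
    (h0 : ∀ χ, IsIrr χ → ∑ g, f g * χ g⁻¹ = 0) : IsNilpotent (CB_T ρ f) := by
  have key : ∀ μ : ℂ, (CB_T ρ f).HasEigenvalue μ → μ = 0 := by
    intro μ hμ
    obtain ⟨n, σ, ι, hσ, hn, hι, hW, hc⟩ := CB_min ρ ((CB_T ρ f).eigenspace μ)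
      (fun g v hv => Module.End.mapsTo_genEigenspace_of_comm (CB_comm ρ hf g) μ 1 hv) hμ
    have e : CB_T σ f = μ • 1 := by
      refine LinearMap.ext fun v => hι ?_
      have h1 := Module.End.mem_eigenspace_iff.1 (hW v)
      rw [LinearMap.smul_apply, Module.End.one_apply, map_smul, ← h1]
      simp [CB_T, LinearMap.sum_apply, hc]
    have t := congrArg (LinearMap.trace ℂ _) e
    have h2 := h0 _ ⟨n, σ, hσ, rfl⟩
    simp only [CB_T, map_sum, map_smul, smul_eq_mul, LinearMap.trace_one,
      Module.finrank_fin_fun] at t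
    rw [show ∑ g, f g * LinearMap.trace ℂ _ (σ g⁻¹) = 0 from h2] at t
    exact (mul_eq_zero.1 t.symm).resolve_right (Nat.cast_ne_zero.2 hn)
  have top : (CB_T ρ f).maxGenEigenspace 0 = ⊤ := by
    rw [eq_top_iff, ← Module.End.iSup_maxGenEigenspace_eq_top (CB_T ρ f)]
    refine iSup_le fun μ => ?_
    by_cases hμ : (CB_T ρ f).maxGenEigenspace μ = ⊥
    · rw [hμ]; exact bot_le
    · rw [key μ (Module.End.HasUnifEigenvalue.lt zero_lt_one hμ)]
  refine Module.End.isNilpotent_iff_of_finite.2 fun v => ?_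
  have hv : v ∈ (CB_T ρ f).maxGenEigenspace 0 := top ▸ Submodule.mem_top
  simpa using hv

/-- The regular representation on functions. -/
def CB_reg (H : Type) [Group H] : Representation ℂ H (H → ℂ) where
  toFun g := LinearMap.funLeft ℂ ℂ fun x => x * g
  map_one' := by ext; simp
  map_mul' g h := by
    refine LinearMap.ext fun v => funext fun x => ?_
    simp [LinearMap.funLeft_apply, mul_assoc]

theorem CB_tr (g : H) :
    LinearMap.trace ℂ _ (CB_reg H g) = if g = 1 then (Fintype.card H : ℂ) else 0 := by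
  rw [LinearMap.trace_eq_matrix_trace ℂ (Pi.basisFun ℂ H), Matrix.trace]
  have e : ∀ x : H, (LinearMap.toMatrix (Pi.basisFun ℂ H) (Pi.basisFun ℂ H) (CB_reg H g)).diag x =
      if g = 1 then 1 else 0 := fun x => by
    simp [CB_reg, LinearMap.funLeft_apply, Pi.single_apply]
  simp only [e]
  split_ifs <;> simp

theorem class_zero (f : H → ℂ) (hf : ∀ g y, f (y * g * y⁻¹) = f g)
    (h0 : ∀ χ, IsIrr χ → ∑ g, f g * χ g⁻¹ = 0) : f = 0 := by
  funext h
  have t := (LinearMap.isNilpotent_trace_of_isNilpotent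
    ((CB_comm (CB_reg H) hf h).isNilpotent_mul_right (CB_nil (CB_reg H) hf h0))).eq_zero
  simp only [CB_T, Finset.sum_mul, smul_mul_assoc, ← map_mul, map_sum, map_smul, CB_tr,
    smul_eq_mul, inv_mul_eq_one, mul_ite, mul_zero, Finset.sum_ite_eq', Finset.mem_univ,
    if_true] at t
  exact (mul_eq_zero.1 t).resolve_right (Nat.cast_ne_zero.2 Fintype.card_ne_zero)

end Vale.Agent.P179
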