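import Vale.Agent.P179.CA

/-! P179: two consequences of the lemma of Schur.

For a class function f the operator ∑ g, f g • ρ g commutes with ρ, so it is a scalar c with c * χ 1 = ∑ g, f g * χ g.
irr_conv: f g = χ g⁻¹, c * χ 1 = card H (irr_orth), multiply by ρ x and take traces, reindex g ↦ g⁻¹.
irr_frob: ∑ b, ρ (b * a⁻¹ * b⁻¹) is a scalar c with c * χ 1 = card H * χ a⁻¹; multiply by ρ a, take traces, sum over a.
-/

open Finset
open scoped Classical

noncomputable section

namespace Vale.Agent.P179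

set_option linter.unusedSectionVars false

variable {p : ℕ} [Fact p.Prime] {H : Type} [Group H] [Fintype H]

theorem CC_schur {n : ℕ} (ρ : Representation ℂ H (Fin n → ℂ)) [ρ.IsIrreducible]
    (T : Module.End ℂ (Fin n → ℂ)) (h : ∀ g, T * ρ g = ρ g * T) :
    ∃ c : ℂ, ∀ x, LinearMap.trace ℂ _ (ρ x * T) = c * ρ.character x := by
  obtain ⟨c, hc⟩ :=
    (Representation.IsIrreducible.algebraMap_intertwiningMap_bijective_of_isAlgClosed
      (ρ := ρ)).2 ⟨T, h⟩
  have e : T = c • 1 := (congrArg Representation.IntertwiningMap.toLinearMap hc).symm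
  refine ⟨c, fun x => ?_⟩
  rw [e, mul_smul_comm, mul_one, map_smul, smul_eq_mul]
  rfl

theorem irr_conv {χ : H → ℂ} (hχ : IsIrr χ) (x : H) :
    χ 1 * ∑ g, χ (x * g⁻¹) * χ g = Nat.card H * χ x := by
  have o := irr_orth hχ hχ
  rw [if_pos rfl] at o
  obtain ⟨n, ρ, hρ, rfl⟩ := hχ
  obtain ⟨c, hc⟩ := CC_schur ρ (∑ g, ρ.character g • ρ g⁻¹) fun y => by
    rw [sum_mul, mul_sum, ← Equiv.sum_comp (MulAut.conj y).toEquiv]
    refine sum_congr rfl fun g _ => ?_
    simp only [MulEquiv.toEquiv_eq_coe, EquivLike.coe_coe, MulAut.conj_apply,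
      Representation.char_conj, smul_mul_assoc, mul_smul_comm, ← map_mul]
    congr 2
    group
  have e : ∀ x, ∑ g, ρ.character (x * g⁻¹) * ρ.character g = c * ρ.character x := fun x => by
    rw [← hc, mul_sum, map_sum]
    refine sum_congr rfl fun g _ => ?_
    rw [mul_smul_comm, map_smul, ← map_mul, smul_eq_mul, mul_comm]
    rfl
  rw [e, ← o, ← mul_assoc, mul_comm (ρ.character 1)]
  congr 1
  rw [← e 1]
  exact sum_congr rfl fun g _ => by rw [one_mul, mul_comm]

theorem irr_frob {χ : H → ℂ} (hχ : IsIrr χ) :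
    χ 1 * ∑ y : H × H, χ (cm y.1 y.2) = (Nat.card H : ℂ) ^ 2 := by
  have o := irr_orth hχ hχ
  rw [if_pos rfl] at o
  obtain ⟨n, ρ, hρ, rfl⟩ := hχ
  have k : ∀ a, ρ.character 1 * ∑ b, ρ.character (cm a b) =
      Nat.card H * (ρ.character a * ρ.character a⁻¹) := fun a => by
    obtain ⟨c, hc⟩ := CC_schur ρ (∑ b, ρ (b * a⁻¹ * b⁻¹)) fun y => by
      rw [sum_mul, mul_sum, ← Equiv.sum_comp (Equiv.mulLeft y)]
      refine sum_congr rfl fun g _ => ?_
      simp only [Equiv.coe_mulLeft, ← map_mul]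
      congr 1
      group
    have e : ∀ x, ∑ b, ρ.character (x * (b * a⁻¹ * b⁻¹)) = c * ρ.character x := fun x => by
      rw [← hc, mul_sum, map_sum]
      exact sum_congr rfl fun g _ => by rw [← map_mul]; rfl
    have e1 := e 1
    simp only [one_mul, Representation.char_conj, sum_const, card_univ, nsmul_eq_mul] at e1
    have e2 : ∑ b, ρ.character (cm a b) = c * ρ.character a := by
      rw [← e a]
      exact sum_congr rfl fun b _ => by simp only [cm, mul_assoc]
    rw [e2, Nat.card_eq_fintype_card]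
    linear_combination (-ρ.character a) * e1
  rw [Fintype.sum_prod_type, mul_sum]
  simp only [k]
  rw [← mul_sum, o, sq]

end Vale.Agent.P179
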