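import Vale.Agent.P179.CA
import Vale.Agent.P179.CB
import Vale.Agent.P179.CC

/-! P179: the formula of Frobenius.

The indicator θ of p-elements is a class function invariant under inversion; by class_zero and irr_orth
θ = ∑ χ, (card H)⁻¹ * (∑ g, θ g * χ g⁻¹) • χ. Sum θ (cm a b) over all pairs and use irr_frob, IsIrr.deg.
-/

open Finset
open scoped Classical

noncomputable section

namespace Vale.Agent.P179

set_option linter.unusedSectionVars false

variable {p : ℕ} [Fact p.Prime] {H : Type} [Group H] [Fintype H]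

theorem CD_card : (Nat.card H : ℂ) ≠ 0 := Nat.cast_ne_zero.2 Nat.card_pos.ne'

theorem CD_mem {χ : H → ℂ} : χ ∈ (irr_finite (H := H)).toFinset ↔ IsIrr χ :=
  Set.Finite.mem_toFinset (irr_finite (H := H))

theorem CD_exp (f : H → ℂ) (hf : ∀ g y, f (y * g * y⁻¹) = f g) (x : H) :
    f x = ∑ χ ∈ (irr_finite (H := H)).toFinset,
      (Nat.card H : ℂ)⁻¹ * (∑ g, f g * χ g⁻¹) * χ x := by
  obtain ⟨c, hc⟩ : ∃ c : (H → ℂ) → ℂ, ∀ χ, c χ = (Nat.card H : ℂ)⁻¹ * (∑ g, f g * χ g⁻¹) :=
    ⟨_, fun _ => rfl⟩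
  simp only [← hc]
  have h := class_zero (fun x => f x - ∑ χ ∈ (irr_finite (H := H)).toFinset, c χ * χ x)
    (fun g y => by
      rw [hf]
      congr 1
      refine sum_congr rfl fun χ hχ => ?_
      rw [(CD_mem.1 hχ).conj]) fun ψ hψ => by
      simp only [sub_mul, sum_sub_distrib, sum_mul, mul_assoc]
      rw [sum_comm, sub_eq_zero, sum_eq_single_of_mem ψ (CD_mem.2 hψ)]
      · rw [← mul_sum, irr_orth hψ hψ, if_pos rfl, hc, mul_right_comm, inv_mul_cancel₀ CD_card,
          one_mul]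
      · intro χ hχ hne
        rw [← mul_sum, irr_orth (CD_mem.1 hχ) hψ, if_neg hne, mul_zero]
  exact sub_eq_zero.1 (congrFun h x)

theorem CD_conj (g y : H) : IsP p (y * g * y⁻¹) ↔ IsP p g := by
  simp only [IsP, conj_pow, mul_inv_eq_one, mul_eq_left]

theorem CD_inv (g : H) : IsP p g⁻¹ ↔ IsP p g := by
  simp only [IsP, inv_pow, inv_eq_one]

theorem ct_formula : (ct p H : ℂ) =
    Nat.card H * ∑ χ ∈ (irr_finite (H := H)).toFinset, (∑ x : H with IsP p x, χ x) / χ 1 := by
  have h1 := CD_exp (fun g : H => if IsP p g then (1 : ℂ) else 0) fun g y => by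
    simp only [CD_conj]
  rw [ct, natCast_card_filter, sum_congr rfl fun x _ => h1 (cm x.1 x.2), sum_comm, mul_sum]
  refine sum_congr rfl fun χ hχ => ?_
  have h2 : IsIrr χ := CD_mem.1 hχ
  obtain ⟨d, hd, h3⟩ := h2.deg
  have h4 : χ 1 ≠ 0 := by
    rw [h3]
    exact Nat.cast_ne_zero.2 hd.ne'
  have h5 : ∑ g : H, (if IsP p g then (1 : ℂ) else 0) * χ g⁻¹ = ∑ x : H with IsP p x, χ x := by
    rw [sum_filter]
    refine Fintype.sum_equiv (Equiv.inv H) _ _ fun g => ?_
    simp only [Equiv.inv_apply, CD_inv, ite_mul, one_mul, zero_mul]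
  have h6 := irr_frob h2
  have h7 := CD_card (H := H)
  rw [← mul_sum, h5, ← mul_div_assoc, eq_div_iff h4, mul_assoc, mul_comm _ (χ 1), h6]
  field_simp

end Vale.Agent.P179
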