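import Vale.Agent.P179.TA2

/-! P179: a transfer argument.

K = closure {a, x}, w ∈ K is central in K. S a Sylow subgroup of K, commutative (Ab.sub); w ∈ S (a central p-element:
zpowers w is a normal p-subgroup, IsPGroup.le_sylow_of_normal or conjugate a Sylow above it). τ = MonoidHom.transfer of the identity
of S (CommGroup structure from commutativity), MonoidHom.transfer_eq_pow: τ w = w ^ S.index. In the commutative target
τ w = τ x ^ r, so (w ^ q) ^ index = 1; the index is coprime to p and w ^ q is a p-element.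
-/

open Finset
open scoped Classical

noncomputable section

namespace Vale.Agent.P179

set_option linter.unusedSectionVars false

variable {p : ℕ} [Fact p.Prime] {H : Type} [Group H] [Fintype H]

theorem GA_aux (hab : Ab p H) {a x w : H} (hw : IsP p w) (hc : ∀ g, w * g = g * w) {r q : ℕ}
    (e : w = a ^ r * ((x⁻¹ * a) ^ r)⁻¹) (hx : x ^ (r * q) = 1) : w ^ q = 1 := by
  obtain ⟨S⟩ : Nonempty (Sylow p H) := inferInstance
  let C : CSub H := ⟨S, hab S S.isPGroup'⟩
  let ϕ : (S : Subgroup H) →* C.G := ⟨⟨id, rfl⟩, fun _ _ => rfl⟩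
  have h1 := MonoidHom.transfer_eq_pow ϕ w fun k g _ => by
    rw [mul_assoc, ((show Commute w g from hc g).pow_left k).eq, inv_mul_cancel_left]
  have h2 : MonoidHom.transfer ϕ w = MonoidHom.transfer ϕ x ^ r := by
    conv_lhs => rw [e]
    simp only [map_mul, map_inv, map_pow, mul_pow, inv_pow, mul_inv_rev, inv_inv,
      mul_inv_cancel_left]
  have h3 : MonoidHom.transfer ϕ w ^ q = 1 := by rw [h2, ← pow_mul, ← map_pow, hx, map_one]
  rw [h1, ← map_pow] at h3
  have h4 : (w ^ (S : Subgroup H).index) ^ q = 1 := congrArg Subtype.val h3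
  obtain ⟨k, hk⟩ := hw
  have h5 : (p ^ k).Coprime (S : Subgroup H).index :=
    ((Nat.Prime.coprime_iff_not_dvd Fact.out).2 S.not_dvd_index).pow_left k
  refine (pow_eq_one_iff_of_coprime h5).1 ⟨?_, ?_⟩
  · rw [← pow_mul, mul_comm, pow_mul, hk, one_pow]
  · rw [← pow_mul, mul_comm, pow_mul, h4]

theorem central_comm (hab : Ab p H) {a x w : H} (hw : IsP p w) (c1 : w * a = a * w)
    (c2 : w * x = x * w) {r q : ℕ} (e : w = a ^ r * ((x⁻¹ * a) ^ r)⁻¹) (hx : x ^ (r * q) = 1) :
    w ^ q = 1 := by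
  have hm : ∀ g : H, w * g = g * w → g ∈ Subgroup.centralizer ({w} : Set H) := fun g h =>
    Subgroup.mem_centralizer_iff.2 fun y hy => by rwa [Set.mem_singleton_iff.1 hy]
  obtain ⟨k, hk⟩ := hw
  have := GA_aux (hab.sub (Subgroup.centralizer ({w} : Set H))) (a := ⟨a, hm a c1⟩)
    (x := ⟨x, hm x c2⟩) (w := ⟨w, hm w rfl⟩) ⟨k, Subtype.ext hk⟩
    (fun g => Subtype.ext (Subgroup.mem_centralizer_iff.1 g.2 w rfl)) (Subtype.ext e)
    (Subtype.ext hx)
  exact congrArg Subtype.val this

end Vale.Agent.P179
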