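import Vale.Agent.P179.Defs

/-! P179: conjugation of subgroups and chains.

Elementary. cc_eq_iff: members of a chain have distinct orders and cs y keeps the order.
-/

open Finset
open scoped Classical

noncomputable section

namespace Vale.Agent.P179

set_option linter.unusedSectionVars false

variable {p : ℕ} [Fact p.Prime] {H : Type} [Group H] [Fintype H]

theorem mem_cs {y x : H} {Q : Subgroup H} : x ∈ cs y Q ↔ y⁻¹ * x * y ∈ Q := by
  unfold cs
  rw [Subgroup.mem_map_equiv, MulAut.conj_symm_apply]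

theorem fx_iff {g : H} {Q : Subgroup H} : Fx g Q ↔ cs g Q = Q := by
  unfold Fx
  rw [Subgroup.mem_normalizer_iff'', SetLike.ext_iff]
  simp only [mem_cs]
  exact forall_congr' fun _ => Iff.comm

theorem cs_inj (y : H) : Function.Injective (cs y : Subgroup H → Subgroup H) :=
  Subgroup.map_injective (MulAut.conj y).injective

theorem cs_le_iff {y : H} {Q R : Subgroup H} : cs y Q ≤ cs y R ↔ Q ≤ R :=
  Subgroup.map_le_map_iff_of_injective (MulAut.conj y).injective

theorem cs_bot (y : H) : cs y (⊥ : Subgroup H) = ⊥ := Subgroup.map_bot _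

theorem cs_sup (y : H) (Q R : Subgroup H) : cs y (Q ⊔ R) = cs y Q ⊔ cs y R :=
  Subgroup.map_sup _ _ _

theorem card_cs (y : H) (Q : Subgroup H) : Nat.card (cs y Q) = Nat.card Q :=
  Subgroup.card_map_of_injective (MulAut.conj y).injective

theorem fx_bot (g : H) : Fx g (⊥ : Subgroup H) := fx_iff.2 (cs_bot g)

theorem fx_cs {y g : H} {Q : Subgroup H} : Fx (y * g * y⁻¹) (cs y Q) ↔ Fx g Q := by
  rw [fx_iff, fx_iff, ← cs_mul, inv_mul_cancel_right, cs_mul]
  exact (cs_inj y).eq_iff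

theorem cc_one (σ : Finset (Subgroup H)) : cc 1 σ = σ := by
  simp [cc, funext cs_one]

theorem cc_mul (y z : H) (σ : Finset (Subgroup H)) : cc (y * z) σ = cc y (cc z σ) := by
  simp only [cc, Finset.image_image]
  congr 1
  exact funext (cs_mul _ _)

theorem TA_pgroup {y : H} {Q : Subgroup H} : IsPGroup p (cs y Q) ↔ IsPGroup p Q := by
  refine ⟨fun h => ?_, fun h => h.map _⟩
  have h1 : IsPGroup p (cs y⁻¹ (cs y Q)) := h.map _
  rwa [← cs_mul, inv_mul_cancel, cs_one] at h1

theorem TA_lt {y : H} {Q R : Subgroup H} : cs y Q < cs y R ↔ Q < R := by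
  rw [lt_iff_le_not_ge, lt_iff_le_not_ge, cs_le_iff, cs_le_iff]

theorem isCh_cc {y : H} {Q₀ : Subgroup H} {σ : Finset (Subgroup H)} :
    IsCh p (cs y Q₀) (cc y σ) ↔ IsCh p Q₀ σ := by
  simp only [IsCh, cc, Finset.forall_mem_image, TA_pgroup, TA_lt, cs_le_iff]

theorem fxC_cc {y g : H} {σ : Finset (Subgroup H)} : FxC (y * g * y⁻¹) (cc y σ) ↔ FxC g σ := by
  simp only [FxC, cc, Finset.forall_mem_image, fx_cs]

theorem sg_cc (y : H) (σ : Finset (Subgroup H)) : sg (cc y σ) = sg σ := by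
  rw [sg, sg, cc, Finset.card_image_of_injective _ (cs_inj y)]

theorem cc_eq_iff {y : H} {Q₀ : Subgroup H} {σ : Finset (Subgroup H)} (hσ : IsCh p Q₀ σ) :
    cc y σ = σ ↔ FxC y σ := by
  constructor
  · intro h Q hQ
    have h1 : cs y Q ∈ σ := h ▸ Finset.mem_image_of_mem _ hQ
    rw [fx_iff]
    rcases hσ.2 _ h1 _ hQ with h2 | h2
    · exact Subgroup.eq_of_le_of_card_ge h2 (card_cs y Q).ge
    · exact (Subgroup.eq_of_le_of_card_ge h2 (card_cs y Q).le).symm
  · intro h
    rw [cc, Finset.image_congr (f := cs y) (g := id) fun Q hQ => fx_iff.1 (h Q hQ),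
      Finset.image_id]

theorem fxC_iff {g : H} {σ : Finset (Subgroup H)} :
    FxC g σ ↔ g ∈ ⨅ Q ∈ σ, Subgroup.normalizer (Q : Set H) := by
  simp only [FxC, Fx, Subgroup.mem_iInf]

end Vale.Agent.P179
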