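import Vale.Agent.P179.GA
import Vale.Agent.P179.TA

/-! P179: the group theoretic lemma on cusps. -/

open Finset
open scoped Classical

noncomputable section

namespace Vale.Agent.P179

set_option linter.unusedSectionVars false

variable {p : ℕ} [Fact p.Prime] {H : Type} [Group H] [Fintype H]

theorem card_sup_comm {A B : Subgroup H} (h : ∀ a ∈ A, ∀ b ∈ B, a * b = b * a) :
    Nat.card (A ⊔ B : Subgroup H) * Nat.card (A ⊓ B : Subgroup H) = Nat.card A * Nat.card B := by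
  let f : A × B →* H := MonoidHom.noncommCoprod A.subtype B.subtype fun a b => h a a.2 b b.2
  have hr : f.range = A ⊔ B := by
    have := MonoidHom.noncommCoprod_range A.subtype B.subtype fun a b => h a a.2 b b.2
    rwa [Subgroup.range_subtype, Subgroup.range_subtype] at this
  have hk : Nat.card f.ker = Nat.card (A ⊓ B : Subgroup H) := by
    have key : ∀ z : f.ker, (z.1.1 : H) * z.1.2 = 1 := fun z => z.2
    refine Nat.card_congr
      ⟨fun z => ⟨z.1.1, z.1.1.2, ?_⟩, fun y => ⟨(⟨y.1, y.2.1⟩, ⟨y.1⁻¹, B.inv_mem y.2.2⟩), ?_⟩,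
        fun z => ?_, fun y => rfl⟩
    · rw [eq_inv_of_mul_eq_one_left (key z)]
      exact B.inv_mem z.1.2.2
    · exact mul_inv_cancel y.1
    · refine Subtype.ext (Prod.ext rfl (Subtype.ext ?_))
      exact inv_eq_of_mul_eq_one_right (key z)
  have := f.ker.card_mul_index
  rw [Subgroup.index_ker, hr, hk, Nat.card_prod] at this
  rw [mul_comm]
  exact this

theorem pow_mem_of_dvd {a : H} {Z : Subgroup H} (hZ : Z ≤ Subgroup.zpowers a) {n r : ℕ}
    (hn : n ∣ Nat.card Z) (hr : orderOf a = n * r) : a ^ r ∈ Z := by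
  obtain ⟨m, hm⟩ := hn
  have : (Z.subgroupOf (Subgroup.zpowers a)).Normal := ⟨fun y hy g => by
    obtain ⟨_, i, rfl⟩ := y
    obtain ⟨_, j, rfl⟩ := g
    have e : a ^ j * a ^ i * (a ^ j)⁻¹ = a ^ i := by group
    rw [Subgroup.mem_subgroupOf] at hy ⊢
    change a ^ j * a ^ i * (a ^ j)⁻¹ ∈ Z
    rw [e]
    exact hy⟩
  have h1 := (Z.subgroupOf (Subgroup.zpowers a)).card_mul_index
  rw [Nat.card_congr (Subgroup.subgroupOfEquivOfLe hZ).toEquiv, Nat.card_zpowers, hr, hm,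
    mul_assoc] at h1
  have hn0 : 0 < n := Nat.pos_of_ne_zero fun h0 => by
    rw [h0, zero_mul] at hr
    exact (orderOf_pos a).ne' hr
  have h2 := Nat.eq_of_mul_eq_mul_left hn0 h1
  have h3 := (Z.subgroupOf (Subgroup.zpowers a)).pow_index_mem ⟨a, Subgroup.mem_zpowers a⟩
  rw [Subgroup.mem_subgroupOf] at h3
  have h4 : a ^ (Z.subgroupOf (Subgroup.zpowers a)).index ∈ Z := h3
  rw [← h2, pow_mul']
  exact Z.pow_mem h4 m

theorem GB_dvd {A k j : ℕ} {Z : Subgroup H} (hZ : IsPGroup p Z) (h1 : A ∣ k * Nat.card Z)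
    (h2 : ¬ A ∣ p ^ j * k) : p ^ (j + 1) ∣ Nat.card Z := by
  obtain ⟨s, hs⟩ := hZ.exists_card_eq
  rw [hs] at h1 ⊢
  by_contra hc
  have hle : s ≤ j := by
    by_contra hlt
    exact hc (pow_dvd_pow p (by omega))
  refine h2 (h1.trans ?_)
  rw [mul_comm]
  exact Nat.mul_dvd_mul_right (pow_dvd_pow p hle) k

theorem GB_zc {a : H} {E : Subgroup H} (ha : ∀ e ∈ E, e * a = a * e) :
    ∀ y ∈ Subgroup.zpowers a, ∀ e ∈ E, y * e = e * y := by
  rintro _ ⟨i, rfl⟩ e he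
  exact ((show Commute a e from (ha e he).symm).zpow_left i).eq

theorem lemG (hab : Ab p H) {a b x : H} (hc : cm a b = x) {j : ℕ} (hx : x ^ p ^ (j + 1) = 1)
    (E : Subgroup H) (hE : IsPGroup p E) (ha : ∀ e ∈ E, e * a = a * e) (hxE : ∀ e ∈ E, e * x = x * e)
    (hb : ∀ e ∈ E, e * b = b * e → e = 1) {k : ℕ}
    (hk : k * Nat.card (E ⊓ cs b (Subgroup.zpowers a ⊔ E) : Subgroup H) =
      Nat.card (Subgroup.zpowers a ⊔ E : Subgroup H)) (h : a ^ (p ^ j * k) ≠ 1) : E ≠ ⊥ ∧ Fx b E := by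
  have hp : p.Prime := Fact.out
  set M : Subgroup H := Subgroup.zpowers a ⊔ E with hM
  set D : Subgroup H := E ⊓ cs b M with hD
  set A := orderOf a with hA
  have A0 : 0 < A := orderOf_pos a
  have e1 : x⁻¹ * a = b * a * b⁻¹ := by
    rw [← hc, cm]
    group
  have oa1 : orderOf (b * a * b⁻¹) = A := (MulAut.conj b).orderOf_eq a
  have ha1 : ∀ e ∈ E, e * (b * a * b⁻¹) = b * a * b⁻¹ * e := fun e he => by
    rw [← e1]
    exact ((show Commute e x from hxE e he).inv_right.mul_right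
      (show Commute e a from ha e he)).eq
  have hDE : D ≤ E := inf_le_left
  have c1 := card_sup_comm (GB_zc ha)
  have c2 := card_sup_comm (GB_zc (E := D) fun e he => ha1 e (hDE he))
  rw [Nat.card_zpowers, ← hM, ← hA] at c1
  rw [Nat.card_zpowers, oa1] at c2
  set Z : Subgroup H := Subgroup.zpowers a ⊓ E with hZ
  set Z1 : Subgroup H := Subgroup.zpowers (b * a * b⁻¹) ⊓ D with hZ1
  have hM1 : Subgroup.zpowers (b * a * b⁻¹) ⊔ D ≤ cs b M := by
    refine sup_le ?_ inf_le_right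
    rw [Subgroup.zpowers_le, mem_cs]
    have : b⁻¹ * (b * a * b⁻¹) * b = a := by group
    rw [this]
    exact Subgroup.mem_sup_left (Subgroup.mem_zpowers a)
  obtain ⟨m, hm⟩ := Subgroup.card_dvd_of_le hM1
  rw [card_cs] at hm
  obtain ⟨i, hi⟩ := Subgroup.card_dvd_of_le hDE
  have D0 : 0 < Nat.card D := Nat.card_pos
  have k1 : k * Nat.card Z = A * i := by
    refine Nat.eq_of_mul_eq_mul_left D0 ?_
    calc Nat.card D * (k * Nat.card Z) = k * Nat.card D * Nat.card Z := by ring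
      _ = A * Nat.card E := by rw [hk, c1]
      _ = Nat.card D * (A * i) := by rw [hi]; ring
  have k2 : k * Nat.card Z1 = A * m := by
    refine Nat.eq_of_mul_eq_mul_left D0 ?_
    calc Nat.card D * (k * Nat.card Z1) = k * Nat.card D * Nat.card Z1 := by ring
      _ = Nat.card (Subgroup.zpowers (b * a * b⁻¹) ⊔ D : Subgroup H) * Nat.card Z1 * m := by
        rw [hk, hm]; ring
      _ = Nat.card D * (A * m) := by rw [c2]; ring
  have hA' : ¬ A ∣ p ^ j * k := fun hd => h (orderOf_dvd_iff_pow_eq_one.1 hd)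
  have pZ : IsPGroup p Z := hE.to_inf_right
  have pZ1 : IsPGroup p Z1 := (hE.to_le hDE).to_inf_right
  have d1 := GB_dvd pZ ⟨i, k1⟩ hA'
  have d2 := GB_dvd pZ1 ⟨m, k2⟩ hA'
  have dZ : Nat.card Z ∣ A := by
    have := Subgroup.card_dvd_of_le (inf_le_left : Z ≤ Subgroup.zpowers a)
    rwa [Nat.card_zpowers] at this
  obtain ⟨r, hr⟩ := d1.trans dZ
  have hz : a ^ r ∈ Z := pow_mem_of_dvd inf_le_left d1 hr
  have hz1 : (b * a * b⁻¹) ^ r ∈ Z1 := pow_mem_of_dvd inf_le_left d2 (oa1.trans hr)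
  have zE : a ^ r ∈ E := hz.2
  have z1E : (b * a * b⁻¹) ^ r ∈ E := hDE hz1.2
  have r0 : 0 < r := Nat.pos_of_ne_zero fun h0 => by
    rw [h0, mul_zero] at hr
    omega
  have zq : (a ^ r) ^ p ^ j ≠ 1 := fun h0 => by
    rw [← pow_mul] at h0
    have h1 := orderOf_dvd_iff_pow_eq_one.2 h0
    rw [← hA, hr, pow_succ, mul_comm r, mul_assoc, mul_comm p r] at h1
    have h2 := Nat.dvd_of_mul_dvd_mul_left (pow_pos hp.pos j) h1
    have h3 := Nat.le_of_dvd r0 h2
    nlinarith [hp.two_le]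
  have wE : a ^ r * ((b * a * b⁻¹) ^ r)⁻¹ ∈ E := E.mul_mem zE (E.inv_mem z1E)
  have wq : (a ^ r * ((b * a * b⁻¹) ^ r)⁻¹) ^ p ^ j ≠ 1 := fun h0 => by
    have cz : Commute (a ^ r) ((b * a * b⁻¹) ^ r) := hab E hE _ zE _ z1E
    rw [cz.inv_right.mul_pow, inv_pow, mul_inv_eq_one, conj_pow, conj_pow] at h0
    refine zq (hb _ (E.pow_mem zE _) ?_)
    exact (eq_mul_inv_iff_mul_eq.1 h0)
  have pr : ¬ p ∣ r := fun ⟨t, ht⟩ => by
    refine wq (central_comm hab (a := a) (x := x) (r := r) ?_ (ha _ wE) (hxE _ wE) ?_ ?_)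
    · obtain ⟨s, hs⟩ := hE ⟨_, wE⟩
      exact ⟨s, congrArg Subtype.val hs⟩
    · rw [e1]
    · have : r * p ^ j = p ^ (j + 1) * t := by rw [ht]; ring
      rw [this, pow_mul, hx, one_pow]
  have cop : ∀ s, Nat.Coprime (p ^ s) r := fun s =>
    ((Nat.Prime.coprime_iff_not_dvd hp).2 pr).pow_left s
  have cZ : Nat.card Z = p ^ (j + 1) := by
    refine Nat.dvd_antisymm ?_ d1
    obtain ⟨s, hs⟩ := pZ.exists_card_eq
    rw [hs, hr] at dZ
    rw [hs]
    exact (cop s).dvd_of_dvd_mul_right dZ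
  have k3 : k = r * i := by
    refine Nat.eq_of_mul_eq_mul_left (pow_pos hp.pos (j + 1)) ?_
    rw [cZ, hr] at k1
    rw [mul_comm, k1, mul_assoc]
  obtain ⟨u, hu⟩ := hE.exists_card_eq
  have i1 : i = 1 := by
    have pi : ¬ p ∣ i := fun ⟨t, ht⟩ => hA' ⟨t, by rw [k3, hr, ht]; ring⟩
    have hiu : i ∣ p ^ u := hu ▸ hi ▸ Dvd.intro_left _ rfl
    exact (Nat.coprime_self i).1
      ((((Nat.Prime.coprime_iff_not_dvd hp).2 pi).pow_left u).coprime_dvd_left hiu)
  have DE : D = E := Subgroup.eq_of_le_of_card_ge hDE (by rw [hi, i1, mul_one])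
  have cM : Nat.card M = r * p ^ u := by rw [← hk, k3, i1, mul_one, DE, hu]
  have KM : cs b⁻¹ E ≤ M := fun y hy => by
    rw [mem_cs, inv_inv] at hy
    have h1 : b * y * b⁻¹ ∈ cs b M := (DE ▸ hy : b * y * b⁻¹ ∈ D).2
    rw [mem_cs] at h1
    have : b⁻¹ * (b * y * b⁻¹) * b = y := by group
    rwa [this] at h1
  have MC : ∀ y ∈ M, ∀ e ∈ E, y * e = e * y := by
    have : M ≤ Subgroup.centralizer (E : Set H) := sup_le
      (fun y hy => Subgroup.mem_centralizer_iff.2 fun e he => (GB_zc ha y hy e he).symm)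
      (fun y hy => Subgroup.mem_centralizer_iff.2 fun e he => hab E hE e he y hy)
    exact fun y hy e he => (Subgroup.mem_centralizer_iff.1 (this hy) e he).symm
  have c3 := card_sup_comm fun y hy e he => MC y (KM hy) e he
  rw [card_cs, hu, ← pow_add] at c3
  have d3 : Nat.card (cs b⁻¹ E ⊔ E : Subgroup H) ∣ r * p ^ u :=
    cM ▸ Subgroup.card_dvd_of_le (sup_le KM le_sup_right)
  have d4 : Nat.card (cs b⁻¹ E ⊔ E : Subgroup H) ∣ p ^ u :=
    ((cop (u + u)).coprime_dvd_left ⟨_, c3.symm⟩).dvd_of_dvd_mul_left d3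
  have e4 : E = cs b⁻¹ E ⊔ E := Subgroup.eq_of_le_of_card_ge le_sup_right
    (hu ▸ Nat.le_of_dvd (pow_pos hp.pos u) d4)
  have e5 : cs b⁻¹ E = E :=
    Subgroup.eq_of_le_of_card_ge (le_sup_left.trans e4.ge) (card_cs _ _).ge
  refine ⟨fun h0 => zq ?_, ?_⟩
  · rw [h0, Subgroup.mem_bot] at zE
    rw [zE, one_pow]
  · have := (Subgroup.normalizer (E : Set H)).inv_mem (fx_iff.2 e5)
    rwa [inv_inv] at this

end Vale.Agent.P179
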