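import Vale.Agent.P179.Defs

/-! P179: total holonomy is multiplicative.

exists_triv: h ξ = the unique y with y • (orbit representative) = ξ. Equivariant permutations keep Free.
prod_eqv: on free points with h = 1 the map ξ ↦ (h (t ξ))⁻¹ • t ξ is a bijection (Finset.prod_bij or injective on a
finite set); non free points contribute 1 on both sides. c s η = h (s η) * (h η)⁻¹ is invariant on free points;
hol_mul: h (s (t ξ)) = c s (t ξ) * h (t ξ), prod_eqv with F η = c s η ^ w η. hol_comp: c φ (s ξ) * c s ξ = c s (φ ξ) * c φ ξ,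
prod_eqv twice. hol_smul: m = ∑ ξ with h ξ = 1, w ξ; (y, ξ) ↦ y • ξ is a bijection onto the free points.
-/

open Finset
open scoped Classical

noncomputable section

namespace Vale.Agent.P179

set_option linter.unusedSectionVars false

variable {P T : Type} [CommGroup P] [Finite P] [MulAction P T] [Fintype T] {h : T → P} {w : T → ℤ}
  {s t : Equiv.Perm T}

theorem exists_triv (P T : Type) [CommGroup P] [MulAction P T] : ∃ h : T → P, Triv h := by
  have key : ∀ ξ : T, ∃ y : P, y • (Quotient.mk (MulAction.orbitRel P T) ξ).out = ξ := fun ξ =>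
    MulAction.mem_orbit_iff.1 (MulAction.orbitRel_apply.1
      ((MulAction.orbitRel P T).symm (Quotient.mk_out (s := MulAction.orbitRel P T) ξ)))
  choose h hh using key
  refine ⟨h, fun y ξ hξ => ?_⟩
  have e : Quotient.mk (MulAction.orbitRel P T) (y • ξ) = Quotient.mk (MulAction.orbitRel P T) ξ :=
    Quotient.sound (MulAction.orbitRel_apply.2 (MulAction.mem_orbit ξ y))
  have a1 := hh (y • ξ)
  rw [e, ← inv_smul_eq_iff.2 (hh ξ).symm, smul_smul] at a1
  have a2 := hξ (y⁻¹ * (h (y • ξ) * (h ξ)⁻¹)) (by rw [mul_smul, a1, inv_smul_smul])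
  rw [inv_mul_eq_one, eq_mul_inv_iff_mul_eq] at a2
  exact a2.symm

theorem HA_free (y : P) (ξ : T) : Free P (y • ξ) ↔ Free P ξ := by
  refine forall_congr' fun z => ?_
  rw [smul_comm, smul_left_cancel_iff]

theorem Eqv.free (hs : Eqv P s) (ξ : T) : Free P (s ξ) ↔ Free P ξ := by
  refine forall_congr' fun z => ?_
  rw [← hs, s.apply_eq_iff_eq]

theorem HA_inv (hs : Eqv P s) : Eqv P s⁻¹ := fun y ξ => by
  rw [Equiv.Perm.inv_eq_iff_eq, hs]
  simp

theorem HA_back (hh : Triv h) (ht : Eqv P t) {ξ : T} (h1 : h ξ = 1) (h2 : Free P ξ) :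
    (h (t⁻¹ ((h (t ξ))⁻¹ • t ξ)))⁻¹ • t⁻¹ ((h (t ξ))⁻¹ • t ξ) = ξ := by
  have e : t⁻¹ ((h (t ξ))⁻¹ • t ξ) = (h (t ξ))⁻¹ • ξ := by
    rw [HA_inv ht]
    simp
  rw [e, hh _ _ h2, h1, mul_one, inv_inv, smul_inv_smul]

theorem HA_mem (hh : Triv h) (ht : Eqv P t) {ξ : T} (h2 : Free P ξ) :
    h ((h (t ξ))⁻¹ • t ξ) = 1 ∧ Free P ((h (t ξ))⁻¹ • t ξ) :=
  ⟨by rw [hh _ _ ((ht.free ξ).2 h2), inv_mul_cancel], (HA_free _ _).2 ((ht.free ξ).2 h2)⟩

theorem prod_eqv (hh : Triv h) (ht : Eqv P t) (F : T → P) (hF : ∀ (y : P) ξ, F (y • ξ) = F ξ)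
    (h0 : ∀ ξ, ¬ Free P ξ → F ξ = 1) : ∏ ξ with h ξ = 1, F (t ξ) = ∏ ξ with h ξ = 1, F ξ := by
  have key : ∀ G : T → P, (∀ ξ, ¬ Free P ξ → G ξ = 1) →
      ∏ ξ with h ξ = 1, G ξ = ∏ ξ with h ξ = 1 ∧ Free P ξ, G ξ := by
    intro G hG
    rw [← filter_filter]
    exact (prod_filter_of_ne fun ξ _ a => not_not.1 fun b => a (hG ξ b)).symm
  rw [key F h0, key (fun ξ => F (t ξ)) fun ξ a => h0 _ fun b => a ((ht.free ξ).1 b)]
  refine prod_nbij' (fun ξ => (h (t ξ))⁻¹ • t ξ) (fun ξ => (h (t⁻¹ ξ))⁻¹ • t⁻¹ ξ)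
    (fun ξ a => ?_) (fun ξ a => ?_) (fun ξ a => ?_) (fun ξ a => ?_) fun ξ _ => (hF _ _).symm
  all_goals simp only [mem_filter, mem_univ, true_and] at a ⊢
  · exact HA_mem hh ht a.2
  · exact HA_mem hh (HA_inv ht) a.2
  · exact HA_back hh ht a.1 a.2
  · simpa only [inv_inv] using HA_back hh (HA_inv ht) a.1 a.2

theorem HA_eqv (hh : Triv h) (hw : Wt P w) (hs : Eqv P s) (ht : Eqv P t) :
    ∏ ξ with h ξ = 1, (h (s (t ξ)) * (h (t ξ))⁻¹) ^ w (t ξ) = hol h w s := by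
  rw [prod_eqv hh ht (fun η => (h (s η) * (h η)⁻¹) ^ w η) (fun y η => ?_) fun η a => ?_]
  · exact prod_congr rfl fun ξ a => by rw [(mem_filter.1 a).2, inv_one, mul_one]
  · rw [hw.2]
    by_cases a : w η = 0
    · rw [a, zpow_zero, zpow_zero]
    · rw [hs, hh _ _ ((hs.free η).2 (hw.1 η a)), hh _ _ (hw.1 η a), mul_inv, mul_mul_mul_comm,
        mul_inv_cancel, one_mul]
  · rw [not_not.1 fun b => a (hw.1 η b), zpow_zero]

theorem hol_mul (hh : Triv h) (hw : Wt P w) (hs : Eqv P s) (ht : Eqv P t)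
    (hwt : ∀ ξ, w (t ξ) = w ξ) : hol h w (s * t) = hol h w s * hol h w t := by
  rw [← HA_eqv hh hw hs ht, hol, hol, ← prod_mul_distrib]
  refine prod_congr rfl fun ξ _ => ?_
  rw [hwt, ← mul_zpow, inv_mul_cancel_right, Equiv.Perm.mul_apply]

theorem hol_comp (hh : Triv h) (hw : Wt P w) (hs : Eqv P s) (ht : Eqv P t)
    (hc : ∀ ξ, t (s ξ) = s (t ξ)) (hws : ∀ ξ, w (s ξ) = w ξ) : hol h (w ∘ t) s = hol h w s := by
  have hw' : Wt P (w ∘ t) := ⟨fun ξ a => (ht.free ξ).1 (hw.1 _ a), fun y ξ => by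
    simp only [Function.comp_apply, ht y ξ, hw.2]⟩
  have a1 := hol_mul hh hw' ht hs fun ξ => by simp only [Function.comp_apply, hc, hws]
  have a2 : hol h (w ∘ t) (t * s) = hol h w s * hol h (w ∘ t) t := by
    rw [← HA_eqv hh hw hs ht, hol, hol, ← prod_mul_distrib]
    refine prod_congr rfl fun ξ _ => ?_
    rw [Function.comp_apply, ← mul_zpow, inv_mul_cancel_right, Equiv.Perm.mul_apply, hc]
  rw [a2, mul_comm] at a1
  exact (mul_left_cancel a1).symm

theorem HA_zpow (x : P) (A : Finset T) (w : T → ℤ) : ∏ ξ ∈ A, x ^ w ξ = x ^ ∑ ξ ∈ A, w ξ := by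
  induction A using Finset.induction_on with
  | empty => simp
  | insert a A ha ih => rw [prod_insert ha, sum_insert ha, ih, zpow_add]

theorem hol_smul (hh : Triv h) (hw : Wt P w) (x : P) (hs : ∀ ξ, w ξ ≠ 0 → s ξ = x • ξ) :
    ∃ m : ℤ, ∑ ξ, w ξ = Nat.card P * m ∧ hol h w s = x ^ m := by
  refine ⟨∑ ξ with h ξ = 1, w ξ, ?_, ?_⟩
  · have := Fintype.ofFinite P
    have key : ∀ y : P, ∑ ξ with h ξ = y, w ξ = ∑ ξ with h ξ = 1, w ξ := by
      intro y
      rw [sum_filter, sum_filter, ← Equiv.sum_comp (MulAction.toPerm y)]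
      refine sum_congr rfl fun ξ _ => ?_
      rw [MulAction.toPerm_apply, hw.2]
      by_cases a : w ξ = 0
      · simp only [a, ite_self]
      · simp only [hh _ _ (hw.1 ξ a), mul_eq_left]
    rw [← sum_fiberwise univ h w]
    simp only [key, sum_const, card_univ, Nat.card_eq_fintype_card, nsmul_eq_mul]
  · rw [← HA_zpow]
    refine prod_congr rfl fun ξ a => ?_
    by_cases b : w ξ = 0
    · rw [b, zpow_zero, zpow_zero]
    · rw [hs ξ b, hh _ _ (hw.1 ξ b), (mem_filter.1 a).2, mul_one]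

end Vale.Agent.P179
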