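import Vale.Agent.P179.HA

/-! P179: holonomy of a homogeneous piece.

Trivial if O is empty. Let Ω = points of O with h = 1, #Ω = k, s1 ξ = (h (s ξ))⁻¹ • s ξ a bijection of Ω, c ξ = h (s ξ).
Let n > 0 be least with (s ^ n) ξ ∈ P • ξ, (s ^ n) ξ = u • ξ; by hom the same n, u work for all points of O.
Every s1 orbit in Ω has exactly n points and the product of c over it is u (telescoping, (s ^ i) ξ = (∏ c) • s1^[i] ξ).
Strong induction on invariant subsets of Ω: #Ω = n * e and ∏ c = u ^ e. Then ξ = (s ^ (q * k)) ξ = u ^ (q * e) • ξ.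
-/

open Finset
open scoped Classical

noncomputable section

namespace Vale.Agent.P179

set_option linter.unusedSectionVars false

variable {P T : Type} [CommGroup P] [Finite P] [MulAction P T] [Fintype T] {h : T → P} {w : T → ℤ}
  {s t : Equiv.Perm T}

theorem HB_orb (f : T → T) (c : T → P) (u : P) {n : ℕ} (hn : 0 < n) (Ω : Finset T) :
    (∀ ξ ∈ Ω, f ξ ∈ Ω) → (∀ ξ ∈ Ω, f^[n] ξ = ξ) → (∀ ξ ∈ Ω, ∀ i, 0 < i → i < n → f^[i] ξ ≠ ξ) →
    (∀ ξ ∈ Ω, ∏ i ∈ range n, c (f^[i] ξ) = u) → ∃ e, #Ω = n * e ∧ ∏ ξ ∈ Ω, c ξ = u ^ e := by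
  induction Ω using Finset.strongInduction with
  | H Ω ih =>
    intro h1 h2 h3 h4
    rcases Ω.eq_empty_or_nonempty with rfl | ⟨ξ, hξ⟩
    · exact ⟨0, by simp, by simp⟩
    have hm : ∀ i, f^[i] ξ ∈ Ω := fun i => by
      induction i with
      | zero => exact hξ
      | succ i ih => rw [Function.iterate_succ_apply']; exact h1 _ ih
    have hlt : ∀ i j, i < j → j < n → f^[i] ξ ≠ f^[j] ξ := fun i j hij hj e => by
      refine h3 _ (hm i) (j - i) (by omega) (by omega) ?_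
      rw [← Function.iterate_add_apply, Nat.sub_add_cancel hij.le, e]
    have hinj : Set.InjOn (fun i => f^[i] ξ) (range n : Set ℕ) := fun i hi j hj e => by
      simp only [coe_range, Set.mem_Iio] at hi hj
      rcases lt_trichotomy i j with k | k | k
      · exact (hlt i j k hj e).elim
      · exact k
      · exact (hlt j i k hi e.symm).elim
    have hB : (range n).image (fun i => f^[i] ξ) ⊆ Ω := fun η hη => by
      obtain ⟨i, -, rfl⟩ := mem_image.1 hη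
      exact hm i
    have hall : ∀ i, f^[i] ξ ∈ (range n).image fun i => f^[i] ξ := fun i =>
      mem_image.2 ⟨i % n, mem_range.2 (Nat.mod_lt _ hn),
        Function.IsPeriodicPt.iterate_mod_apply (h2 ξ hξ) i⟩
    obtain ⟨e, e1, e2⟩ := ih (Ω \ (range n).image fun i => f^[i] ξ)
      (sdiff_ssubset hB ⟨_, hall 0⟩) (fun η hη => by
        obtain ⟨k1, k2⟩ := mem_sdiff.1 hη
        refine mem_sdiff.2 ⟨h1 _ k1, fun k => k2 ?_⟩
        obtain ⟨i, -, hi⟩ := mem_image.1 k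
        have k3 := h2 η k1
        rw [← Nat.sub_add_cancel hn, Function.iterate_succ_apply, ← hi,
          ← Function.iterate_add_apply] at k3
        exact k3 ▸ hall _)
      (fun η hη => h2 η (mem_sdiff.1 hη).1) (fun η hη => h3 η (mem_sdiff.1 hη).1)
      fun η hη => h4 η (mem_sdiff.1 hη).1
    refine ⟨e + 1, ?_, ?_⟩
    · rw [← card_sdiff_add_card_eq_card hB, e1, card_image_of_injOn hinj, card_range, mul_add,
        mul_one]
    · rw [← prod_sdiff hB, e2, prod_image hinj, h4 ξ hξ, pow_succ]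

theorem HB_tel (hs : Eqv P s) (h : T → P) (ξ : T) (i : ℕ) : (s ^ i) ξ =
    (∏ j ∈ range i, h (s ((fun η => (h (s η))⁻¹ • s η)^[j] ξ))) •
      (fun η => (h (s η))⁻¹ • s η)^[i] ξ := by
  induction i with
  | zero => simp
  | succ i ih =>
    rw [pow_succ', Equiv.Perm.mul_apply, ih, hs, prod_range_succ, Function.iterate_succ_apply',
      mul_smul, smul_inv_smul]

theorem hol_cyc (hh : Triv h) (hs : Eqv P s) (O : Finset T) (hf : ∀ ξ ∈ O, Free P ξ)
    (hP : ∀ (y : P), ∀ ξ ∈ O, y • ξ ∈ O) (hO : ∀ ξ ∈ O, s ξ ∈ O)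
    (hom : ∀ ξ ∈ O, ∀ η ∈ O, ∀ (n : ℕ) (y : P), (s ^ n) ξ = y • ξ → (s ^ n) η = y • η) {k q : ℕ}
    (hk : #O = Nat.card P * k) (hq : ∀ ξ ∈ O, (s ^ (q * k)) ξ = ξ) :
    hol h (fun ξ => if ξ ∈ O then 1 else 0) s ^ q = 1 := by
  obtain ⟨Ω, hΩ, e0⟩ : ∃ Ω : Finset T, (∀ ξ, ξ ∈ Ω ↔ h ξ = 1 ∧ ξ ∈ O) ∧
      hol h (fun ξ => if ξ ∈ O then 1 else 0) s = ∏ ξ ∈ Ω, h (s ξ) := by
    refine ⟨(univ.filter fun ξ => h ξ = 1).filter (· ∈ O), by simp, ?_⟩
    unfold hol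
    rw [prod_filter (fun ξ => ξ ∈ O)]
    refine prod_congr rfl fun ξ _ => ?_
    split_ifs with k <;> simp [k]
  rw [e0]
  rcases Ω.eq_empty_or_nonempty with rfl | ⟨ξ0, hξ0⟩
  · simp
  have h0 := ((hΩ ξ0).1 hξ0).2
  have hex : ∃ n, 0 < n ∧ ∃ y : P, (s ^ n) ξ0 = y • ξ0 :=
    ⟨orderOf s, orderOf_pos s, 1, by simp [pow_orderOf_eq_one]⟩
  obtain ⟨hn, u, hu⟩ := Nat.find_spec hex
  have hmin := fun i => Nat.find_min hex (m := i)
  generalize Nat.find hex = n at hn hu hmin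
  have h1 : ∀ ξ ∈ Ω, (h (s ξ))⁻¹ • s ξ ∈ Ω := fun ξ hξ => by
    have k := hO ξ ((hΩ ξ).1 hξ).2
    exact (hΩ _).2 ⟨by rw [hh _ _ (hf _ k), inv_mul_cancel], hP _ _ k⟩
  have hm : ∀ ξ ∈ Ω, ∀ i, (fun η => (h (s η))⁻¹ • s η)^[i] ξ ∈ Ω := fun ξ hξ i => by
    induction i with
    | zero => exact hξ
    | succ i ih => rw [Function.iterate_succ_apply']; exact h1 _ ih
  have h4 : ∀ ξ ∈ Ω, ∏ j ∈ range n, h (s ((fun η => (h (s η))⁻¹ • s η)^[j] ξ)) = u := by
    intro ξ hξ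
    obtain ⟨k1, k2⟩ := (hΩ ξ).1 hξ
    obtain ⟨k3, k4⟩ := (hΩ _).1 (hm ξ hξ n)
    have k := congrArg h ((HB_tel hs h ξ n).symm.trans (hom ξ0 h0 ξ k2 n u hu))
    rwa [hh _ _ (hf _ k4), hh _ _ (hf _ k2), k1, k3, mul_one, mul_one] at k
  obtain ⟨e, e1, e2⟩ := HB_orb (fun η => (h (s η))⁻¹ • s η) (fun η => h (s η)) u hn Ω h1
    (fun ξ hξ => by
      have k := (HB_tel hs h ξ n).symm.trans (hom ξ0 h0 ξ ((hΩ ξ).1 hξ).2 n u hu)
      rw [h4 ξ hξ] at k
      exact smul_left_cancel _ k)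
    (fun ξ hξ i hi hin k => by
      have k1 := HB_tel hs h ξ i
      rw [k] at k1
      exact hmin i hin ⟨hi, _, hom ξ ((hΩ ξ).1 hξ).2 ξ0 h0 i _ k1⟩) h4
  have hc : #O = Nat.card P * #Ω := by
    have := Fintype.ofFinite P
    rw [Nat.card_eq_fintype_card, ← card_univ, ← card_product]
    refine card_nbij' (fun η => (h η, (h η)⁻¹ • η)) (fun x => x.1 • x.2) (fun η hη => ?_)
      (fun x hx => ?_) (fun η _ => by simp) fun x hx => ?_
    · refine mem_coe.2 (mem_product.2 ⟨mem_univ _, (hΩ _).2 ⟨?_, hP _ _ hη⟩⟩)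
      exact (hh _ _ (hf _ hη)).trans (inv_mul_cancel _)
    · exact hP _ _ ((hΩ _).1 (mem_product.1 (mem_coe.1 hx)).2).2
    · obtain ⟨k1, k2⟩ := (hΩ _).1 (mem_product.1 (mem_coe.1 hx)).2
      simp only [hh _ _ (hf _ k2), k1, mul_one, inv_smul_smul]
  have hke : k = n * e := by
    rw [← e1]
    exact Nat.eq_of_mul_eq_mul_left Nat.card_pos (hk.symm.trans hc)
  have hpow : ∀ j, (s ^ (n * j)) ξ0 = u ^ j • ξ0 := fun j => by
    induction j with
    | zero => simp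
    | succ j ih =>
      have k : ∀ (i : ℕ) (y : P) (ξ : T), (s ^ i) (y • ξ) = y • (s ^ i) ξ := fun i y ξ => by
        induction i with
        | zero => rfl
        | succ i ih => rw [pow_succ', Equiv.Perm.mul_apply, Equiv.Perm.mul_apply, ih, hs]
      rw [mul_add, mul_one, add_comm, pow_add, Equiv.Perm.mul_apply, ih, k, hu, pow_succ, mul_smul]
  rw [e2, ← pow_mul]
  refine hf ξ0 h0 _ ?_
  rw [← hpow, ← mul_assoc, ← hke, mul_comm]
  exact hq ξ0 h0

end Vale.Agent.P179
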