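import Vale.Agent.P179.HA

/-! P179: combination of the pieces, and the braid relation.

hol is additive in w (zpow_add, prod_mul_distrib). hol_pow: w = w on N + w off N. On N: let t be the involution
(τ where w ≠ 0 ∧ N, identity elsewhere; Function.Involutive.toPerm), v = indicator of w = 1 ∧ N; then w on N = v - v ∘ t
and hol_comp gives 1. Off N: w is the sum over the classes O of r of (value of w on O) • indicator of O
(sum over the image finset of ξ ↦ filter (r ξ)), hol h (c • v) s = hol h v s ^ c. braid: hol_mul gives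
hol s = hol t by cancellation, hol ((s t s) ^ 4) = hol s ^ 12, and hol_smul.
-/

open Finset
open scoped Classical

noncomputable section

namespace Vale.Agent.P179

set_option linter.unusedSectionVars false

variable {P T : Type} [CommGroup P] [Finite P] [MulAction P T] [Fintype T] {h : T → P} {w : T → ℤ}
  {s t : Equiv.Perm T}

theorem HC_add (h : T → P) (v v' : T → ℤ) (s : Equiv.Perm T) :
    hol h (v + v') s = hol h v s * hol h v' s := by
  simp only [hol, Pi.add_apply, zpow_add, prod_mul_distrib]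

theorem HC_mul (h : T → P) (c : ℤ) (v : T → ℤ) (s : Equiv.Perm T) :
    hol h (fun η => v η * c) s = hol h v s ^ c := by
  simp only [hol, zpow_mul, prod_zpow]

theorem HC_sum {ι : Type} (S : Finset ι) (f : ι → T → ℤ) {q : ℕ}
    (hf : ∀ i ∈ S, hol h (f i) s ^ q = 1) : hol h (∑ i ∈ S, f i) s ^ q = 1 :=
  Finset.sum_induction f (fun v => hol h v s ^ q = 1)
    (fun a b ha hb => by rw [HC_add, mul_pow, ha, hb, one_mul]) (by simp [hol]) hf

theorem hol_pow (hh : Triv h) (hw : Wt P w) (hs : Eqv P s) (hws : ∀ ξ, w (s ξ) = w ξ)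
    (hw1 : ∀ ξ, w ξ = 0 ∨ w ξ = 1 ∨ w ξ = -1) (N : T → Prop) (τ : T → T)
    (n1 : ∀ (y : P) ξ, N (y • ξ) ↔ N ξ) (n2 : ∀ ξ, N (s ξ) ↔ N ξ)
    (n3 : ∀ ξ, w ξ ≠ 0 → N ξ → N (τ ξ) ∧ τ (τ ξ) = ξ ∧ w (τ ξ) = - w ξ ∧ τ (s ξ) = s (τ ξ) ∧
      ∀ y : P, τ (y • ξ) = y • τ ξ) (r : T → T → Prop) {q : ℕ}
    (hr : ∀ ξ, w ξ ≠ 0 → ¬ N ξ → r ξ ξ ∧ (∀ η, r ξ η → w η = w ξ ∧ ¬ N η ∧ ∀ ζ, r η ζ ↔ r ξ ζ) ∧
      hol h (fun η => if r ξ η then 1 else 0) s ^ q = 1) : hol h w s ^ q = 1 := by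
  have inv : Function.Involutive fun ξ => if w ξ ≠ 0 ∧ N ξ then τ ξ else ξ := fun ξ => by
    by_cases c : w ξ ≠ 0 ∧ N ξ
    · obtain ⟨a1, a2, a3, -⟩ := n3 ξ c.1 c.2
      simp only [if_pos c]
      rw [if_pos ⟨by rw [a3]; exact neg_ne_zero.2 c.1, a1⟩, a2]
    · simp only [if_neg c]
  let t : Equiv.Perm T := inv.toPerm
  have et : ∀ ξ, t ξ = if w ξ ≠ 0 ∧ N ξ then τ ξ else ξ := fun _ => rfl
  let v : T → ℤ := fun ξ => if w ξ = 1 ∧ N ξ then 1 else 0
  have k1 : hol h (v ∘ t) s = hol h v s := hol_comp hh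
    ⟨fun ξ e => hw.1 ξ (by
      have c : w ξ = 1 ∧ N ξ := by_contra fun c => e (if_neg c)
      rw [c.1]
      exact one_ne_zero), fun y ξ => by simp only [v, hw.2, n1]⟩ hs
    (fun y ξ => by
      rw [et, et, hw.2, n1]
      split_ifs with c
      exacts [(n3 ξ c.1 c.2).2.2.2.2 y, rfl])
    (fun ξ => by
      rw [et, et, hws, n2]
      split_ifs with c
      exacts [(n3 ξ c.1 c.2).2.2.2.1, rfl])
    fun ξ => by simp only [v, hws, n2]
  let S : Finset T := univ.filter fun ξ => w ξ ≠ 0 ∧ ¬ N ξ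
  let cl : T → Finset T := fun ξ => univ.filter (r ξ)
  have k2 : hol h (∑ O ∈ S.image cl, fun η => if η ∈ O then w η else 0) s ^ q = 1 := by
    refine HC_sum _ _ fun O hO => ?_
    obtain ⟨ξ, hξ, rfl⟩ := mem_image.1 hO
    obtain ⟨-, b2, b3⟩ := hr ξ (mem_filter.1 hξ).2.1 (mem_filter.1 hξ).2.2
    have e : (fun η => if η ∈ cl ξ then w η else 0) =
        fun η => (if r ξ η then 1 else 0) * w ξ := funext fun η => by
      simp only [cl, mem_filter, mem_univ, true_and]
      split_ifs with c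
      · rw [(b2 η c).1, one_mul]
      · rw [zero_mul]
    rw [e, HC_mul, ← zpow_natCast, ← zpow_mul, mul_comm, zpow_mul, zpow_natCast, b3, one_zpow]
  have k3 : w + v ∘ t = v + ∑ O ∈ S.image cl, fun η => if η ∈ O then w η else 0 := by
    funext η
    simp only [Pi.add_apply, Function.comp_apply, Finset.sum_apply]
    by_cases c : η ∈ S
    · have c' := (mem_filter.1 c).2
      rw [sum_eq_single (cl η), if_pos (mem_filter.2 ⟨mem_univ _, (hr η c'.1 c'.2).1⟩), et,
        if_neg fun d => c'.2 d.2, add_comm]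
      · intro O hO hne
        obtain ⟨ξ, hξ, rfl⟩ := mem_image.1 hO
        refine if_neg fun d => hne ?_
        have := ((hr ξ (mem_filter.1 hξ).2.1 (mem_filter.1 hξ).2.2).2.1 η (mem_filter.1 d).2).2.2
        exact filter_congr fun ζ _ => (this ζ).symm
      · exact fun d => absurd (mem_image_of_mem cl c) d
    · rw [sum_eq_zero, add_zero]
      · by_cases d : w η ≠ 0 ∧ N η
        · obtain ⟨a1, -, a3, -⟩ := n3 η d.1 d.2
          rw [et, if_pos d]
          simp only [v, a1, a3, d.2, and_true]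
          rcases hw1 η with e | e | e
          · exact absurd e d.1
          · rw [e]
            rfl
          · rw [e]
            rfl
        · have e : w η = 0 := by_contra fun e =>
            c (mem_filter.2 ⟨mem_univ _, e, fun f => d ⟨e, f⟩⟩)
          rw [et, if_neg d, e, zero_add]
      · intro O hO
        obtain ⟨ξ, hξ, rfl⟩ := mem_image.1 hO
        refine if_neg fun d => c ?_
        have := (hr ξ (mem_filter.1 hξ).2.1 (mem_filter.1 hξ).2.2).2.1 η (mem_filter.1 d).2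
        exact mem_filter.2 ⟨mem_univ _, this.1 ▸ (mem_filter.1 hξ).2.1, this.2.1⟩
  have k4 := congrArg (fun u => hol h u s) k3
  simp only [HC_add, k1] at k4
  rw [mul_comm] at k4
  rw [mul_left_cancel k4, k2]

theorem braid (hh : Triv h) (hw : Wt P w) (hs : Eqv P s) (ht : Eqv P t) (hws : ∀ ξ, w (s ξ) = w ξ)
    (hwt : ∀ ξ, w (t ξ) = w ξ) (hb : s * t * s = t * s * t) {x : P}
    (hx : ∀ ξ, w ξ ≠ 0 → ((s * t * s) ^ 4) ξ = x • ξ) {q : ℕ} (hq : hol h w s ^ q = 1) :
    ∃ m : ℤ, ∑ ξ, w ξ = Nat.card P * m ∧ x ^ (m * q) = 1 := by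
  have em : ∀ {a b : Equiv.Perm T}, Eqv P a → Eqv P b → Eqv P (a * b) := fun ha hb y ξ => by
    rw [Equiv.Perm.mul_apply, hb, ha, Equiv.Perm.mul_apply]
  have wm : ∀ {a b : Equiv.Perm T}, (∀ ξ, w (a ξ) = w ξ) → (∀ ξ, w (b ξ) = w ξ) →
      ∀ ξ, w ((a * b) ξ) = w ξ := fun ha hb ξ => by rw [Equiv.Perm.mul_apply, ha, hb]
  have e1 : hol h w (s * t * s) = hol h w s * hol h w t * hol h w s := by
    rw [hol_mul hh hw (em hs ht) hs hws, hol_mul hh hw hs ht hwt]
  have e2 : hol h w (t * s * t) = hol h w t * hol h w s * hol h w t := by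
    rw [hol_mul hh hw (em ht hs) ht hwt, hol_mul hh hw ht hs hws]
  have e3 : hol h w s = hol h w t := by
    rw [hb, e2, mul_comm (hol h w t)] at e1
    exact (mul_left_cancel e1).symm
  have u1 := em (em hs ht) hs
  have u2 := wm (wm hws hwt) hws
  obtain ⟨m, m1, m2⟩ := hol_smul hh hw x hx
  refine ⟨m, m1, ?_⟩
  rw [pow_succ, pow_succ, pow_succ, pow_one, hol_mul hh hw (em (em u1 u1) u1) u1 u2,
    hol_mul hh hw (em u1 u1) u1 u2, hol_mul hh hw u1 u1 u2, e1, ← e3] at m2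
  rw [zpow_mul, zpow_natCast, ← m2]
  simp only [mul_pow, hq, one_mul]

end Vale.Agent.P179
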