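import Vale.Agent.P179.TA2

/-! P179: lifting commuting pairs.

Q = ker f commutative p-group. Fix c p-regular of order n and a p-regular lift a of c (take any lift to a power e with
e ≡ 1 mod n, e ≡ 0 mod the p-part), orderOf a = n. For u ∈ Q, (a u) is p-regular iff (a u) ^ n = 1 iff N u = 1 where
N u = ∏ i < n, a⁻¹ ^ i u a ^ i (a hom Q → Q onto C_Q(a), bijective on C_Q(a) by coprimality); δ u = a⁻¹ u⁻¹ a u has kernel C_Q(a),
image inside ker N, equal by counting: all p-regular lifts of c are Q-conjugate to a (reg_conj; Schur Zassenhaus free).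
lift_count: K1 = preimage of the centralizer of c acts on the p-regular lifts; for each such lift a1 the number of lifts b of d
commuting with a1 is |C_Q(a1)| (nonempty by reg_conj), and there are [Q : C_Q(a)] lifts.
-/

open Finset
open scoped Classical

noncomputable section

namespace Vale.Agent.P179

set_option linter.unusedSectionVars false

variable {p : ℕ} [Fact p.Prime] {H : Type} [Group H] [Fintype H] {K : Type} [Group K] [Fintype K]

theorem reg_lift (f : K →* H) (hf : Function.Surjective f) (hk : IsPGroup p f.ker) {c : H}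
    (hc : IsReg p c) : ∃ a, f a = c ∧ IsReg p a := by
  obtain ⟨a, rfl⟩ := hf c
  obtain ⟨k, hk⟩ := hk ⟨a ^ orderOf (f a), by rw [MonoidHom.mem_ker, map_pow, pow_orderOf_eq_one]⟩
  have h1 : (a ^ orderOf (f a)) ^ p ^ k = 1 := congrArg Subtype.val hk
  obtain ⟨e, h2, h3⟩ := Nat.chineseRemainder (Nat.Coprime.pow_right k hc) 1 0
  obtain ⟨m, rfl⟩ := (Nat.modEq_zero_iff_dvd).1 h3
  refine ⟨a ^ (p ^ k * m), ?_, Nat.Coprime.coprime_dvd_left (orderOf_dvd_of_pow_eq_one ?_) hc⟩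
  · rw [map_pow, pow_eq_pow_iff_modEq.2 h2, pow_one]
  · rw [← pow_mul, mul_comm, pow_mul, pow_mul, h1, one_pow]

theorem reg_conj (f : K →* H) (hk : IsPGroup p f.ker)
    (hq : ∀ u ∈ f.ker, ∀ v ∈ f.ker, u * v = v * u) {a a1 : K} (ha : IsReg p a) (ha1 : IsReg p a1)
    (e : f a = f a1) : ∃ u ∈ f.ker, a1 = u * a * u⁻¹ := by
  let _ : CommGroup f.ker :=
    { (inferInstance : Group f.ker) with mul_comm := fun u v => Subtype.ext (hq _ u.2 _ v.2) }
  let v : ℕ → f.ker := fun i => ⟨a1 ^ i * (a ^ i)⁻¹, by simp [MonoidHom.mem_ker, e]⟩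
  let φ : f.ker →* f.ker := (MulAut.conjNormal a).toMonoidHom
  have hφ : ∀ u : f.ker, (φ u : K) = a * u * a⁻¹ := fun u => rfl
  have h1 : ∀ i, v (i + 1) = v 1 * φ (v i) := fun i => Subtype.ext (by
    change a1 ^ (i + 1) * (a ^ (i + 1))⁻¹ = a1 ^ 1 * (a ^ 1)⁻¹ * (a * (a1 ^ i * (a ^ i)⁻¹) * a⁻¹)
    group)
  have h2 : v (orderOf a * orderOf a1) = v 0 := Subtype.ext (by
    change a1 ^ _ * (a ^ _)⁻¹ = a1 ^ 0 * (a ^ 0)⁻¹
    rw [pow_mul a, pow_mul' a1, pow_orderOf_eq_one, pow_orderOf_eq_one, one_pow, one_pow,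
      pow_zero, pow_zero])
  have h3 := Finset.prod_range_succ v (orderOf a * orderOf a1)
  rw [Finset.prod_range_succ', h2, mul_left_inj] at h3
  rw [Finset.prod_congr rfl fun i _ => h1 i, Finset.prod_mul_distrib, Finset.prod_const,
    Finset.card_range, ← map_prod] at h3
  obtain ⟨k, hk⟩ := hk (v 1)
  obtain ⟨m, hm⟩ := exists_pow_eq_self_of_coprime (x := v 1) (Nat.Coprime.coprime_dvd_right
    (orderOf_dvd_of_pow_eq_one hk) (Nat.Coprime.pow_right k (Nat.Coprime.mul_left ha ha1)))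
  have h4 := congrArg (· ^ m) h3
  simp only [mul_pow, hm, ← map_pow] at h4
  generalize (∏ i ∈ range (orderOf a * orderOf a1), v i) ^ m = u at h4
  have h5 : a1 ^ 1 * (a ^ 1)⁻¹ * (a * u * a⁻¹) = u := congrArg Subtype.val h4
  refine ⟨u, u.2, ?_⟩
  calc a1 = a1 ^ 1 * (a ^ 1)⁻¹ * (a * u * a⁻¹) * a * (u : K)⁻¹ := by group
    _ = _ := by rw [h5]

theorem lift_count (f : K →* H) (hf : Function.Surjective f) (hk : IsPGroup p f.ker)
    (hq : ∀ u ∈ f.ker, ∀ v ∈ f.ker, u * v = v * u) {c d : H} (hc : IsReg p c) (e : c * d = d * c) :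
    #{y : K × K | (y.1 * y.2 = y.2 * y.1 ∧ IsReg p y.1) ∧ f y.1 = c ∧ f y.2 = d} = Nat.card f.ker := by
  obtain ⟨a, ha, ha'⟩ := reg_lift f hf hk hc
  have cj : ∀ q : K, IsReg p (q * a * q⁻¹) := fun q => by
    have := (MulAut.conj q).orderOf_eq a
    unfold IsReg
    rwa [← MulAut.conj_apply, this]
  obtain ⟨b, hb, hab⟩ : ∃ b, f b = d ∧ Commute a b := by
    obtain ⟨b, rfl⟩ := hf d
    obtain ⟨u, hu, h1⟩ := reg_conj f hk hq ha' (cj b) (by simp [ha, ← e])
    refine ⟨u⁻¹ * b, by simp [MonoidHom.mem_ker.1 hu], ?_⟩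
    change a * (u⁻¹ * b) = u⁻¹ * b * a
    rw [mul_inv_eq_iff_eq_mul] at h1
    rw [mul_assoc, h1]
    group
  choose! s hs hs' using fun a1 (h : IsReg p a1) (h' : f a = f a1) => reg_conj f hk hq ha' h h'
  have key : ∀ y : K × K, (y.1 * y.2 = y.2 * y.1 ∧ IsReg p y.1) ∧ f y.1 = c ∧ f y.2 = d →
      s y.1 * (b⁻¹ * ((s y.1)⁻¹ * y.2 * s y.1)) * a =
        y.1 * (s y.1 * (b⁻¹ * ((s y.1)⁻¹ * y.2 * s y.1))) := fun y hy => by
    have h1 := hs' y.1 hy.1.2 (ha.trans hy.2.1.symm)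
    have h2 := hy.1.1
    generalize s y.1 = t at h1
    have h3 : Commute a (t⁻¹ * y.2 * t) := by
      change a * (t⁻¹ * y.2 * t) = t⁻¹ * y.2 * t * a
      rw [h1] at h2
      calc _ = t⁻¹ * (t * a * t⁻¹ * y.2) * t := by group
        _ = _ := by rw [h2]; group
    rw [mul_assoc, ← (hab.inv_right.mul_right h3).eq, h1]
    group
  rw [Nat.card_eq_fintype_card, Fintype.card_subtype]
  refine Finset.card_bij (fun y _ => s y.1 * (b⁻¹ * ((s y.1)⁻¹ * y.2 * s y.1))) (fun y hy => ?_)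
    (fun y hy y' hy' h => ?_) fun q hq => ?_
  · have h1 := (mem_filter.1 hy).2
    have h2 := MonoidHom.mem_ker.1 (hs y.1 h1.1.2 (ha.trans h1.2.1.symm))
    simp [MonoidHom.mem_ker, h2, hb, h1.2.2]
  · have h1 := key y (mem_filter.1 hy).2
    have h2 := key y' (mem_filter.1 hy').2
    rw [h, h2, mul_left_inj] at h1
    rw [h1] at h
    exact Prod.ext h1.symm (by simpa using h)
  · have h1 := MonoidHom.mem_ker.1 (mem_filter.1 hq).2
    have h2 : f a = f (q * a * q⁻¹) := by simp [h1]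
    have h3 := MonoidHom.mem_ker.1 (hs _ (cj q) h2)
    have h4 := hs' _ (cj q) h2
    have h5 : Commute a ((s (q * a * q⁻¹))⁻¹ * q) := by
      generalize s (q * a * q⁻¹) = t at h4
      change a * (t⁻¹ * q) = t⁻¹ * q * a
      calc _ = t⁻¹ * (t * a * t⁻¹) * q := by group
        _ = _ := by rw [← h4]; group
    refine ⟨(q * a * q⁻¹, s (q * a * q⁻¹) * (b * ((s (q * a * q⁻¹))⁻¹ * q)) *
      (s (q * a * q⁻¹))⁻¹), mem_filter.2 ⟨mem_univ _, ⟨?_, cj q⟩, h2.symm.trans ha, ?_⟩, ?_⟩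
    · have h6 := (hab.mul_right h5).eq
      generalize s (q * a * q⁻¹) = t at h4 h6
      simp only [h4]
      calc _ = t * (a * (b * (t⁻¹ * q))) * t⁻¹ := by group
        _ = _ := by rw [h6]; group
    · simp [h1, h3, hb]
    · simp only
      group

end Vale.Agent.P179
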