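import Vale.Agent.P179.TA2
import Vale.Agent.P179.TA

/-! P179: chains in quotients and in normalizers.

Finset.sum_bij or sum_nbij with σ ↦ σ.image (comap f), inverse image (map f); IsPGroup.comap_of_ker_isPGroup, IsPGroup.map,
comap_injective, map_comap_eq_self, comap_map_eq. mu_sub: σ ↦ σ.image (map subtype); every p-subgroup above Q lies in the
normalizer of Q by Ab.fx.
-/

open Finset
open scoped Classical

noncomputable section

namespace Vale.Agent.P179

set_option linter.unusedSectionVars false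

variable {p : ℕ} [Fact p.Prime] {H : Type} [Group H] [Fintype H] {K : Type} [Group K] [Fintype K]

theorem KB_gen (φ : Subgroup K → Subgroup H) (hle : ∀ Q R, φ Q ≤ φ R ↔ Q ≤ R)
    (hp : ∀ Q : Subgroup K, IsPGroup p (φ Q) ↔ IsPGroup p Q) (Q₀ : Subgroup K)
    (hs : ∀ R : Subgroup H, IsPGroup p R → φ Q₀ < R → ∃ Q, φ Q = R) {a b : K} {a' b' : H}
    (ha : ∀ Q, Fx a' (φ Q) ↔ Fx a Q) (hb : ∀ Q, Fx b' (φ Q) ↔ Fx b Q) :
    mu p Q₀ a b = mu p (φ Q₀) a' b' := by
  have hi : Function.Injective φ := fun Q R e =>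
    le_antisymm ((hle _ _).1 e.le) ((hle _ _).1 e.ge)
  have hlt : ∀ Q R, φ Q < φ R ↔ Q < R := fun Q R => by
    rw [lt_iff_le_not_ge, lt_iff_le_not_ge, hle, hle]
  have key : ∀ σ : Finset (Subgroup K), (IsCh p (φ Q₀) (σ.image φ) ∧ FxC a' (σ.image φ) ∧
      FxC b' (σ.image φ)) ↔ IsCh p Q₀ σ ∧ FxC a σ ∧ FxC b σ := fun σ => by
    simp only [IsCh, FxC, forall_mem_image, hp, hlt, hle, ha, hb]
  refine sum_bij (fun σ _ => σ.image φ) (fun σ h => ?_) (fun σ _ τ _ e => image_injective hi e)
    (fun τ h => ?_) fun σ _ => ?_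
  · exact mem_filter.2 ⟨mem_univ _, (key σ).2 (mem_filter.1 h).2⟩
  · have h1 := (mem_filter.1 h).2
    have e : (univ.filter fun Q => φ Q ∈ τ).image φ = τ := by
      ext R
      simp only [mem_image, mem_filter, mem_univ, true_and]
      constructor
      · rintro ⟨Q, hQ, rfl⟩
        exact hQ
      · intro hR
        obtain ⟨Q, rfl⟩ := hs R (h1.1.1 R hR).1 (h1.1.1 R hR).2
        exact ⟨Q, hR, rfl⟩
    exact ⟨_, mem_filter.2 ⟨mem_univ _, (key _).1 (e.symm ▸ h1)⟩, e⟩
  · rw [sg, sg, card_image_of_injective _ hi]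

theorem KB_fx (f : K →* H) {Q : Subgroup H} (h : Q ≤ f.range) (a : K) :
    Fx a (Q.comap f) ↔ Fx (f a) Q := by
  rw [Fx, ← Subgroup.comap_normalizer_eq_of_le_range h]
  rfl

theorem mu_quot (f : K →* H) (hf : Function.Surjective f) (hk : IsPGroup p f.ker) (a b : K) :
    mu p ⊥ (f a) (f b) = mu p f.ker a b := by
  refine KB_gen (Subgroup.comap f) (fun Q R => Subgroup.comap_le_comap_of_surjective hf)
    (fun Q => ⟨fun h => ?_, fun h => h.comap_of_ker_isPGroup f hk⟩) ⊥
    (fun R _ h => ⟨R.map f, Subgroup.comap_map_eq_self h.le⟩)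
    (fun Q => KB_fx f (fun x _ => hf x) a) fun Q => KB_fx f (fun x _ => hf x) b
  have := h.map f
  rwa [Subgroup.map_comap_eq_self_of_surjective hf] at this

theorem mu_sub (hab : Ab p H) {Q : Subgroup H} (a b : Subgroup.normalizer (Q : Set H)) :
    mu p (Q.subgroupOf (Subgroup.normalizer (Q : Set H))) a b = mu p Q (a : H) (b : H) := by
  have hi := (Subgroup.normalizer (Q : Set H)).subtype_injective
  have e := Subgroup.map_subgroupOf_eq_of_le (Subgroup.le_normalizer (H := Q))
  have hf : ∀ (c : Subgroup.normalizer (Q : Set H)) R,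
      Fx (c : H) (Subgroup.map (Subgroup.normalizer (Q : Set H)).subtype R) ↔ Fx c R := fun c R => by
    have := KB_fx _ (Subgroup.map_le_range (Subgroup.normalizer (Q : Set H)).subtype R) c
    rw [Subgroup.comap_map_eq_self_of_injective hi] at this
    exact this.symm
  refine (KB_gen (Subgroup.map (Subgroup.normalizer (Q : Set H)).subtype)
    (fun _ _ => Subgroup.map_le_map_iff_of_injective hi)
    (fun R => ⟨fun h => ?_, fun h => h.map _⟩) _ (fun R hR h => ?_) (hf a) (hf b)).trans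
    (by rw [e])
  · have := h.comap_of_injective _ hi
    rwa [Subgroup.comap_map_eq_self_of_injective hi] at this
  · rw [e] at h
    exact ⟨_, Subgroup.map_subgroupOf_eq_of_le fun r hr => hab.fx hR h.le hr⟩

end Vale.Agent.P179
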