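import Vale.Agent.P179.TA
import Vale.Agent.P179.CA

/-! P179: counting weights.

H acts on Weight p H: g • w has Q = cs g w.Q and φ transported along the isomorphism NQ Q ≃* NQ (cs g Q) induced by conjugation
(IsIrr and DefectZero are invariant under a MulEquiv: compose ρ with it). One may avoid the action: encode a weight as
(Q, Φ : H → ℂ) with Φ n = φ (mk n) on the normalizer and 0 outside (injective), count pairs (g, w) class by class:
Weight.Conj is an equivalence, for fixed w the map g ↦ g • w is onto the class of w with fibres the cosets of the normalizer of w.Q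
(IsIrr.conj), so the sum over a class of Nat.card (normalizer w.Q) is Nat.card H. Weights with given Q number zz p (NQ Q); irr_finite.
-/

open Finset
open scoped Classical

noncomputable section

namespace Vale.Agent.P179

set_option linter.unusedSectionVars false

variable {p : ℕ} [Fact p.Prime] {H : Type} [Group H] [Fintype H]

theorem KC_abs {W : Type} [Fintype W] (R : H → W → W → Prop) (ex : ∀ g w, ∃ w', R g w w')
    (un : ∀ g w w1 w2, R g w w1 → R g w w2 → w1 = w2) (one : ∀ w, R 1 w w)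
    (mul : ∀ g h w w1 w2, R g w w1 → R h w1 w2 → R (h * g) w w2) :
    Nat.card H * Nat.card (Quot fun w w' => ∃ g, R g w w') = ∑ w, Nat.card {g // R g w w} := by
  choose act ha using ex
  let _ : MulAction H W :=
    { smul := act
      one_smul := fun w => un 1 w _ _ (ha 1 w) (one w)
      mul_smul := fun h g w => un _ w _ _ (ha _ w) (mul _ _ _ _ _ (ha g w) (ha h _)) }
  have hs : ∀ (g : H) (w w' : W), g • w = w' ↔ R g w w' := fun g w w' =>
    ⟨fun h => h ▸ ha g w, fun h => un g w _ _ (ha g w) h⟩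
  have e1 : (Quot fun w w' => ∃ g, R g w w') ≃ Quotient (MulAction.orbitRel H W) :=
    Quot.congrRight fun a b => by
      rw [Setoid.comm', MulAction.orbitRel_apply, MulAction.mem_orbit_iff]
      exact exists_congr fun g => (hs g a b).symm
  have e2 : (Σ w : W, {g // R g w w}) ≃ (Σ g : H, MulAction.fixedBy W g) :=
    ⟨fun x => ⟨x.2.1, x.1, (hs _ _ _).2 x.2.2⟩, fun x => ⟨x.2.1, x.1, (hs _ _ _).1 x.2.2⟩,
      fun _ => rfl, fun _ => rfl⟩
  rw [← Nat.card_sigma, Nat.card_congr (e2.trans (MulAction.sigmaFixedByEquivOrbitsProdGroup H W)),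
    Nat.card_prod, Nat.card_congr e1, mul_comm]

theorem KC_irr {A B : Type} [Group A] [Group B] (e : A ≃* B) {χ : B → ℂ} (h : IsIrr χ) :
    IsIrr (χ ∘ e) := by
  obtain ⟨n, ρ, h1, rfl⟩ := h
  refine ⟨n, ρ.comp e.toMonoidHom, ?_, rfl⟩
  let f : Subrepresentation (ρ.comp e.toMonoidHom : Representation ℂ A (Fin n → ℂ)) ≃o
      Subrepresentation ρ :=
    { toFun := fun U => ⟨U.toSubmodule, fun g v hv => by
        have := U.apply_mem_toSubmodule (e.symm g) hv
        simpa using this⟩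
      invFun := fun U => ⟨U.toSubmodule, fun g v hv => U.apply_mem_toSubmodule (e g) hv⟩
      left_inv := fun _ => rfl
      right_inv := fun _ => rfl
      map_rel_iff' := Iff.rfl }
  exact f.isSimpleOrder

theorem KC_dz {A B : Type} [Group A] [Group B] (e : A ≃* B) {χ : B → ℂ} (h : DefectZero p χ) :
    DefectZero p (χ ∘ e) := by
  obtain ⟨d, h1, h2⟩ := h
  exact ⟨d, by simpa using h1, by rw [h2, Nat.card_congr e.toEquiv]⟩

theorem KC_mem {g : H} {Q Q' : Subgroup H} (h : ∀ x, x ∈ Q ↔ g * x * g⁻¹ ∈ Q') {n : H}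
    (hn : n ∈ Subgroup.normalizer (Q : Set H)) :
    g * n * g⁻¹ ∈ Subgroup.normalizer (Q' : Set H) := by
  rw [Subgroup.mem_normalizer_iff] at hn ⊢
  intro y
  have h1 := h (g⁻¹ * y * g)
  have h2 := h (n * (g⁻¹ * y * g) * n⁻¹)
  rw [show g * (g⁻¹ * y * g) * g⁻¹ = y by group] at h1
  rw [show g * (n * (g⁻¹ * y * g) * n⁻¹) * g⁻¹ = g * n * g⁻¹ * y * (g * n * g⁻¹)⁻¹ by group] at h2
  rw [← h1, ← h2]
  exact hn _

theorem KC_inv {g : H} {Q Q' : Subgroup H} (h : ∀ x, x ∈ Q ↔ g * x * g⁻¹ ∈ Q') (x : H) :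
    x ∈ Q' ↔ g⁻¹ * x * g⁻¹⁻¹ ∈ Q := by
  rw [h, show g * (g⁻¹ * x * g⁻¹⁻¹) * g⁻¹ = x by group]

/-- Conjugation of normalizers. -/
def KC_ne {g : H} {Q Q' : Subgroup H} (h : ∀ x, x ∈ Q ↔ g * x * g⁻¹ ∈ Q') :
    Subgroup.normalizer (Q : Set H) ≃* Subgroup.normalizer (Q' : Set H) where
  toFun n := ⟨g * n * g⁻¹, KC_mem h n.2⟩
  invFun n := ⟨g⁻¹ * n * g⁻¹⁻¹, KC_mem (KC_inv h) n.2⟩
  left_inv n := Subtype.ext (by simp only []; group)
  right_inv n := Subtype.ext (by simp only []; group)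
  map_mul' a b := Subtype.ext (by simp only [Subgroup.coe_mul]; group)

theorem KC_map {g : H} {Q Q' : Subgroup H} (h : ∀ x, x ∈ Q ↔ g * x * g⁻¹ ∈ Q') :
    (Q.subgroupOf (Subgroup.normalizer (Q : Set H))).map (KC_ne h) =
      Q'.subgroupOf (Subgroup.normalizer (Q' : Set H)) := by
  ext y
  obtain ⟨x, rfl⟩ := (KC_ne h).surjective y
  rw [show KC_ne h x = (KC_ne h : _ →* _) x from rfl,
    Subgroup.mem_map_iff_mem (KC_ne h).injective, Subgroup.mem_subgroupOf, Subgroup.mem_subgroupOf]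
  exact h _

/-- The element `g` carries `w` to `w'`. -/
def KC_R (g : H) (w w' : Weight p H) : Prop :=
  (∀ x, x ∈ w.Q ↔ g * x * g⁻¹ ∈ w'.Q) ∧
    ∀ (n : Subgroup.normalizer (w.Q : Set H)) (n' : Subgroup.normalizer (w'.Q : Set H)),
      (n' : H) = g * n * g⁻¹ → w'.φ (QuotientGroup.mk n') = w.φ (QuotientGroup.mk n)

theorem KC_ex (g : H) (w : Weight p H) : ∃ w', KC_R g w w' := by
  have h : ∀ x, x ∈ w.Q ↔ g * x * g⁻¹ ∈ cs g w.Q := fun x => by
    rw [mem_cs, show g⁻¹ * (g * x * g⁻¹) * g = x by group]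
  let e : NQ w.Q ≃* NQ (cs g w.Q) := QuotientGroup.congr _ _ (KC_ne h) (KC_map h)
  refine ⟨⟨cs g w.Q, w.pgroup.map _, w.φ ∘ e.symm, KC_irr _ w.irr, KC_dz _ w.defect⟩, h, ?_⟩
  intro n n' hn
  obtain rfl : n' = KC_ne h n := Subtype.ext hn
  change w.φ (e.symm (e (QuotientGroup.mk n))) = _
  rw [e.symm_apply_apply]

theorem KC_un (g : H) (w w1 w2 : Weight p H) (h1 : KC_R g w w1) (h2 : KC_R g w w2) : w1 = w2 := by
  obtain ⟨Q1, a1, φ1, b1, c1⟩ := w1
  obtain ⟨Q2, a2, φ2, b2, c2⟩ := w2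
  obtain rfl : Q1 = Q2 := Subgroup.ext fun x => (KC_inv h1.1 x).trans (KC_inv h2.1 x).symm
  obtain rfl : φ1 = φ2 := by
    funext y
    obtain ⟨n', rfl⟩ := QuotientGroup.mk_surjective y
    obtain ⟨n, rfl⟩ := (KC_ne h1.1).surjective n'
    exact (h1.2 n _ rfl).trans (h2.2 n _ rfl).symm
  rfl

theorem KC_one (w : Weight p H) : KC_R 1 w w := by
  refine ⟨fun x => by simp, fun n n' h => ?_⟩
  rw [show n' = n from Subtype.ext (by simpa using h)]

theorem KC_mul (g h : H) (w w1 w2 : Weight p H) (h1 : KC_R g w w1) (h2 : KC_R h w1 w2) :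
    KC_R (h * g) w w2 := by
  refine ⟨fun x => ?_, fun n n' e => ?_⟩
  · rw [h1.1, h2.1, show h * (g * x * g⁻¹) * h⁻¹ = h * g * x * (h * g)⁻¹ by group]
  · refine (h2.2 (KC_ne h1.1 n) n' ?_).trans (h1.2 n _ rfl)
    change _ = h * (g * n * g⁻¹) * h⁻¹
    rw [e]
    group

theorem KC_stab (g : H) (w : Weight p H) : KC_R g w w ↔ g ∈ Subgroup.normalizer (w.Q : Set H) := by
  refine ⟨fun h => h.1, fun h => ⟨h, fun n n' e => ?_⟩⟩
  let _ : Fintype (NQ w.Q) := Fintype.ofFinite _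
  obtain rfl : n' = ⟨g, h⟩ * n * (⟨g, h⟩ : Subgroup.normalizer (w.Q : Set H))⁻¹ := Subtype.ext e
  rw [QuotientGroup.mk_mul, QuotientGroup.mk_mul, QuotientGroup.mk_inv]
  exact w.irr.conj _ _

theorem weight_count : Nat.card H * numWeights p H =
    ∑ Q ∈ univ.filter (fun Q : Subgroup H => IsPGroup p Q),
      Nat.card (Subgroup.normalizer (Q : Set H)) * zz p (NQ Q) := by
  let e : Weight p H ≃ Σ Q : {Q : Subgroup H // IsPGroup p Q},
      {χ : NQ Q.1 → ℂ // IsIrr χ ∧ DefectZero p χ} :=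
    ⟨fun w => ⟨⟨w.Q, w.pgroup⟩, w.φ, w.irr, w.defect⟩, fun x => ⟨x.1.1, x.1.2, x.2.1, x.2.2.1, x.2.2.2⟩,
      fun _ => rfl, fun _ => rfl⟩
  have f : ∀ Q : {Q : Subgroup H // IsPGroup p Q},
      Finite {χ : NQ Q.1 → ℂ // IsIrr χ ∧ DefectZero p χ} := fun Q => by
    let _ : Fintype (NQ Q.1) := Fintype.ofFinite _
    exact (irr_finite.subset fun χ hχ => hχ.1 :
      {χ : NQ Q.1 → ℂ | IsIrr χ ∧ DefectZero p χ}.Finite)
  let _ := fun Q => @Fintype.ofFinite _ (f Q)
  let _ : Fintype (Weight p H) := Fintype.ofEquiv _ e.symm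
  have h := KC_abs (KC_R (p := p) (H := H)) KC_ex KC_un KC_one KC_mul
  refine h.trans ?_
  rw [Finset.sum_subtype (p := fun Q : Subgroup H => IsPGroup p Q) _ (by simp),
    ← e.symm.sum_comp, Fintype.sum_sigma]
  refine Finset.sum_congr rfl fun Q _ => ?_
  rw [Finset.sum_congr rfl (g := fun _ => Nat.card (Subgroup.normalizer (Q.1 : Set H)))
    fun χ _ => Nat.card_congr (Equiv.subtypeEquivRight fun g => KC_stab g _)]
  rw [Finset.sum_const, Finset.card_univ, smul_eq_mul, mul_comm, zz, ← Nat.card_eq_fintype_card]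

end Vale.Agent.P179
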