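import Vale.Agent.P179.Defs

/-! P179: counting regular classes.

Sum over p-regular a of the order of the centralizer; group by ConjClasses.mk a; each class contributes Nat.card H
(ConjClasses.card_carrier or orbit stabilizer for ConjAct); IsReg is invariant under conjugation.
-/

open Finset
open scoped Classical

noncomputable section

namespace Vale.Agent.P179

set_option linter.unusedSectionVars false

variable {p : ℕ} [Fact p.Prime] {H : Type} [Group H] [Fintype H]

theorem KD_class (a : H) :
    ∑ x : H with ConjClasses.mk x = ConjClasses.mk a, #{b : H | x * b = b * x} = Nat.card H := by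
  rw [Nat.card_eq_fintype_card, ← card_univ, card_eq_sum_card_fiberwise (s := univ)
    (t := {x : H | ConjClasses.mk x = ConjClasses.mk a}) (f := fun g => g * a * g⁻¹)]
  · refine sum_congr rfl fun x hx => ?_
    obtain ⟨g₀, hg⟩ := isConj_iff.1 (ConjClasses.mk_eq_mk_iff_isConj.1 (mem_filter.1 hx).2.symm)
    refine (card_equiv (Equiv.mulRight g₀⁻¹) fun g => ?_).symm
    have e : g * g₀⁻¹ * x = g * a * g₀⁻¹ := by
      rw [← hg]
      group
    simp only [mem_filter, mem_univ, true_and, Equiv.coe_mulRight]
    rw [e, ← mul_assoc, mul_left_inj, mul_inv_eq_iff_eq_mul, eq_comm]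
  · intro g _
    simp only [coe_filter, mem_univ, true_and, Set.mem_setOf_eq]
    exact (ConjClasses.mk_eq_mk_iff_isConj.2 (isConj_iff.2 ⟨g, rfl⟩)).symm

theorem KD_reg {a x : H} (h : ConjClasses.mk x = ConjClasses.mk a) (ha : IsReg p a) :
    IsReg p x := by
  obtain ⟨g, hg⟩ := ConjClasses.mk_eq_mk_iff_isConj.1 h
  unfold IsReg at ha ⊢
  rwa [hg.orderOf_eq]

theorem reg_count : #{y : H × H | y.1 * y.2 = y.2 * y.1 ∧ IsReg p y.1} = Nat.card H * numReg p H := by
  have h1 : #{y : H × H | y.1 * y.2 = y.2 * y.1 ∧ IsReg p y.1} =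
      ∑ x : H with IsReg p x, #{b : H | x * b = b * x} := by
    rw [card_filter, Fintype.sum_prod_type, sum_filter]
    refine sum_congr rfl fun x _ => ?_
    by_cases hx : IsReg p x
    · simp only [hx, and_true, if_true, card_filter]
    · simp [hx]
  have h2 : numReg p H = #{c : ConjClasses H | ∃ a, ConjClasses.mk a = c ∧ IsReg p a} := by
    rw [numReg, Nat.card_eq_fintype_card, Fintype.card_subtype]
  rw [h1, h2, mul_comm, ← smul_eq_mul, ← sum_const, ← sum_fiberwise_of_maps_to
    (t := {c : ConjClasses H | ∃ a, ConjClasses.mk a = c ∧ IsReg p a}) (g := ConjClasses.mk)]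
  · refine sum_congr rfl fun c hc => ?_
    obtain ⟨a, rfl, ha⟩ := (mem_filter.1 hc).2
    rw [← KD_class a]
    refine sum_congr ?_ fun _ _ => rfl
    ext x
    simp only [mem_filter, mem_univ, true_and]
    exact ⟨fun h => h.2, fun h => ⟨KD_reg h ha, h⟩⟩
  · intro x hx
    exact mem_filter.2 ⟨mem_univ _, x, rfl, (mem_filter.1 hx).2⟩

end Vale.Agent.P179
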