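import Vale.Agent.P179.OA
import Vale.Agent.P179.TA

/-! P179: inserting chains into the count.

Swap the sums: the left sum is the sum over chains σ (IsCh p ⊥ σ) of sg σ * ct p K with K = ⨅ Q ∈ σ, normalizer Q
(fxC_iff; pairs in K, IsP is the same in K and in H). The empty chain gives ct p H (count directly). For a nonempty
chain let Q be its largest member: every p-subgroup R ≥ Q lies in K (Ab.fx), so pp p K = pp p H (pp_sub) and
Q.subgroupOf K is a normal nontrivial p-subgroup of K; ct_normal.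
-/

open Finset
open scoped Classical

noncomputable section

namespace Vale.Agent.P179

set_option linter.unusedSectionVars false

variable {p : ℕ} [Fact p.Prime] {H : Type} [Group H] [Fintype H]

theorem OB_ct (K : Subgroup H) [Fintype K] :
    ct p K = #{y : H × H | IsP p (cm y.1 y.2) ∧ y.1 ∈ K ∧ y.2 ∈ K} := by
  unfold ct
  have key : ∀ a b : K, IsP p (cm a b) ↔ IsP p (cm (a : H) b) := fun a b => by
    refine exists_congr fun k => ?_
    rw [← Subtype.coe_inj]
    simp [cm]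
  refine card_bij (fun x _ => ((x.1 : H), (x.2 : H))) (fun x hx => ?_) (fun x _ y _ h => ?_)
    fun y hy => ?_
  · simp only [mem_filter, mem_univ, true_and] at hx ⊢
    exact ⟨(key _ _).1 hx, x.1.2, x.2.2⟩
  · simp only [Prod.mk.injEq] at h
    exact Prod.ext (Subtype.ext h.1) (Subtype.ext h.2)
  · simp only [mem_filter, mem_univ, true_and] at hy
    refine ⟨(⟨y.1, hy.2.1⟩, ⟨y.2, hy.2.2⟩), ?_, rfl⟩
    simp only [mem_filter, mem_univ, true_and]
    exact (key _ _).2 hy.1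

theorem OB_ne (hab : Ab p H) {σ : Finset (Subgroup H)} (hσ : IsCh p ⊥ σ) (hne : σ.Nonempty) :
    p * pp p H ∣ #{y : H × H | IsP p (cm y.1 y.2) ∧ FxC y.1 σ ∧ FxC y.2 σ} := by
  obtain ⟨Q, hQ, hmax⟩ := σ.exists_maximal hne
  have hle : ∀ Q' ∈ σ, Q' ≤ Q := fun Q' h' => by
    rcases hσ.2 Q' h' Q hQ with h | h
    · exact h
    · exact hmax h' h
  set K : Subgroup H := ⨅ Q ∈ σ, Subgroup.normalizer (Q : Set H) with hK
  have hR : ∀ R : Subgroup H, IsPGroup p R → Q ≤ R → R ≤ K := fun R hR h r hr =>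
    fxC_iff.1 fun Q' h' => hab.fx hR ((hle Q' h').trans h) hr
  have hQp := (hσ.1 Q hQ).1
  have hQK : Q ≤ K := hR Q hQp le_rfl
  have hKN : K ≤ Subgroup.normalizer (Q : Set H) := fun g hg => fxC_iff.2 hg Q hQ
  let _ : Fintype K := Fintype.ofFinite K
  have : (Q.subgroupOf K).Normal := (Subgroup.normal_subgroupOf_iff_le_normalizer hQK).2 hKN
  have h0 : Q.subgroupOf K ≠ ⊥ := fun h => by
    rw [Subgroup.subgroupOf_eq_bot, disjoint_iff, inf_eq_left.2 hQK] at h
    exact (hσ.1 Q hQ).2.ne' h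
  have h1 := ct_normal (p := p) (Q.subgroupOf K) (hQp.comap_subtype) h0
  rw [pp_sub hQp hR, OB_ct] at h1
  simpa only [fxC_iff] using h1

theorem ct_mu (hab : Ab p H) : (p * pp p H : ℤ) ∣
    (∑ y : H × H with IsP p (cm y.1 y.2), mu p ⊥ y.1 y.2) - ct p H := by
  have e1 : ∑ y : H × H with IsP p (cm y.1 y.2), mu p ⊥ y.1 y.2 =
      ∑ σ : Finset (Subgroup H) with IsCh p ⊥ σ,
        sg σ * (#{y : H × H | IsP p (cm y.1 y.2) ∧ FxC y.1 σ ∧ FxC y.2 σ} : ℕ) := by
    unfold mu
    rw [sum_comm' (t' := univ.filter fun σ : Finset (Subgroup H) => IsCh p ⊥ σ)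
      (s' := fun σ => univ.filter fun y : H × H => IsP p (cm y.1 y.2) ∧ FxC y.1 σ ∧ FxC y.2 σ)]
    · refine sum_congr rfl fun σ _ => ?_
      rw [sum_const, nsmul_eq_mul, mul_comm]
    · intro y σ
      simp only [mem_filter, mem_univ, true_and]
      tauto
  have h0 : (∅ : Finset (Subgroup H)) ∈ univ.filter fun σ : Finset (Subgroup H) => IsCh p ⊥ σ :=
    mem_filter.2 ⟨mem_univ _, fun Q h => absurd h (notMem_empty _),
      fun Q h => absurd h (notMem_empty _)⟩
  rw [e1, ← add_sum_erase _ _ h0]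
  have e2 : sg (∅ : Finset (Subgroup H)) *
      (#{y : H × H | IsP p (cm y.1 y.2) ∧ FxC y.1 ∅ ∧ FxC y.2 ∅} : ℕ) = ct p H := by
    simp [sg, FxC, ct]
  rw [e2, add_sub_cancel_left]
  refine dvd_sum fun σ hσ => Dvd.dvd.mul_left ?_ _
  rw [mem_erase, mem_filter] at hσ
  exact_mod_cast OB_ne hab hσ.2.2 (nonempty_iff_ne_empty.2 hσ.1)

end Vale.Agent.P179
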