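import Vale.Agent.P179.TA2

/-! P179: divisibility of counts.

orbit_dvd: sum over orbits (MulAction.orbitRel.Quotient, Finset.sum_fiberwise), card_orbit_mul_card_stabilizer_eq_card_group.
ct_dvd: ConjAct H acts on H, φ a = number of b with IsP p (cm a b) is invariant and divisible by the order of the
centralizer of a (right multiplication b ↦ b * c by c in the centralizer is free and keeps cm a b; use orbit_dvd again
or cosets). ct_normal: the quotient map is Nat.card Q ^ 2 to one on pairs and IsP p (mk x) ↔ IsP p x, so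
ct p H = Nat.card Q ^ 2 * ct p (H ⧸ Q), divisible by Nat.card Q * Nat.card H; p divides Nat.card Q; pp_dvd.
-/

open Finset
open scoped Classical

noncomputable section

namespace Vale.Agent.P179

set_option linter.unusedSectionVars false

variable {p : ℕ} [Fact p.Prime] {H : Type} [Group H] [Fintype H]

theorem orbit_dvd {Γ Y : Type} [Group Γ] [Finite Γ] [Fintype Y] [MulAction Γ Y] (φ : Y → ℤ)
    (hφ : ∀ (g : Γ) y, φ (g • y) = φ y)
    (h : ∀ y, (Nat.card (MulAction.stabilizer Γ y) : ℤ) ∣ φ y) : (Nat.card Γ : ℤ) ∣ ∑ y, φ y := by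
  rw [← sum_fiberwise univ (fun y => (Quotient.mk'' y : MulAction.orbitRel.Quotient Γ Y)) φ]
  refine dvd_sum fun ω _ => ?_
  induction ω using Quotient.inductionOn' with
  | h y =>
    have e : (univ.filter fun z => (Quotient.mk'' z : MulAction.orbitRel.Quotient Γ Y) =
        Quotient.mk'' y) = (MulAction.orbit Γ y).toFinset := by
      ext z
      rw [mem_filter, Quotient.eq'', Set.mem_toFinset]
      exact and_iff_right (mem_univ _)
    rw [e, sum_congr rfl (g := fun _ => φ y) fun z hz => by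
      obtain ⟨g, rfl⟩ := Set.mem_toFinset.1 hz
      exact hφ g y, sum_const, nsmul_eq_mul, ← Set.ncard_eq_toFinset_card',
      ← MulAction.index_stabilizer, ← (MulAction.stabilizer Γ y).index_mul_card, Nat.cast_mul]
    exact mul_dvd_mul_left _ (h y)

theorem OA_sum : ct p H = ∑ a : H, ∑ b : H, if IsP p (cm a b) then 1 else 0 := by
  rw [ct, card_filter, Fintype.sum_prod_type]

theorem ct_dvd : Nat.card H ∣ ct p H := by
  have e : (ct p H : ℤ) = ∑ a : H, ∑ b : H, if IsP p (cm a b⁻¹) then 1 else 0 := by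
    rw [OA_sum]
    push_cast
    exact sum_congr rfl fun a _ => Fintype.sum_equiv (Equiv.inv H) _ _ fun b => by simp
  rw [← Int.natCast_dvd_natCast, e]
  refine orbit_dvd (Γ := ConjAct H) _ (fun g a => ?_) fun a => ?_
  · refine (Fintype.sum_equiv (MulAut.conj (ConjAct.ofConjAct g)).toEquiv _ _ fun b => ?_).symm
    have k : cm (g • a) ((MulAut.conj (ConjAct.ofConjAct g)).toEquiv b)⁻¹ =
        MulAut.conj (ConjAct.ofConjAct g) (cm a b⁻¹) := by
      simp [cm, ConjAct.smul_def, mul_assoc]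
    rw [k]
    refine if_congr (exists_congr fun n => ?_) rfl rfl
    rw [← map_pow, map_eq_one_iff _ (MulEquiv.injective _)]
  · rw [← Subgroup.nat_card_centralizer_nat_card_stabilizer]
    refine orbit_dvd _ (fun c b => ?_) fun b => ?_
    · have k : cm a (c • b)⁻¹ = cm a b⁻¹ := by
        have h1 := c.2 a rfl
        change a * (c * b)⁻¹ * a⁻¹ * (c * b)⁻¹⁻¹ = a * b⁻¹ * a⁻¹ * b⁻¹⁻¹
        rw [inv_inv, inv_inv, mul_inv_rev, ← mul_assoc a, mul_assoc _ _ a⁻¹, ← mul_inv_rev, h1]
        group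
      rw [k]
    · have k : MulAction.stabilizer (Subgroup.centralizer {a}) b = ⊥ :=
        (Subgroup.eq_bot_iff_forall _).2 fun g hg =>
          Subtype.ext (mul_eq_right.1 (show g.1 * b = b from hg) : g.1 = 1)
      rw [k, Subgroup.card_bot]
      exact one_dvd _

theorem OA_quot (Q : Subgroup H) [Fintype (H ⧸ Q)] (f : H ⧸ Q → ℕ) :
    ∑ x : H, f x = Nat.card Q * ∑ y, f y := by
  rw [← sum_fiberwise univ (fun x : H => (x : H ⧸ Q)), mul_sum]
  refine sum_congr rfl fun y _ => ?_
  have k := QuotientGroup.card_preimage_mk Q {y}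
  rw [Nat.card_unique (α := ({y} : Set (H ⧸ Q))), mul_one, Nat.card_eq_card_toFinset] at k
  rw [sum_congr rfl (g := fun _ => f y) fun x hx => by rw [(mem_filter.1 hx).2], sum_const,
    smul_eq_mul, ← k]
  congr 2
  ext x
  simp

theorem ct_normal (Q : Subgroup H) [Q.Normal] (hQ : IsPGroup p Q) (h0 : Q ≠ ⊥) :
    p * pp p H ∣ ct p H := by
  have : Fintype (H ⧸ Q) := Fintype.ofFinite _
  have k : ∀ a b : H, IsP p (cm a b) ↔ IsP p (cm (a : H ⧸ Q) b) := fun a b => by
    change _ ↔ IsP p ((cm a b : H) : H ⧸ Q)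
    refine ⟨fun ⟨n, hn⟩ => ⟨n, by rw [← QuotientGroup.mk_pow, hn, QuotientGroup.mk_one]⟩,
      fun ⟨n, hn⟩ => ?_⟩
    rw [← QuotientGroup.mk_pow, QuotientGroup.eq_one_iff] at hn
    obtain ⟨j, hj⟩ := hQ ⟨_, hn⟩
    exact ⟨n + j, by rw [pow_add, pow_mul]; exact congrArg Subtype.val hj⟩
  have e : ct p H = Nat.card Q * (Nat.card Q * ct p (H ⧸ Q)) := by
    rw [OA_sum, OA_sum, mul_sum, ← OA_quot]
    refine sum_congr rfl fun a _ => ?_
    rw [← OA_quot]
    exact sum_congr rfl fun b _ => if_congr (k a b) rfl rfl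
  rw [e]
  refine mul_dvd_mul ?_ (pp_dvd.trans ?_)
  · obtain ⟨n, hn⟩ := IsPGroup.iff_card.1 hQ
    rw [hn]
    refine dvd_pow_self p fun h => h0 ?_
    rwa [h, pow_zero, Subgroup.card_eq_one] at hn
  · rw [Subgroup.card_eq_card_quotient_mul_card_subgroup Q, mul_comm]
    exact mul_dvd_mul_left _ ct_dvd

end Vale.Agent.P179
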