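import Vale.Agent.P179.TB
import Vale.Agent.P179.OA

/-! P179: chains above a subgroup.

Let S be a Sylow subgroup above Q (commutative, normalizes Q by Ab.fx). S acts on Finset (Subgroup H) by cc
(build the MulAction from cc_one, cc_mul). For a chain σ above Q let U σ = S ⊓ ⨅ R ∈ σ, normalizer R ≥ Q.
Chains with U σ ≠ Q cancel: sum_sg_zero with R σ = U σ (tg_isCh; U is unchanged by fxC_tg since every g in S
normalizes Q and U σ). On the other chains the stabilizer is Q (cc_eq_iff); orbit_dvd with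
φ σ = if IsCh p Q σ ∧ U σ = Q then Nat.card Q * sg σ else 0; card_sylow.
-/

open Finset
open scoped Classical

noncomputable section

namespace Vale.Agent.P179

set_option linter.unusedSectionVars false

variable {p : ℕ} [Fact p.Prime] {H : Type} [Group H] [Fintype H]

theorem nu_dvd (hab : Ab p H) {Q : Subgroup H} (hQ : IsPGroup p Q) :
    (pp p H : ℤ) ∣ Nat.card Q * mu p Q 1 1 := by
  obtain ⟨S, hS⟩ := hQ.exists_le_sylow
  have hP : IsPGroup p (S : Subgroup H) := S.isPGroup'
  obtain ⟨U, hU⟩ : ∃ U : Finset (Subgroup H) → Subgroup H,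
      ∀ σ g, g ∈ U σ ↔ g ∈ (S : Subgroup H) ∧ FxC g σ :=
    ⟨fun σ => (S : Subgroup H) ⊓ ⨅ R ∈ σ, Subgroup.normalizer (R : Set H),
      fun σ g => by rw [Subgroup.mem_inf, fxC_iff]⟩
  have hUS : ∀ σ, U σ ≤ S := fun σ g hg => ((hU σ g).1 hg).1
  have hQU : ∀ σ, IsCh p Q σ → Q ≤ U σ := fun σ hσ g hg =>
    (hU σ g).2 ⟨hS hg, fun R hR => Subgroup.le_normalizer ((hσ.1 R hR).2.le hg)⟩
  have h1 : mu p Q 1 1 = ∑ σ : Finset (Subgroup H) with IsCh p Q σ, sg σ := by
    have e : ∀ σ : Finset (Subgroup H), FxC (1 : H) σ := fun σ R _ => Subgroup.one_mem _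
    exact sum_congr (filter_congr fun σ _ => by simp only [e, and_true]) fun _ _ => rfl
  have h2 : ∑ σ : Finset (Subgroup H) with IsCh p Q σ ∧ ¬U σ = Q, sg σ = 0 := by
    refine sum_sg_zero _ Q U fun σ hσ => ?_
    obtain ⟨a1, a2⟩ := (mem_filter.1 hσ).2
    have e : U (tg Q (U σ) σ) = U σ := by
      ext g
      rw [hU, hU]
      exact and_congr_right fun hg => fxC_tg (hab.fx hP hS hg) (hab.fx hP (hUS σ) hg)
    refine ⟨mem_filter.2 ⟨mem_univ _, ?_, by rwa [e]⟩, e⟩
    exact tg_isCh hQ (hP.to_le (hUS σ)) (fun h => a2 (le_antisymm h (hQU σ a1)))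
      (fun r hr => hab.fx hP hS (hUS σ hr)) a1 fun r hr => ((hU σ r).1 hr).2
  have h3 : (Nat.card Q : ℤ) * mu p Q 1 1 =
      ∑ σ : Finset (Subgroup H), if IsCh p Q σ ∧ U σ = Q then (Nat.card Q : ℤ) * sg σ else 0 := by
    rw [h1, ← sum_filter_add_sum_filter_not _ fun σ => U σ = Q, filter_filter, filter_filter, h2,
      add_zero, mul_sum, sum_filter]
  let _ : MulAction (S : Subgroup H) (Finset (Subgroup H)) :=
    { smul := fun g σ => cc g.1 σ
      one_smul := cc_one
      mul_smul := fun g h σ => cc_mul g.1 h.1 σ }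
  rw [h3, ← card_sylow S]
  refine orbit_dvd (Γ := (S : Subgroup H)) _ (fun g σ => ?_) fun σ => ?_
  · have a1 : IsCh p Q (cc g.1 σ) ↔ IsCh p Q σ := by
      rw [← isCh_cc (y := g.1) (σ := σ), fx_iff.1 (hab.fx hP hS g.2)]
    have a2 : U (cc g.1 σ) = U σ := by
      ext x
      rw [hU, hU]
      refine and_congr_right fun hx => ?_
      rw [← fxC_cc (y := g.1) (σ := σ), hab _ hP _ g.2 _ hx, mul_inv_cancel_right]
    show (if IsCh p Q (cc g.1 σ) ∧ U (cc g.1 σ) = Q then (Nat.card Q : ℤ) * sg (cc g.1 σ) else 0) = _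
    rw [a2, sg_cc]
    exact if_congr (and_congr_left fun _ => a1) rfl rfl
  · split_ifs with h
    · have e : MulAction.stabilizer (S : Subgroup H) σ = Q.subgroupOf S := by
        ext g
        rw [MulAction.mem_stabilizer_iff, Subgroup.mem_subgroupOf]
        refine (cc_eq_iff h.1).trans ?_
        rw [← h.2, hU]
        exact (and_iff_right g.2).symm
      rw [e, Nat.card_congr (Subgroup.subgroupOfEquivOfLe hS).toEquiv]
      exact dvd_mul_right _ _
    · exact dvd_zero _

end Vale.Agent.P179
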