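import Vale.Agent.P179.NA
import Vale.Agent.P179.NB

/-! P179: character sums over p-elements.

By chain_sum with A Q = (x ∈ Q), m = zpowers x (isP_iff): for a p-element x the sum of mu p Q 1 1 over p-subgroups
Q containing x is 1 (members of a chain above Q contain x; FxC 1 is trivial); for other x no such Q exists.
So the sum is ∑ Q, mu p Q 1 1 * ∑ y ∈ Q, χ y, and ∑ y : Q, χ y = Nat.card Q * finrank of invariants
(Representation.card_inv_mul_sum_char_eq_finrank for ρ.comp Q.subtype). nu_dvd.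
-/

open Finset
open scoped Classical

noncomputable section

namespace Vale.Agent.P179

set_option linter.unusedSectionVars false

variable {p : ℕ} [Fact p.Prime] {H : Type} [Group H] [Fintype H]

theorem NC_isP {x : H} : IsP p x ↔ IsPGroup p (Subgroup.zpowers x) := by
  constructor
  · rintro ⟨k, hk⟩ ⟨y, hy⟩
    obtain ⟨j, rfl⟩ := Subgroup.mem_zpowers_iff.1 hy
    refine ⟨k, Subtype.ext ?_⟩
    simp only [SubmonoidClass.mk_pow, OneMemClass.coe_one]
    rw [← zpow_natCast, ← zpow_mul, mul_comm, zpow_mul, zpow_natCast, hk, one_zpow]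
  · intro h
    obtain ⟨k, hk⟩ := h ⟨x, Subgroup.mem_zpowers x⟩
    exact ⟨k, congrArg Subtype.val hk⟩

theorem NC_mu (x : H) :
    ∑ Q ∈ univ.filter (fun Q : Subgroup H => IsPGroup p Q), (if x ∈ Q then mu p Q 1 1 else 0) =
      if IsP p x then 1 else 0 := by
  split_ifs with hx
  · rw [← chain_sum (p := p) (fun Q => x ∈ Q) (Subgroup.zpowers x) (NC_isP.1 hx)
      (Subgroup.mem_zpowers x) fun Q _ h => Subgroup.zpowers_le.2 h, ← sum_filter, filter_filter]
    refine sum_congr (by ext Q; simp) fun Q hQ => ?_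
    have hQ := (mem_filter.1 hQ).2
    unfold mu
    refine sum_congr ?_ fun _ _ => rfl
    ext σ
    simp only [mem_filter, mem_univ, true_and]
    have e : FxC 1 σ := fun R _ => one_mem _
    exact ⟨fun h => ⟨h.1, fun R hR => (h.1.1 R hR).2.le hQ.2⟩, fun h => ⟨h.1, e, e⟩⟩
  · refine sum_eq_zero fun Q hQ => if_neg fun h => hx ?_
    obtain ⟨k, hk⟩ := (mem_filter.1 hQ).2 ⟨x, h⟩
    exact ⟨k, congrArg Subtype.val hk⟩

theorem NC_sub {n : ℕ} (ρ : Representation ℂ H (Fin n → ℂ)) (Q : Subgroup H) :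
    ∃ d : ℕ, ∑ x : H, (if x ∈ Q then ρ.character x else 0) = Nat.card Q * d := by
  have hc : (Nat.card Q : ℂ) ≠ 0 := Nat.cast_ne_zero.2 Nat.card_pos.ne'
  let _ : Invertible (Nat.card Q : ℂ) := invertibleOfNonzero hc
  let τ : Representation ℂ Q (Fin n → ℂ) := ρ.comp Q.subtype
  have h := τ.card_inv_mul_sum_char_eq_finrank
  refine ⟨Module.finrank ℂ τ.invariants, ?_⟩
  rw [← h, mul_inv_cancel_left₀ hc, ← sum_filter]
  exact sum_subtype _ (by simp) fun x => ρ.character x

theorem sum_p_char (hab : Ab p H) {n : ℕ} (ρ : Representation ℂ H (Fin n → ℂ)) :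
    ∃ t : ℤ, ∑ x : H with IsP p x, ρ.character x = pp p H * t := by
  choose d hd using NC_sub ρ
  have h1 : ∑ x : H with IsP p x, ρ.character x =
      ∑ Q ∈ univ.filter (fun Q : Subgroup H => IsPGroup p Q), ((Nat.card Q * mu p Q 1 1 * d Q : ℤ) : ℂ) := by
    calc _ = ∑ x : H, ((∑ Q ∈ univ.filter (fun Q : Subgroup H => IsPGroup p Q),
            (if x ∈ Q then mu p Q 1 1 else 0) : ℤ) : ℂ) * ρ.character x := by
          rw [sum_filter]
          refine sum_congr rfl fun x _ => ?_
          rw [NC_mu]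
          split_ifs <;> simp
      _ = ∑ Q ∈ univ.filter (fun Q : Subgroup H => IsPGroup p Q), (mu p Q 1 1 : ℂ) *
            ∑ x : H, (if x ∈ Q then ρ.character x else 0) := by
          simp only [Int.cast_sum, sum_mul, mul_sum]
          rw [sum_comm]
          refine sum_congr rfl fun Q _ => sum_congr rfl fun x _ => ?_
          split_ifs <;> simp
      _ = _ := by
          refine sum_congr rfl fun Q _ => ?_
          rw [hd]
          push_cast
          ring
  obtain ⟨t, ht⟩ : (pp p H : ℤ) ∣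
      ∑ Q ∈ univ.filter (fun Q : Subgroup H => IsPGroup p Q), (Nat.card Q * mu p Q 1 1 * d Q : ℤ) :=
    dvd_sum fun Q hQ => (nu_dvd hab (mem_filter.1 hQ).2).mul_right _
  refine ⟨t, ?_⟩
  rw [h1, ← Int.cast_sum, ht]
  push_cast
  rfl

end Vale.Agent.P179
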