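import Vale.Agent.P179.RD
import Vale.Agent.P179.CD
import Vale.Agent.P179.NC
import Vale.Agent.P179.OA

/-! P179: the number of characters of defect zero modulo p.

ct p H = card H * c (ct_dvd), c = ∑ χ, T χ / χ 1 (ct_formula), zz p H = number of χ in the finset with DefectZero.
If DefectZero then pp divides the degree d, T χ = χ 1 (vanish), the term is 1. Otherwise pp does not divide d (vanish),
T χ = pp * t (sum_p_char), so the term is p * t1 / m with m coprime to p (d = p ^ i * m, i < exponent of pp).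
Multiply by the product of the m: p divides (c - zz) * ∏ m in ℤ, so p divides c - zz; pp_dvd.
-/

open Finset
open scoped Classical

noncomputable section

namespace Vale.Agent.P179

variable {p : ℕ} [Fact p.Prime] {H : Type} [Group H] [Fintype H]

theorem RE_sum {ι : Type} (s : Finset ι) (f : ι → ℂ)
    (h : ∀ i ∈ s, ∃ (t : ℤ) (m : ℕ), m.Coprime p ∧ (m : ℂ) * f i = p * t) :
    ∃ (t : ℤ) (m : ℕ), m.Coprime p ∧ (m : ℂ) * ∑ i ∈ s, f i = p * t := by
  induction s using Finset.induction_on with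
  | empty => exact ⟨0, 1, Nat.coprime_one_left p, by simp⟩
  | insert a s ha ih =>
    obtain ⟨t, m, h1, h2⟩ := h a (Finset.mem_insert_self a s)
    obtain ⟨t', m', h1', h2'⟩ := ih fun i hi => h i (Finset.mem_insert_of_mem hi)
    refine ⟨m' * t + m * t', m * m', Nat.Coprime.mul_left h1 h1', ?_⟩
    rw [Finset.sum_insert ha]
    push_cast
    linear_combination (m' : ℂ) * h2 + (m : ℂ) * h2'

theorem RE_term (hab : Ab p H) {χ : H → ℂ} (hχ : IsIrr χ) :
    ∃ (t : ℤ) (m : ℕ), m.Coprime p ∧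
      (m : ℂ) * ((∑ x : H with IsP p x, χ x) / χ 1 - if DefectZero p χ then 1 else 0) = p * t := by
  have hp : p.Prime := Fact.out
  obtain ⟨d, hd0, hd⟩ := hχ.deg
  have hdc : (d : ℂ) ≠ 0 := Nat.cast_ne_zero.2 hd0.ne'
  by_cases h : pp p H ∣ d
  · obtain ⟨h1, h2⟩ := vanish hχ hd h
    refine ⟨0, 1, Nat.coprime_one_left p, ?_⟩
    have h3 : ∑ x : H with IsP p x, χ x = χ 1 := by
      refine Finset.sum_eq_single_of_mem 1 ?_ fun x hx h0 => h2 x (Finset.mem_filter.1 hx).2 h0
      exact Finset.mem_filter.2 ⟨Finset.mem_univ _, 0, one_pow _⟩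
    rw [h3, if_pos h1, div_self (by rw [hd]; exact hdc)]
    simp
  · have h1 : ¬ DefectZero p χ := by
      rintro ⟨d', h1, h2⟩
      have h3 : d' = d := by exact_mod_cast h1.symm.trans hd
      refine h ?_
      rw [pp, ← h2, h3]
      exact Nat.ordProj_dvd d p
    obtain ⟨i, m, hm, rfl⟩ := Nat.exists_eq_pow_mul_and_not_dvd hd0.ne' p hp.ne_one
    have hi : i + 1 ≤ (Nat.card H).factorization p := by
      by_contra hc
      exact h ((pow_dvd_pow p (by omega)).mul_right m)
    obtain ⟨k, hk⟩ := Nat.exists_eq_add_of_le hi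
    obtain ⟨n, ρ, -, rfl⟩ := hχ
    obtain ⟨t, ht⟩ := sum_p_char hab ρ
    refine ⟨p ^ k * t, m, ((Nat.Prime.coprime_iff_not_dvd hp).2 hm).symm, ?_⟩
    rw [ht, if_neg h1, hd, pp, hk, sub_zero, ← mul_div_assoc, div_eq_iff hdc]
    push_cast
    ring

theorem factA (hab : Ab p H) : (p * pp p H : ℤ) ∣ (ct p H : ℤ) - Nat.card H * zz p H := by
  obtain ⟨c, hc⟩ := ct_dvd (p := p) (H := H)
  have h0 : (Nat.card H : ℂ) ≠ 0 := Nat.cast_ne_zero.2 Nat.card_pos.ne'
  have h1 := ct_formula (p := p) (H := H)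
  rw [hc, Nat.cast_mul, mul_right_inj' h0] at h1
  have h2 : zz p H = #((irr_finite (H := H)).toFinset.filter fun χ => DefectZero p χ) :=
    Nat.subtype_card _ fun χ => by simp
  have h3 : (zz p H : ℂ) =
      ∑ χ ∈ (irr_finite (H := H)).toFinset, if DefectZero p χ then (1 : ℂ) else 0 := by
    rw [h2, Finset.sum_boole]
  obtain ⟨t, m, hm, ht⟩ := RE_sum (p := p) (irr_finite (H := H)).toFinset _
    fun χ hχ => RE_term hab (χ := χ) (by simpa using hχ)
  rw [Finset.sum_sub_distrib, ← h1, ← h3] at ht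
  have h4 : (m : ℤ) * ((c : ℤ) - zz p H) = p * t := by exact_mod_cast ht
  have h5 : (p : ℤ) ∣ (c : ℤ) - zz p H :=
    (Nat.isCoprime_iff_coprime.2 hm.symm).dvd_of_dvd_mul_left ⟨t, h4⟩
  rw [hc, Nat.cast_mul, ← mul_sub, mul_comm (p : ℤ)]
  exact mul_dvd_mul (Int.natCast_dvd_natCast.2 pp_dvd) h5

end Vale.Agent.P179
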