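import Vale.Agent.P179.Defs

/-! P179: groups with commutative Sylow subgroups.

Elementary Sylow theory: IsPGroup.exists_le_sylow, Sylow.card_eq_multiplicity, IsPGroup.comap_of_ker_isPGroup,
IsPGroup.map. pp_sub: a Sylow subgroup S above Q is commutative, so it lies in K and its order divides the order of K.
card_mul_pp: the normalizer of Q contains a Sylow subgroup, Nat.card Q is a power of p.
-/

open Finset
open scoped Classical

noncomputable section

namespace Vale.Agent.P179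

set_option linter.unusedSectionVars false

variable {p : ℕ} [Fact p.Prime] {H : Type} [Group H] [Fintype H]

theorem Ab.of_sylow (h : ∀ S : Sylow p H, ∀ a ∈ S, ∀ b ∈ S, a * b = b * a) : Ab p H := by
  intro Q hQ a ha b hb
  obtain ⟨S, hS⟩ := hQ.exists_le_sylow
  exact h S a (hS ha) b (hS hb)

theorem Ab.fx (hab : Ab p H) {Q R : Subgroup H} (hR : IsPGroup p R) (h : Q ≤ R) {r : H}
    (hr : r ∈ R) : Fx r Q := by
  refine Subgroup.mem_normalizer_iff.2 fun x => ⟨fun hx => ?_, fun hx => ?_⟩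
  · rw [hab R hR r hr x (h hx), mul_inv_cancel_right]
    exact hx
  · have e := hab R hR r hr _ (h hx)
    rw [inv_mul_cancel_right, mul_right_inj] at e
    rw [← e]
    exact hx

theorem Ab.sub (hab : Ab p H) (K : Subgroup H) : Ab p K := by
  intro Q hQ a ha b hb
  exact Subtype.ext (hab (Q.map K.subtype) (hQ.map _) a ⟨a, ha, rfl⟩ b ⟨b, hb, rfl⟩)

theorem Ab.nq (hab : Ab p H) {Q : Subgroup H} (hQ : IsPGroup p Q) : Ab p (NQ Q) := by
  intro R hR a ha b hb
  have h1 := hR.comap_of_ker_isPGroup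
    (QuotientGroup.mk' (Q.subgroupOf (Subgroup.normalizer (Q : Set H))))
    (by rw [QuotientGroup.ker_mk']; exact hQ.comap_subtype)
  obtain ⟨x, rfl⟩ := QuotientGroup.mk'_surjective _ a
  obtain ⟨y, rfl⟩ := QuotientGroup.mk'_surjective _ b
  rw [← map_mul, ← map_mul, hab.sub _ _ h1 x ha y hb]

theorem card_sylow (S : Sylow p H) : Nat.card S = pp p H := by
  exact S.card_eq_multiplicity

theorem pp_dvd : pp p H ∣ Nat.card H := by
  exact Nat.ordProj_dvd _ _

theorem pp_sub {Q K : Subgroup H} (hQ : IsPGroup p Q)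
    (h : ∀ R : Subgroup H, IsPGroup p R → Q ≤ R → R ≤ K) : pp p K = pp p H := by
  have hp : p.Prime := Fact.out
  obtain ⟨S, hS⟩ := hQ.exists_le_sylow
  have h1 : Nat.card S ∣ Nat.card K := Subgroup.card_dvd_of_le (h S S.isPGroup' hS)
  rw [card_sylow] at h1
  refine Nat.dvd_antisymm ?_ ((hp.pow_dvd_iff_dvd_ordProj Nat.card_pos.ne').1 h1)
  exact (hp.pow_dvd_iff_dvd_ordProj Nat.card_pos.ne').1
    ((Nat.ordProj_dvd _ _).trans (Subgroup.card_subgroup_dvd_card K))

theorem card_mul_pp (hab : Ab p H) {Q : Subgroup H} (hQ : IsPGroup p Q) :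
    Nat.card Q * pp p (NQ Q) = pp p H := by
  have hp : p.Prime := Fact.out
  rw [← pp_sub (K := Subgroup.normalizer (Q : Set H)) hQ fun R hR h r hr => hab.fx hR h hr]
  obtain ⟨k, hk⟩ := hQ.exists_card_eq
  have h1 := Subgroup.card_eq_card_quotient_mul_card_subgroup
    (Q.subgroupOf (Subgroup.normalizer (Q : Set H)))
  rw [Nat.card_congr (Subgroup.subgroupOfEquivOfLe (Subgroup.le_normalizer (H := Q))).toEquiv,
    hk] at h1
  unfold pp
  rw [h1, hk, Nat.factorization_mul Nat.card_pos.ne' (pow_ne_zero _ hp.ne_zero), Finsupp.add_apply,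
    hp.factorization_pow, Finsupp.single_eq_same, pow_add, mul_comm]

theorem isP_iff {x : H} : IsP p x ↔ IsPGroup p (Subgroup.zpowers x) := by
  constructor
  · rintro ⟨k, hk⟩
    refine IsPGroup.of_card_dvd_pow (n := k) ?_
    rw [Nat.card_zpowers]
    exact orderOf_dvd_of_pow_eq_one hk
  · intro h
    obtain ⟨k, hk⟩ := h ⟨x, Subgroup.mem_zpowers x⟩
    exact ⟨k, congrArg Subtype.val hk⟩

theorem cancel_pp {m : ℤ} (h : (p * pp p H : ℤ) ∣ Nat.card H * m) : (p : ℤ) ∣ m := by
  have hp : p.Prime := Fact.out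
  have h0 : Nat.card H ≠ 0 := Nat.card_pos.ne'
  have h1 : pp p H * (Nat.card H / pp p H) = Nat.card H := Nat.ordProj_mul_ordCompl_eq_self _ _
  have h2 : p.Coprime (Nat.card H / pp p H) := Nat.coprime_ordCompl hp h0
  have h3 : (pp p H : ℤ) ≠ 0 := Int.natCast_ne_zero.2 (pow_ne_zero _ hp.ne_zero)
  generalize Nat.card H / pp p H = c at h1 h2
  rw [← h1, Nat.cast_mul, mul_assoc, mul_comm (p : ℤ), mul_dvd_mul_iff_left h3] at h
  exact (Nat.isCoprime_iff_coprime.2 h2).dvd_of_dvd_mul_left h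

end Vale.Agent.P179
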