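import Vale.Agent.P179.TB
import Vale.Agent.P179.TA2

/-! P179: pairs with a singular first entry cancel.

cm a b = 1 iff a b = b a. If a is not p-regular, p divides orderOf a, u = a ^ (orderOf a / p) has order p;
R = zpowers u is a nontrivial p-group, normalized by a and b (they commute with u), and every chain fixed by a is
fixed by R. Use sum_sg_zero with the constant R, tg_isCh, fxC_tg: mu p ⊥ a b = 0.
-/

open Finset
open scoped Classical

noncomputable section

namespace Vale.Agent.P179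

set_option linter.unusedSectionVars false

variable {p : ℕ} [Fact p.Prime] {H : Type} [Group H] [Fintype H]

theorem TC_fx {g u : H} (h : Commute g u) : Fx g (Subgroup.zpowers u) := by
  refine Subgroup.centralizer_le_normalizer _ fun x hx => ?_
  obtain ⟨k, rfl⟩ := hx
  exact (h.zpow_right k).symm.eq

theorem TC_mu {a b : H} (h : Commute b a) (ha : ¬ IsReg p a) : mu p ⊥ a b = 0 := by
  have hp : p.Prime := Fact.out
  have hd : p ∣ orderOf a := by_contra fun k => ha (hp.coprime_iff_not_dvd.2 k).symm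
  have ho : orderOf (a ^ (orderOf a / p)) = p := orderOf_pow_orderOf_div (orderOf_pos a).ne' hd
  have hR : IsPGroup p (Subgroup.zpowers (a ^ (orderOf a / p))) := isP_iff.1 ⟨1, by
    have h1 := pow_orderOf_eq_one (a ^ (orderOf a / p))
    rw [ho] at h1
    rwa [pow_one]⟩
  have hn : ¬ Subgroup.zpowers (a ^ (orderOf a / p)) ≤ ⊥ := fun k => by
    rw [Subgroup.mem_bot.1 (k (Subgroup.mem_zpowers _)), orderOf_one] at ho
    exact hp.one_lt.ne ho
  refine sum_sg_zero _ ⊥ (fun _ => Subgroup.zpowers (a ^ (orderOf a / p))) fun σ hσ => ⟨?_, rfl⟩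
  obtain ⟨-, h1, h2, h3⟩ := mem_filter.1 hσ
  exact mem_filter.2 ⟨mem_univ _, tg_isCh IsPGroup.of_bot hR hn (fun r _ => fx_bot r) h1
    fun r hr Q hQ => Subgroup.zpowers_le.2 (Subgroup.pow_mem _ (h2 Q hQ) _) hr,
    (fxC_tg (fx_bot a) (TC_fx ((Commute.refl a).pow_right _))).2 h2,
    (fxC_tg (fx_bot b) (TC_fx (h.pow_right _))).2 h3⟩

theorem aa_eq : aa p H = ∑ y : H × H with cm y.1 y.2 = 1, mu p ⊥ y.1 y.2 := by
  have e : ∀ a b : H, cm a b = 1 ↔ a * b = b * a := fun a b => by
    rw [cm, mul_inv_eq_one, mul_inv_eq_iff_eq_mul]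
  refine sum_subset (fun x hx => mem_filter.2 ⟨mem_univ _, (e _ _).2 (mem_filter.1 hx).2.1⟩)
    fun x hx hx' => ?_
  have h1 := (e _ _).1 (mem_filter.1 hx).2
  exact TC_mu h1.symm fun k => hx' (mem_filter.2 ⟨mem_univ _, h1, k⟩)

end Vale.Agent.P179
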