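import Vale.Agent.P179.XF
import Vale.Agent.P179.TC
import Vale.Agent.P179.OB
import Vale.Agent.P179.RE
import Vale.Agent.P179.KA
import Vale.Agent.P179.KB
import Vale.Agent.P179.KC
import Vale.Agent.P179.KD
import Vale.Agent.P179.BA
import Vale.Agent.P179.BB
import Vale.Agent.P179.BC
import Vale.Agent.P179.BE

/-! P179: the congruence. -/

open Finset
open scoped Classical

noncomputable section

namespace Vale.Agent.P179

set_option linter.unusedSectionVars false

variable {p : ℕ} [Fact p.Prime] {H : Type} [Group H] [Fintype H]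

theorem aa_zz (hab : Ab p H) : (p * pp p H : ℤ) ∣ aa p H - Nat.card H * zz p H := by
  have e : ∑ y : H × H with IsP p (cm y.1 y.2), mu p ⊥ y.1 y.2 = aa p H +
      ∑ x : H with IsP p x ∧ x ≠ 1, ∑ y : H × H with cm y.1 y.2 = x, mu p ⊥ y.1 y.2 := by
    have e1 : (univ.filter fun x : H => IsP p x) =
        insert 1 (univ.filter fun x : H => IsP p x ∧ x ≠ 1) := by
      ext x
      by_cases h : x = 1
      · simp [h, show IsP p (1 : H) from ⟨0, one_pow _⟩]
      · simp [h]
    rw [aa_eq, ← sum_insert (f := fun x : H => ∑ y : H × H with cm y.1 y.2 = x, mu p ⊥ y.1 y.2)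
      (by simp), ← e1]
    have e2 := sum_fiberwise_eq_sum_filter (univ : Finset (H × H))
      (univ.filter fun x : H => IsP p x) (fun y => cm y.1 y.2) fun y => mu p ⊥ y.1 y.2
    simpa only [mem_filter, mem_univ, true_and] using e2.symm
  have a1 := ct_mu hab
  have a2 := factA hab
  have a3 : (p * pp p H : ℤ) ∣
      ∑ x : H with IsP p x ∧ x ≠ 1, ∑ y : H × H with cm y.1 y.2 = x, mu p ⊥ y.1 y.2 :=
    dvd_sum fun x hx => sum_comm_dvd hab (mem_filter.1 hx).2.1 (mem_filter.1 hx).2.2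
  have a4 := (a1.add a2).sub a3
  rw [e] at a4
  exact a4.trans (dvd_of_eq (by ring))

theorem isReg_map {K : Type} [Group K] (f : K →* H) {a : K} (h : IsReg p a) : IsReg p (f a) :=
  Nat.Coprime.coprime_dvd_left (orderOf_map_dvd f a) h

theorem card_aa_quot {K : Type} [Group K] [Fintype K] (f : K →* H) (hf : Function.Surjective f)
    (hk : IsPGroup p f.ker) (hq : ∀ u ∈ f.ker, ∀ v ∈ f.ker, u * v = v * u) :
    Nat.card f.ker * aa p H =
      ∑ y : K × K with y.1 * y.2 = y.2 * y.1 ∧ IsReg p y.1, mu p f.ker y.1 y.2 := by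
  rw [aa, mul_sum, ← sum_fiberwise_of_maps_to (g := fun y : K × K => (f y.1, f y.2))
    (t := univ.filter fun x : H × H => x.1 * x.2 = x.2 * x.1 ∧ IsReg p x.1)]
  · refine sum_congr rfl fun x hx => ?_
    rw [← lift_count f hf hk hq (mem_filter.1 hx).2.2 (mem_filter.1 hx).2.1, filter_filter,
      ← nsmul_eq_mul, ← sum_const]
    refine sum_congr (filter_congr fun y _ => by rw [Prod.ext_iff]) fun y hy => ?_
    rw [← mu_quot f hf hk, ← (mem_filter.1 hy).2.2]
  · intro y hy
    refine mem_filter.2 ⟨mem_univ _, ?_, isReg_map f (mem_filter.1 hy).2.2⟩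
    rw [← map_mul, ← map_mul, (mem_filter.1 hy).2.1]

theorem card_aa (hab : Ab p H) {Q : Subgroup H} (hQ : IsPGroup p Q) :
    Nat.card Q * aa p (NQ Q) = ∑ y : H × H with (y.1 * y.2 = y.2 * y.1 ∧ IsReg p y.1) ∧
      Fx y.1 Q ∧ Fx y.2 Q, mu p Q y.1 y.2 := by
  have e := card_aa_quot (p := p) (QuotientGroup.mk' (Q.subgroupOf (Subgroup.normalizer (Q : Set H))))
    (QuotientGroup.mk'_surjective _) (by rw [QuotientGroup.ker_mk']; exact hQ.comap_subtype)
    (by
      rw [QuotientGroup.ker_mk']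
      exact fun u hu v hv => Subtype.ext (hab Q hQ _ hu _ hv))
  rw [QuotientGroup.ker_mk', Nat.card_congr
    (Subgroup.subgroupOfEquivOfLe Subgroup.le_normalizer).toEquiv] at e
  refine e.trans (sum_bij (fun y _ => ((y.1 : H), (y.2 : H))) (fun y hy => ?_)
    (fun y _ z _ h => ?_) (fun y hy => ?_) fun y _ => mu_sub hab _ _)
  · simp only [mem_filter, mem_univ, true_and] at hy
    obtain ⟨a1, a2⟩ := hy
    exact mem_filter.2 ⟨mem_univ _, ⟨congrArg Subtype.val a1,
      isReg_map (Subgroup.subtype _) a2⟩, y.1.2, y.2.2⟩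
  · exact Prod.ext (Subtype.ext (congrArg Prod.fst h)) (Subtype.ext (congrArg Prod.snd h))
  · obtain ⟨⟨a1, a2⟩, a3, a4⟩ := (mem_filter.1 hy).2
    refine ⟨(⟨y.1, a3⟩, ⟨y.2, a4⟩), ?_, rfl⟩
    simp only [mem_filter, mem_univ, true_and]
    refine ⟨Subtype.ext a1, ?_⟩
    rwa [IsReg, ← Subgroup.orderOf_coe]

theorem sum_aa (hab : Ab p H) : ∑ Q ∈ univ.filter (fun Q : Subgroup H => IsPGroup p Q),
    Nat.card Q * aa p (NQ Q) = Nat.card H * numReg p H := by
  rw [sum_congr rfl fun Q hQ => card_aa hab (mem_filter.1 hQ).2, ← Nat.cast_mul, ← reg_count,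
    card_eq_sum_ones, Nat.cast_sum, sum_comm' (t' := univ.filter fun y : H × H =>
      y.1 * y.2 = y.2 * y.1 ∧ IsReg p y.1) (s' := fun y => univ.filter fun Q : Subgroup H =>
        IsPGroup p Q ∧ Fx y.1 Q ∧ Fx y.2 Q) fun Q y => by
          simp only [mem_filter, mem_univ, true_and]
          tauto]
  refine sum_congr rfl fun y _ => ?_
  rw [Nat.cast_one, ← chain_sum (p := p) (fun Q => Fx y.1 Q ∧ Fx y.2 Q) ⊥ IsPGroup.of_bot
    ⟨fx_bot _, fx_bot _⟩ fun _ _ _ => bot_le]
  refine sum_congr (by congr) fun Q _ => sum_congr (Finset.ext fun σ => ?_) fun _ _ => rfl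
  simp only [mem_filter, mem_univ, true_and]
  exact and_congr_right fun _ => ⟨fun h R hR => ⟨h.1 R hR, h.2 R hR⟩,
    fun h => ⟨fun R hR => (h R hR).1, fun R hR => (h R hR).2⟩⟩

theorem reg_weights (hab : Ab p H) : numReg p H ≡ numWeights p H [MOD p] := by
  refine (Nat.modEq_iff_dvd.2 (cancel_pp (H := H) ?_)).symm
  rw [mul_sub, ← sum_aa hab, ← Nat.cast_mul (Nat.card H), weight_count, Nat.cast_sum,
    ← sum_sub_distrib]
  refine dvd_sum fun Q hQ => ?_
  have hQ' := (mem_filter.1 hQ).2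
  have e : Nat.card (Subgroup.normalizer (Q : Set H)) = Nat.card Q * Nat.card (NQ Q) := by
    rw [Subgroup.card_eq_card_quotient_mul_card_subgroup
      (Q.subgroupOf (Subgroup.normalizer (Q : Set H))), Nat.card_congr
      (Subgroup.subgroupOfEquivOfLe Subgroup.le_normalizer).toEquiv, mul_comm]
  rw [e, ← card_mul_pp hab hQ']
  push_cast
  rw [mul_assoc, ← mul_sub, mul_left_comm]
  exact mul_dvd_mul_left _ (aa_zz (hab.nq hQ'))

theorem brauer (k : Type) [Field k] [IsAlgClosed k] [CharP k p] : numSimple k H = numReg p H := by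
  obtain ⟨r, d, π, h1, h2, h3⟩ := exists_wedd k H
  rw [num_simple π h1 h2 h3]
  exact le_antisymm (le_numReg π h1 h2) (numReg_le π h1 h2 h3)

end Vale.Agent.P179
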