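import Vale.Agent.P179.TA

/-! P179: the sum over all starting points.

Split off the term Q = m. In that term the empty chain gives 1, and a nonempty chain σ corresponds to the pair
(Q = least member of σ, σ.erase Q), with the opposite sign; these pairs run over all Q ≠ m of the outer sum.
Equivalent: sum_involution on pairs (Q, σ) ≠ (m, ∅): (m, σ) ↔ (min σ, σ.erase (min σ)).
-/

open Finset
open scoped Classical

noncomputable section

namespace Vale.Agent.P179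

set_option linter.unusedSectionVars false

variable {p : ℕ} [Fact p.Prime] {H : Type} [Group H] [Fintype H]

variable (p) in
/-- All chains of admissible subgroups. -/
def NA_C (A : Subgroup H → Prop) : Finset (Finset (Subgroup H)) :=
  univ.filter fun τ => (∀ Q ∈ τ, IsPGroup p Q ∧ A Q) ∧ ∀ Q ∈ τ, ∀ Q' ∈ τ, Q ≤ Q' ∨ Q' ≤ Q

theorem NA_mem {A : Subgroup H → Prop} {τ : Finset (Subgroup H)} : τ ∈ NA_C p A ↔
    (∀ Q ∈ τ, IsPGroup p Q ∧ A Q) ∧ ∀ Q ∈ τ, ∀ Q' ∈ τ, Q ≤ Q' ∨ Q' ≤ Q := by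
  simp only [NA_C, mem_filter, mem_univ, true_and]

theorem NA_ins {A : Subgroup H → Prop} {τ : Finset (Subgroup H)} {m : Subgroup H}
    (hτ : τ ∈ NA_C p A) (hm : IsPGroup p m) (h1 : A m) (h2 : ∀ Q ∈ τ, m ≤ Q) :
    insert m τ ∈ NA_C p A := by
  rw [NA_mem] at hτ ⊢
  refine ⟨fun Q hQ => ?_, fun Q hQ Q' hQ' => ?_⟩
  · rcases mem_insert.1 hQ with rfl | hQ
    · exact ⟨hm, h1⟩
    · exact hτ.1 Q hQ
  · rcases mem_insert.1 hQ with a | a <;> rcases mem_insert.1 hQ' with b | b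
    · exact Or.inl (a.trans b.symm).le
    · exact Or.inl (a.trans_le (h2 _ b))
    · exact Or.inr (b.trans_le (h2 _ a))
    · exact hτ.2 Q a Q' b

theorem NA_sg {τ : Finset (Subgroup H)} {m : Subgroup H} (h : m ∉ τ) :
    sg (insert m τ) = -sg τ := by
  rw [sg, sg, card_insert_of_notMem h, pow_succ, mul_neg_one]

theorem NA_zero (A : Subgroup H → Prop) (m : Subgroup H) (hm : IsPGroup p m) (h1 : A m)
    (h2 : ∀ Q : Subgroup H, IsPGroup p Q → A Q → m ≤ Q) : ∑ τ ∈ NA_C p A, sg τ = 0 := by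
  refine sum_involution (fun τ _ => if m ∈ τ then τ.erase m else insert m τ) (fun τ _ => ?_)
    (fun τ _ _ => ?_) (fun τ hτ => ?_) (fun τ _ => ?_)
  · split_ifs with h
    · have e := NA_sg (notMem_erase m τ)
      rw [insert_erase h] at e
      rw [e, neg_add_cancel]
    · rw [NA_sg h, add_neg_cancel]
  · split_ifs with h
    · exact fun e => notMem_erase m τ (e.symm ▸ h)
    · exact fun e => h (e ▸ mem_insert_self m τ)
  · split_ifs with h
    · rw [NA_mem] at hτ ⊢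
      exact ⟨fun Q hQ => hτ.1 Q (mem_of_mem_erase hQ),
        fun Q hQ Q' hQ' => hτ.2 Q (mem_of_mem_erase hQ) Q' (mem_of_mem_erase hQ')⟩
    · exact NA_ins hτ hm h1 fun Q hQ => h2 Q ((NA_mem.1 hτ).1 Q hQ).1 ((NA_mem.1 hτ).1 Q hQ).2
  · by_cases h : m ∈ τ
    · simp only [h, if_true, notMem_erase, if_false, insert_erase h]
    · simp only [h, if_false, mem_insert_self, if_true, erase_insert h]

theorem NA_bij (A : Subgroup H → Prop) :
    ∑ Q ∈ univ.filter (fun Q : Subgroup H => IsPGroup p Q ∧ A Q),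
      ∑ σ : Finset (Subgroup H) with IsCh p Q σ ∧ ∀ Q' ∈ σ, A Q', sg σ =
      ∑ τ ∈ (NA_C p A).erase ∅, -sg τ := by
  rw [sum_sigma']
  refine sum_bij (fun x _ => insert x.1 x.2) (fun x hx => ?_) (fun x hx y hy e => ?_)
    (fun τ hτ => ?_) (fun x hx => ?_)
  · simp only [mem_sigma, mem_filter, mem_univ, true_and] at hx
    refine mem_erase.2 ⟨insert_ne_empty _ _, NA_ins (NA_mem.2 ⟨fun Q hQ =>
      ⟨(hx.2.1.1 Q hQ).1, hx.2.2 Q hQ⟩, hx.2.1.2⟩) hx.1.1 hx.1.2 fun Q hQ => (hx.2.1.1 Q hQ).2.le⟩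
  · obtain ⟨Q, σ⟩ := x
    obtain ⟨Q', σ'⟩ := y
    simp only [mem_sigma, mem_filter, mem_univ, true_and] at hx hy e
    have e1 : Q = Q' := by
      by_contra hn
      have a : Q ∈ σ' := (mem_insert.1 (e ▸ mem_insert_self Q σ)).resolve_left hn
      have b : Q' ∈ σ := (mem_insert.1 (e.symm ▸ mem_insert_self Q' σ')).resolve_left (Ne.symm hn)
      exact lt_asymm (hx.2.1.1 Q' b).2 (hy.2.1.1 Q a).2
    subst e1
    have n1 : Q ∉ σ := fun h => lt_irrefl _ (hx.2.1.1 Q h).2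
    have n2 : Q ∉ σ' := fun h => lt_irrefl _ (hy.2.1.1 Q h).2
    have e2 : σ = σ' := by rw [← erase_insert n1, e, erase_insert n2]
    rw [e2]
  · obtain ⟨h0, hτ⟩ := mem_erase.1 hτ
    rw [NA_mem] at hτ
    obtain ⟨Q, hQ⟩ := τ.exists_minimal (nonempty_iff_ne_empty.2 h0)
    refine ⟨⟨Q, τ.erase Q⟩, ?_, insert_erase hQ.1⟩
    simp only [mem_sigma, mem_filter, mem_univ, true_and]
    refine ⟨hτ.1 Q hQ.1, ⟨fun R hR => ⟨(hτ.1 R (mem_of_mem_erase hR)).1, ?_⟩,
      fun R hR R' hR' => hτ.2 R (mem_of_mem_erase hR) R' (mem_of_mem_erase hR')⟩,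
      fun R hR => (hτ.1 R (mem_of_mem_erase hR)).2⟩
    refine lt_of_le_of_ne ?_ (ne_of_mem_erase hR).symm
    exact (hτ.2 Q hQ.1 R (mem_of_mem_erase hR)).elim id fun h => hQ.2 (mem_of_mem_erase hR) h
  · simp only [mem_sigma, mem_filter, mem_univ, true_and] at hx
    rw [NA_sg fun h => lt_irrefl _ (hx.2.1.1 _ h).2, neg_neg]

theorem chain_sum (A : Subgroup H → Prop) (m : Subgroup H) (hm : IsPGroup p m) (h1 : A m)
    (h2 : ∀ Q : Subgroup H, IsPGroup p Q → A Q → m ≤ Q) :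
    ∑ Q ∈ univ.filter (fun Q : Subgroup H => IsPGroup p Q ∧ A Q),
      ∑ σ : Finset (Subgroup H) with IsCh p Q σ ∧ ∀ Q' ∈ σ, A Q', sg σ = 1 := by
  have h0 : (∅ : Finset (Subgroup H)) ∈ NA_C p A := NA_mem.2 ⟨by simp, by simp⟩
  have h3 := add_sum_erase (NA_C p A) sg h0
  rw [NA_zero A m hm h1 h2, sg, card_empty, pow_zero] at h3
  rw [NA_bij, sum_neg_distrib]
  linarith

end Vale.Agent.P179
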