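import Vale.Agent.P179.Defs

/-! P179: algebraic integers localized at p.

O = the set of z with IsIntegral ℤ (m * z) for some natural m coprime to p (a subring). p is not a unit: if p * z = 1
then the rational number m / p is integral, so p divides m (IsIntegrallyClosed ℤ, isIntegral_algebraMap_iff).
I = a maximal ideal containing p; in the field O ⧸ I of characteristic p, (z - 1) ^ p ^ k = z ^ p ^ k - 1 = 0.
irr_int: ρ g has finite order, so its eigenvalues are roots of unity, trace = sum of the roots of the charpoly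
(Module.End.trace_eq_sum_roots_charpoly_of_splits), or: a root μ of the charpoly is an eigenvalue, μ ^ orderOf g = 1.
-/

open Finset
open scoped Classical

noncomputable section

namespace Vale.Agent.P179

set_option linter.unusedSectionVars false

variable {p : ℕ} [Fact p.Prime] {H : Type} [Group H] [Fintype H]

theorem RA_nat (m : ℕ) : IsIntegral ℤ (m : ℂ) := by
  simpa using isIntegral_algebraMap (R := ℤ) (A := ℂ) (x := m)

/-- The algebraic integers localized at `p`. -/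
def RA_O (p : ℕ) : Subring ℂ where
  carrier := {z | ∃ m : ℕ, m.Coprime p ∧ IsIntegral ℤ (m * z)}
  one_mem' := ⟨1, Nat.coprime_one_left p, by simpa using isIntegral_one⟩
  zero_mem' := ⟨1, Nat.coprime_one_left p, by simpa using isIntegral_zero⟩
  mul_mem' := by
    rintro a b ⟨m, hm, ha⟩ ⟨n, hn, hb⟩
    refine ⟨m * n, Nat.Coprime.mul_left hm hn, ?_⟩
    rw [Nat.cast_mul, mul_mul_mul_comm]
    exact ha.mul hb
  add_mem' := by
    rintro a b ⟨m, hm, ha⟩ ⟨n, hn, hb⟩
    refine ⟨m * n, Nat.Coprime.mul_left hm hn, ?_⟩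
    rw [Nat.cast_mul, show (m : ℂ) * n * (a + b) = n * (m * a) + m * (n * b) by ring]
    exact ((RA_nat n).mul ha).add ((RA_nat m).mul hb)
  neg_mem' := by
    rintro a ⟨m, hm, ha⟩
    exact ⟨m, hm, mul_neg (m : ℂ) a ▸ ha.neg⟩

theorem RA_unit (p : ℕ) [hp : Fact p.Prime] : ¬ IsUnit (p : RA_O p) := by
  intro h
  obtain ⟨⟨z, m, hm, hz⟩, e⟩ := h.exists_right_inv
  have e1 : (p : ℂ) * z = 1 := by simpa using congrArg Subtype.val e
  have h0 : (p : ℂ) ≠ 0 := Nat.cast_ne_zero.2 hp.out.ne_zero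
  have h1 : (p : ℚ) ≠ 0 := Nat.cast_ne_zero.2 hp.out.ne_zero
  have e2 : (m : ℂ) * z = algebraMap ℚ ℂ (m / p) := by
    rw [eq_inv_of_mul_eq_one_right e1, map_div₀, map_natCast, map_natCast, div_eq_mul_inv]
  rw [e2, isIntegral_algebraMap_iff (algebraMap ℚ ℂ).injective,
    IsIntegrallyClosed.isIntegral_iff] at hz
  obtain ⟨y, hy⟩ := hz
  rw [eq_div_iff h1, eq_intCast] at hy
  have h2 : (p : ℤ) ∣ m := ⟨y, by rw [mul_comm]; exact_mod_cast hy.symm⟩
  exact hp.out.one_lt.ne' (Nat.Coprime.eq_one_of_dvd hm.symm (Int.natCast_dvd_natCast.1 h2))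

theorem exists_O (p : ℕ) [Fact p.Prime] : ∃ (O : Subring ℂ) (I : Ideal O), I ≠ ⊤ ∧
    (∀ z, IsIntegral ℤ z → z ∈ O) ∧ (∀ m : ℕ, m.Coprime p → (m : ℂ)⁻¹ ∈ O) ∧ (p : O) ∈ I ∧
      ∀ (z : O) (k : ℕ), z ^ p ^ k = 1 → z - 1 ∈ I := by
  have hp : p.Prime := Fact.out
  obtain ⟨I, hI, hle⟩ := Ideal.exists_le_maximal (Ideal.span {(p : RA_O p)})
    (mt Ideal.span_singleton_eq_top.1 (RA_unit p))
  have hm : (p : RA_O p) ∈ I := hle (Ideal.mem_span_singleton_self _)
  refine ⟨RA_O p, I, hI.ne_top, fun z hz => ⟨1, Nat.coprime_one_left p, by simpa using hz⟩,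
    fun m hm => ⟨m, hm, ?_⟩, hm, fun z k hz => ?_⟩
  · rcases eq_or_ne (m : ℂ) 0 with h | h
    · rw [h, zero_mul]
      exact isIntegral_zero
    · rw [mul_inv_cancel₀ h]
      exact isIntegral_one
  · have := hI.isPrime
    have : CharP (RA_O p ⧸ I) p := (CharP.charP_iff_prime_eq_zero hp).2 (by
      rw [← map_natCast (Ideal.Quotient.mk I)]
      exact Ideal.Quotient.eq_zero_iff_mem.2 hm)
    rw [← Ideal.Quotient.eq_zero_iff_mem, map_sub, map_one]
    refine pow_eq_zero_iff (pow_ne_zero k hp.ne_zero) |>.1 ?_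
    rw [sub_pow_char_pow, ← map_pow, hz, map_one, one_pow, sub_self]

theorem irr_int {χ : H → ℂ} (hχ : IsIrr χ) (g : H) : IsIntegral ℤ (χ g) := by
  obtain ⟨n, ρ, -, rfl⟩ := hχ
  change IsIntegral ℤ (LinearMap.trace ℂ _ (ρ g))
  rw [Module.End.trace_eq_sum_roots_charpoly_of_splits (IsAlgClosed.splits _)]
  refine IsIntegral.multiset_sum fun μ hμ => .of_pow (orderOf_pos g) ?_
  obtain ⟨v, hv⟩ := ((Module.End.hasEigenvalue_iff_isRoot_charpoly _ _).2
    (Polynomial.isRoot_of_mem_roots hμ)).exists_hasEigenvector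
  have h := hv.pow_apply (orderOf g)
  rw [← map_pow, pow_orderOf_eq_one, map_one, Module.End.one_apply] at h
  rw [smul_left_injective ℂ hv.2 (h.symm.trans (one_smul ℂ v).symm)]
  exact isIntegral_one

end Vale.Agent.P179
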