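import Vale.Agent.P179.Defs

/-! P179: congruent idempotents have the same trace.

Over ℂ an idempotent matrix has charpoly (X - 1) ^ r * X ^ (n - r) with r = trace (LinearMap.IsProj, charpoly of
prodMap, or LinearMap.IsProj.trace; search IsProj / IsIdempotentElem charpoly). Polynomial.map along the injective
O.subtype gives the same identity in O[X] (Matrix.charpoly_map). Map to the nontrivial ring O ⧸ I: E and E1 have the
same image, so (X - 1) ^ r * X ^ (n - r) = (X - 1) ^ r1 * X ^ (n - r1); compare the lowest nonzero coefficient (± 1).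
-/

open Finset
open scoped Classical

noncomputable section

namespace Vale.Agent.P179

set_option linter.unusedSectionVars false

variable {O : Subring ℂ} {I : Ideal O}

open Polynomial in
theorem RB_complex {n : Type} [Fintype n] [DecidableEq n] (F : Matrix n n ℂ) (hF : F * F = F) :
    ∃ r s : ℕ, F.charpoly = (X - 1) ^ r * X ^ s ∧ F.trace = r := by
  have he : IsIdempotentElem (Matrix.toLin' F) := by
    change Matrix.toLin' F * Matrix.toLin' F = Matrix.toLin' F
    rw [Module.End.mul_eq_comp, ← Matrix.toLin'_mul, hF]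
  have hp := LinearMap.IsIdempotentElem.isProj_range _ he
  refine ⟨Module.finrank ℂ (LinearMap.range (Matrix.toLin' F)),
    Module.finrank ℂ (LinearMap.ker (Matrix.toLin' F)), ?_, ?_⟩
  · have h1 := congrArg LinearMap.charpoly hp.eq_conj_prodMap
    rw [LinearEquiv.charpoly_conj, LinearMap.charpoly_prodMap, LinearMap.charpoly_zero,
      Matrix.charpoly_toLin'] at h1
    rw [h1]
    congr 1
    exact LinearMap.charpoly_one
  · rw [← Matrix.trace_toLin'_eq, hp.trace]

open Polynomial in
theorem RB_sub {n : Type} [Fintype n] [DecidableEq n] (E : Matrix n n O) (hE : E * E = E) :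
    ∃ r s : ℕ, E.charpoly = (X - 1) ^ r * X ^ s ∧ E.trace = r := by
  obtain ⟨r, s, h1, h2⟩ := RB_complex (E.map O.subtype) (by rw [← Matrix.map_mul, hE])
  refine ⟨r, s, ?_, ?_⟩
  · apply Polynomial.map_injective O.subtype O.subtype_injective
    rw [← Matrix.charpoly_map, h1]
    simp only [Polynomial.map_mul, Polynomial.map_pow, Polynomial.map_sub, Polynomial.map_X,
      Polynomial.map_one]
  · apply O.subtype_injective
    rw [map_natCast, ← h2]
    simp only [Matrix.trace, map_sum, Matrix.diag_apply, Matrix.map_apply]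

open Polynomial in
theorem RB_le {A : Type} [CommRing A] [Nontrivial A] {r s r1 s1 : ℕ}
    (h : ((X - 1) ^ r * X ^ s : A[X]) = (X - 1) ^ r1 * X ^ s1) : r1 ≤ r := by
  by_contra hlt
  obtain ⟨k, rfl⟩ := Nat.exists_eq_add_of_lt (not_le.1 hlt)
  have hm : ((X - 1 : A[X]) ^ r).Monic := by
    have := (monic_X_sub_C (1 : A)).pow r
    rwa [C_1] at this
  rw [add_assoc, pow_add, mul_assoc] at h
  have h2 := congrArg (Polynomial.eval 1) (hm.isRegular.left h)
  simp at h2

theorem trace_eq (hI : I ≠ ⊤) {n : Type} [Fintype n] [DecidableEq n] (E E1 : Matrix n n O)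
    (hE : E * E = E) (hE1 : E1 * E1 = E1) (h : ∀ i j, E i j - E1 i j ∈ I) : E.trace = E1.trace := by
  have : Nontrivial (O ⧸ I) := Ideal.Quotient.nontrivial_iff.2 hI
  obtain ⟨r, s, h1, h2⟩ := RB_sub E hE
  obtain ⟨r1, s1, h3, h4⟩ := RB_sub E1 hE1
  have h5 : E.map (Ideal.Quotient.mk I) = E1.map (Ideal.Quotient.mk I) := by
    ext i j
    exact Ideal.Quotient.eq.2 (h i j)
  have h6 := congrArg Matrix.charpoly h5
  rw [Matrix.charpoly_map, Matrix.charpoly_map, h1, h3] at h6
  simp only [Polynomial.map_mul, Polynomial.map_pow, Polynomial.map_sub, Polynomial.map_X,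
    Polynomial.map_one] at h6
  rw [h2, h4, le_antisymm (RB_le h6) (RB_le h6.symm)]

end Vale.Agent.P179
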