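import Vale.Agent.P179.RB
import Vale.Agent.P179.TA2

/-! P179: central idempotents with local coefficients.

U = zpowers x, T = H ⧸ U with representatives out. For a character λ of U (AddChar (Additive U) ℂ or U →* ℂˣ; values
are p-power roots of unity, integral, so in O and congruent to 1 mod I) put E λ s t = ∑ u : U, ε (out s * u * (out t)⁻¹) * λ u.
E λ is idempotent (substitute g = out t * v, a bijection T × U ≃ H, and use hc), E λ - E 1 has entries in I, and
trace (E λ) = card T * ∑ u, ε u * λ u. trace_eq: ∑ u, ε u * λ u does not depend on λ; Fourier inversion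
(AddChar.sum_apply_eq_ite) gives ε x = 0. eps_one: E s t = ε (s * t⁻¹) on H, E1 = 0, trace E = card H * ε 1.
-/

open Finset
open scoped Classical

noncomputable section

namespace Vale.Agent.P179

set_option linter.unusedSectionVars false

variable {p : ℕ} [Fact p.Prime] {H : Type} [Group H] [Fintype H] {O : Subring ℂ} {I : Ideal O}

theorem RC_conv (ε : H → O) (hc : ∀ x, ∑ g, ε (x * g⁻¹) * ε g = ε x) (a b : H) :
    ∑ g, ε (a * g⁻¹) * ε (g * b) = ε (a * b) := by
  rw [← hc (a * b)]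
  refine Fintype.sum_equiv (Equiv.mulRight b) _ _ fun g => ?_
  simp [mul_assoc]

theorem RC_sum (U : Subgroup H) (f : H → O) :
    ∑ r : H ⧸ U, ∑ v : U, f (r.out * v) = ∑ g, f g := by
  rw [← Fintype.sum_prod_type' (fun (r : H ⧸ U) (v : U) => f (r.out * v))]
  refine Fintype.sum_bijective (fun z : (H ⧸ U) × U => z.1.out * z.2) ⟨?_, ?_⟩ _ _ fun _ => rfl
  · rintro ⟨r, v⟩ ⟨r', v'⟩ h
    have h1 : r = r' := by
      have := congrArg (QuotientGroup.mk (s := U)) h
      simpa only [QuotientGroup.mk_mul_of_mem _ v.2, QuotientGroup.mk_mul_of_mem _ v'.2,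
        QuotientGroup.out_eq'] using this
    subst h1
    exact Prod.ext rfl (Subtype.ext (mul_left_cancel h))
  · intro g
    obtain ⟨h, hh⟩ := QuotientGroup.mk_out_eq_mul U g
    exact ⟨(QuotientGroup.mk g, h⁻¹), by simp [hh]⟩

/-- The matrix of the idempotent on an induced module. -/
def RC_E (U : Subgroup H) (ε : H → O) (l : U → O) : Matrix (H ⧸ U) (H ⧸ U) O :=
  Matrix.of fun s t => ∑ u : U, ε (s.out * u * t.out⁻¹) * l u

theorem RC_idem (U : Subgroup H) (ε : H → O) (hc : ∀ x, ∑ g, ε (x * g⁻¹) * ε g = ε x) (l : U → O)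
    (hl : ∀ u v, l (u * v) = l u * l v) : RC_E U ε l * RC_E U ε l = RC_E U ε l := by
  ext1 s t
  simp only [RC_E, Matrix.mul_apply, Matrix.of_apply]
  have h1 : ∀ r : H ⧸ U, (∑ u : U, ε (s.out * u * r.out⁻¹) * l u) *
      (∑ v : U, ε (r.out * v * t.out⁻¹) * l v) =
      ∑ w : U, ∑ v : U, ε (s.out * w * (r.out * v)⁻¹) * ε (r.out * v * t.out⁻¹) * l w := by
    intro r
    rw [sum_mul_sum, sum_comm]
    conv_rhs => rw [sum_comm]
    refine sum_congr rfl fun v _ => Fintype.sum_equiv (Equiv.mulRight v) _ _ fun u => ?_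
    simp only [Equiv.coe_mulRight, hl, Subgroup.coe_mul, mul_inv_rev, mul_assoc,
      mul_inv_cancel_left]
    ring
  simp only [h1]
  rw [sum_comm]
  refine sum_congr rfl fun w _ => ?_
  simp only [← sum_mul]
  rw [RC_sum U fun g => ε (s.out * w * g⁻¹) * ε (g * t.out⁻¹), RC_conv ε hc]

theorem RC_trace (U : Subgroup H) (ε : H → O) (hf : ∀ g y, ε (y * g * y⁻¹) = ε g) (l : U → O) :
    (RC_E U ε l).trace = (Fintype.card (H ⧸ U) : O) * ∑ u : U, ε u * l u := by
  simp only [RC_E, Matrix.trace, Matrix.diag, Matrix.of_apply, hf, sum_const, card_univ,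
    nsmul_eq_mul]

theorem RC_key (hI : I ≠ ⊤) (U : Subgroup H) (ε : H → O) (hf : ∀ g y, ε (y * g * y⁻¹) = ε g)
    (hc : ∀ x, ∑ g, ε (x * g⁻¹) * ε g = ε x) (l : U → O) (hl : ∀ u v, l (u * v) = l u * l v)
    (hm : ∀ u, l u - 1 ∈ I) : ∑ u : U, ε u * l u = ∑ u : U, ε u * 1 := by
  have h := trace_eq hI (RC_E U ε l) (RC_E U ε fun _ => 1) (RC_idem U ε hc l hl)
    (RC_idem U ε hc _ fun _ _ => (one_mul 1).symm) fun s t => by
      simp only [RC_E, Matrix.of_apply, ← sum_sub_distrib, ← mul_sub]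
      exact I.sum_mem fun u _ => I.mul_mem_left _ (hm u)
  rw [RC_trace U ε hf, RC_trace U ε hf] at h
  exact mul_left_cancel₀ (Nat.cast_ne_zero.2 Fintype.card_ne_zero) h

theorem RC_four {G : Type} [CommGroup G] [Fintype G] (f : G → ℂ) (c : ℂ)
    (h : ∀ ψ : AddChar (Additive G) ℂ, ∑ u, f u * ψ (Additive.ofMul u) = c) {x : G} (hx : x ≠ 1) :
    f x = 0 := by
  have h1 : ∑ ψ : AddChar (Additive G) ℂ, ψ (Additive.ofMul x⁻¹) * c = 0 := by
    rw [← sum_mul, AddChar.sum_apply_eq_ite, if_neg (by simpa using hx), zero_mul]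
  have h2 : ∀ ψ : AddChar (Additive G) ℂ, ψ (Additive.ofMul x⁻¹) * c =
      ∑ u, f u * ψ (Additive.ofMul (x⁻¹ * u)) := fun ψ => by
    rw [← h ψ, mul_sum]
    refine sum_congr rfl fun u _ => ?_
    rw [ofMul_mul, AddChar.map_add_eq_mul]
    ring
  simp only [h2] at h1
  rw [sum_comm] at h1
  simp only [← mul_sum, AddChar.sum_apply_eq_ite, ofMul_eq_zero, inv_mul_eq_one, mul_ite, mul_zero,
    sum_ite_eq, mem_univ, if_true] at h1
  exact (mul_eq_zero.1 h1).resolve_right (Nat.cast_ne_zero.2 Fintype.card_ne_zero)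

theorem eps_zero (hI : I ≠ ⊤) (h1 : ∀ z, IsIntegral ℤ z → z ∈ O)
    (h2 : ∀ (z : O) (k : ℕ), z ^ p ^ k = 1 → z - 1 ∈ I) (ε : H → O)
    (hf : ∀ g y, ε (y * g * y⁻¹) = ε g) (hc : ∀ x, ∑ g, ε (x * g⁻¹) * ε g = ε x) {x : H}
    (hx : IsP p x) (h0 : x ≠ 1) : ε x = 0 := by
  obtain ⟨k, hk⟩ := hx
  let _ : CommGroup (Subgroup.zpowers x) := IsCyclic.commGroup
  have hp : 0 < p ^ k := Nat.pow_pos (Fact.out : p.Prime).pos
  have hu : ∀ u : Subgroup.zpowers x, u ^ p ^ k = 1 := by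
    rintro ⟨_, j, rfl⟩
    refine Subtype.ext ?_
    change (x ^ j) ^ p ^ k = 1
    rw [← zpow_natCast, ← zpow_mul, mul_comm, zpow_mul, zpow_natCast, hk, one_zpow]
  have h3 := RC_four (G := Subgroup.zpowers x) (fun u => (ε u : ℂ))
    ((∑ u : Subgroup.zpowers x, ε u * 1 : O) : ℂ) (fun ψ => by
      have hψ : ∀ u : Subgroup.zpowers x, ψ (Additive.ofMul u) ^ p ^ k = 1 := fun u => by
        rw [← AddChar.map_nsmul_eq_pow, ← ofMul_pow, hu, ofMul_one, AddChar.map_zero_eq_one]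
      have hO : ∀ u : Subgroup.zpowers x, ψ (Additive.ofMul u) ∈ O := fun u =>
        h1 _ (IsIntegral.of_pow hp (by rw [hψ]; exact isIntegral_one))
      rw [← RC_key hI (Subgroup.zpowers x) ε hf hc (fun u => ⟨_, hO u⟩)
        (fun u v => Subtype.ext (by
          change ψ (Additive.ofMul (u * v)) = ψ (Additive.ofMul u) * ψ (Additive.ofMul v)
          rw [ofMul_mul, AddChar.map_add_eq_mul]))
        fun u => h2 _ k (Subtype.ext (hψ u))]
      simp) (x := ⟨x, Subgroup.mem_zpowers x⟩) fun h => h0 (congrArg Subtype.val h)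
  exact Subtype.ext h3

theorem eps_one (hI : I ≠ ⊤) (ε : H → O) (hc : ∀ x, ∑ g, ε (x * g⁻¹) * ε g = ε x)
    (h : ∀ g, ε g ∈ I) : ε 1 = 0 := by
  have h3 := trace_eq hI (Matrix.of fun s t : H => ε (s * t⁻¹)) 0 (by
    ext1 s t
    simp only [Matrix.mul_apply, Matrix.of_apply, RC_conv ε hc]) (mul_zero _) fun s t => by
      simpa using h _
  simp only [Matrix.trace, Matrix.diag, Matrix.of_apply, mul_inv_cancel, sum_const, card_univ,
    nsmul_eq_mul, Matrix.zero_apply, mul_zero] at h3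
  exact (mul_eq_zero.1 h3).resolve_left (Nat.cast_ne_zero.2 Fintype.card_ne_zero)

end Vale.Agent.P179
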