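import Vale.Agent.P179.RA
import Vale.Agent.P179.RC
import Vale.Agent.P179.CC

/-! P179: characters of defect zero.

card H = pp * m with m coprime to p, d = pp * e. ε g = d * χ g / card H = e * χ g * m⁻¹ lies in O (exists_O, irr_int),
is a class function and satisfies the convolution identity by irr_conv. eps_zero gives the vanishing. If p divides e
then all ε g lie in I, eps_one gives ε 1 = 0, but ε 1 = d ^ 2 / card H ≠ 0 (IsIrr.deg). So factorizations agree.
-/

open Finset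
open scoped Classical

noncomputable section

namespace Vale.Agent.P179

set_option linter.unusedSectionVars false

variable {p : ℕ} [Fact p.Prime] {H : Type} [Group H] [Fintype H]

theorem vanish {χ : H → ℂ} (hχ : IsIrr χ) {d : ℕ} (hd : χ 1 = d) (h : pp p H ∣ d) :
    DefectZero p χ ∧ ∀ x, IsP p x → x ≠ 1 → χ x = 0 := by
  have hp : p.Prime := Fact.out
  obtain ⟨O, I, hI, h1, h2, h3, h4⟩ := exists_O p
  obtain ⟨e, he⟩ := h
  have hN : Nat.card H ≠ 0 := Nat.card_pos.ne'
  obtain ⟨m, hm, hc⟩ : ∃ m : ℕ, pp p H * m = Nat.card H ∧ m.Coprime p :=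
    ⟨_, Nat.ordProj_mul_ordCompl_eq_self _ p, (Nat.coprime_ordCompl hp hN).symm⟩
  have hd0 : d ≠ 0 := by
    obtain ⟨d', k1, k2⟩ := hχ.deg
    rw [Nat.cast_injective (hd.symm.trans k2)]
    exact k1.ne'
  have he0 : e ≠ 0 := right_ne_zero_of_mul (he ▸ hd0)
  have hm0 : (m : ℂ) ≠ 0 := Nat.cast_ne_zero.2 (right_ne_zero_of_mul (hm ▸ hN))
  have hq0 : (pp p H : ℂ) ≠ 0 := Nat.cast_ne_zero.2 (left_ne_zero_of_mul (hm ▸ hN))
  have heC : (e : ℂ) ≠ 0 := Nat.cast_ne_zero.2 he0
  let η : H → O := fun g => ⟨χ g * (m : ℂ)⁻¹, O.mul_mem (h1 _ (irr_int hχ g)) (h2 m hc)⟩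
  let ε : H → O := fun g => e * η g
  have hε : ∀ g, (ε g : ℂ) = e * (χ g * (m : ℂ)⁻¹) := fun g => by simp [ε, η]
  have hz : ∀ g, ε g = 0 → χ g = 0 := fun g k => by
    have := hε g
    rw [k] at this
    simpa [heC, hm0] using this
  have hcv : ∀ x, ∑ g, ε (x * g⁻¹) * ε g = ε x := fun x => Subtype.ext (by
    have k := irr_conv hχ x
    rw [hd, he, ← hm, Nat.cast_mul, Nat.cast_mul, mul_assoc, mul_assoc] at k
    have k' := mul_left_cancel₀ hq0 k
    rw [AddSubmonoidClass.coe_finset_sum, hε]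
    simp only [Subring.coe_mul, hε]
    rw [Finset.sum_congr rfl (g := fun g => (e * (m : ℂ)⁻¹ * (m : ℂ)⁻¹) * (e * (χ (x * g⁻¹) * χ g)))
      fun g _ => by ring, ← Finset.mul_sum, ← Finset.mul_sum, k']
    field_simp)
  refine ⟨⟨d, hd, ?_⟩, fun x hx h0 => hz x (eps_zero hI h1 h4 ε
    (fun g y => Subtype.ext (by rw [hε, hε, hχ.conj])) hcv hx h0)⟩
  have hne : ¬ p ∣ e := by
    rintro ⟨k, hk⟩
    have := hz 1 (eps_one hI ε hcv fun g => by
      simp only [ε]
      rw [hk, Nat.cast_mul, mul_assoc]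
      exact I.mul_mem_right _ h3)
    exact hd0 (Nat.cast_eq_zero.1 (hd.symm.trans this))
  rw [he, pp, Nat.factorization_mul (pow_ne_zero _ hp.ne_zero) he0, Finsupp.add_apply,
    Nat.factorization_eq_zero_of_not_dvd hne, add_zero, hp.factorization_pow,
    Finsupp.single_eq_same]

end Vale.Agent.P179
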