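import Mathlib

/-! Simple modules and weights of a finite group. -/

noncomputable section

namespace Vale.Agent.P179

/-- An ordinary irreducible character: the character of an irreducible complex representation. -/
def IsIrr {H : Type} [Group H] (χ : H → ℂ) : Prop :=
  ∃ (n : ℕ) (ρ : Representation ℂ H (Fin n → ℂ)), ρ.IsIrreducible ∧ χ = ρ.character

/-- The degree and the group order have the same `p`-part. -/
def DefectZero (p : ℕ) {H : Type} [Group H] (χ : H → ℂ) : Prop :=
  ∃ d : ℕ, χ 1 = d ∧ d.factorization p = (Nat.card H).factorization p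

/-- The quotient of the normalizer of `Q` by `Q`. -/
abbrev NQ {G : Type} [Group G] (Q : Subgroup G) : Type :=
  Subgroup.normalizer (Q : Set G) ⧸ Q.subgroupOf (Subgroup.normalizer (Q : Set G))

/-- A `p`-weight of `G`. -/
structure Weight (p : ℕ) (G : Type) [Group G] where
  Q : Subgroup G
  pgroup : IsPGroup p Q
  φ : NQ Q → ℂ
  irr : IsIrr φ
  defect : DefectZero p φ

/-- Simultaneous conjugation of the subgroup and of the character. -/
def Weight.Conj {p : ℕ} {G : Type} [Group G] (w w' : Weight p G) : Prop :=
  ∃ g : G, (∀ x, x ∈ w.Q ↔ g * x * g⁻¹ ∈ w'.Q) ∧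
    ∀ (n : Subgroup.normalizer (w.Q : Set G)) (n' : Subgroup.normalizer (w'.Q : Set G)),
      (n' : G) = g * n * g⁻¹ → w'.φ (QuotientGroup.mk n') = w.φ (QuotientGroup.mk n)

/-- The number of conjugacy classes of `p`-weights. -/
def numWeights (p : ℕ) (G : Type) [Group G] : ℕ := Nat.card (Quot (Weight.Conj (p := p) (G := G)))

/-- A simple `k G`-module, written in a basis. -/
structure Simple (k G : Type) [Field k] [Group G] where
  n : ℕ
  ρ : Representation k G (Fin n → k)
  irr : ρ.IsIrreducible

/-- The number of isomorphism classes of simple `k G`-modules. -/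
def numSimple (k G : Type) [Field k] [Group G] : ℕ :=
  Nat.card (Quot fun S T : Simple k G => Nonempty (S.ρ.Equiv T.ρ))

end Vale.Agent.P179
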