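import Vale.Agent.P179.TA

/-! P179: the involution on chains.

A = Q₀ ⊔ sup of the members not above R is Q₀ or the largest such member (chain), it is a p-group normalized by R,
so B = tb = A ⊔ R is a p-group (IsPGroup.to_sup_of_normal_left' or _right'). Members not above R are ≤ A ≤ B,
members above R are above A (chain, since R ≰ A) hence ≥ B. R ≤ B, so toggling B does not change the filter,
tb Q₀ R (tg Q₀ R σ) = tb Q₀ R σ. fxC_tg: g normalizes B as soon as it normalizes Q₀, R and the members not above R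
(fx_iff, cs_sup, Finset.sup induction).
-/

open Finset
open scoped Classical

noncomputable section

namespace Vale.Agent.P179

set_option linter.unusedSectionVars false

variable {p : ℕ} [Fact p.Prime] {H : Type} [Group H] [Fintype H]

theorem TB_le (Q₀ R : Subgroup H) (σ : Finset (Subgroup H)) : R ≤ tb Q₀ R σ := le_sup_right

theorem TB_mem {Q₀ R Q : Subgroup H} {σ : Finset (Subgroup H)} (h : Q ≠ tb Q₀ R σ) :
    Q ∈ tg Q₀ R σ ↔ Q ∈ σ := by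
  unfold tg
  split_ifs <;> simp [h]

theorem TB_self (Q₀ R : Subgroup H) (σ : Finset (Subgroup H)) :
    tb Q₀ R σ ∈ tg Q₀ R σ ↔ tb Q₀ R σ ∉ σ := by
  unfold tg
  split_ifs with h <;> simp [h]

theorem TB_tb (Q₀ R : Subgroup H) (σ : Finset (Subgroup H)) :
    tb Q₀ R (tg Q₀ R σ) = tb Q₀ R σ := by
  have h : ((tg Q₀ R σ).filter fun Q => ¬ R ≤ Q) = σ.filter fun Q => ¬ R ≤ Q := by
    ext Q
    rw [mem_filter, mem_filter]
    refine and_congr_left fun hQ => TB_mem fun e => hQ ?_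
    rw [e]
    exact TB_le _ _ _
  rw [tb, h, tb]

theorem TB_fx_sup {g : H} {Q R : Subgroup H} (h0 : Fx g Q) (h1 : Fx g R) : Fx g (Q ⊔ R) := by
  rw [fx_iff] at *
  rw [cs_sup, h0, h1]

theorem TB_fx {Q₀ R : Subgroup H} {σ : Finset (Subgroup H)} {g : H} (h0 : Fx g Q₀) (h1 : Fx g R)
    (h : ∀ Q ∈ σ, ¬ R ≤ Q → Fx g Q) : Fx g (tb Q₀ R σ) := by
  refine TB_fx_sup (TB_fx_sup h0 ?_) h1
  refine Finset.sup_induction (p := Fx g) (fx_bot g) (fun _ a _ b => TB_fx_sup a b) ?_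
  intro Q hQ
  rw [mem_filter] at hQ
  exact h Q hQ.1 hQ.2

theorem TB_top {Q₀ R : Subgroup H} {σ : Finset (Subgroup H)} (hσ : IsCh p Q₀ σ) :
    Q₀ ⊔ (σ.filter fun Q => ¬ R ≤ Q).sup id = Q₀ ∨
      Q₀ ⊔ (σ.filter fun Q => ¬ R ≤ Q).sup id ∈ σ.filter fun Q => ¬ R ≤ Q := by
  have h : (σ.filter fun Q => ¬ R ≤ Q).sup id = ⊥ ∨
      (σ.filter fun Q => ¬ R ≤ Q).sup id ∈ σ.filter fun Q => ¬ R ≤ Q := by
    refine Finset.sup_induction (p := fun X => X = ⊥ ∨ X ∈ σ.filter fun Q => ¬ R ≤ Q)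
      (Or.inl rfl) ?_ fun Q hQ => Or.inr hQ
    rintro a (rfl | ha) b hb
    · rwa [bot_sup_eq]
    · rcases hb with rfl | hb
      · rw [sup_bot_eq]
        exact Or.inr ha
      · rcases hσ.2 a (mem_filter.1 ha).1 b (mem_filter.1 hb).1 with e | e
        · rw [sup_eq_right.2 e]
          exact Or.inr hb
        · rw [sup_eq_left.2 e]
          exact Or.inr ha
  rcases h with h | h
  · rw [h, sup_bot_eq]
    exact Or.inl rfl
  · rw [sup_eq_right.2 (hσ.1 _ (mem_filter.1 h).1).2.le]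
    exact Or.inr h

theorem TB_cs (y : H) (Q₀ R : Subgroup H) (σ : Finset (Subgroup H)) :
    tb (cs y Q₀) (cs y R) (cc y σ) = cs y (tb Q₀ R σ) := by
  have h : ((cc y σ).filter fun Q => ¬ cs y R ≤ Q) = (σ.filter fun Q => ¬ R ≤ Q).image (cs y) := by
    rw [cc, filter_image]
    simp only [cs_le_iff]
  rw [tb, tb, cs_sup, cs_sup, h, sup_image,
    Finset.apply_sup_eq_sup_comp (cs y) (cs_sup y) (cs_bot y)]
  rfl

theorem tg_isCh {Q₀ R : Subgroup H} {σ : Finset (Subgroup H)} (hQ : IsPGroup p Q₀)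
    (hR : IsPGroup p R) (hn : ¬ R ≤ Q₀) (h0 : ∀ r ∈ R, Fx r Q₀) (hσ : IsCh p Q₀ σ)
    (h1 : ∀ r ∈ R, FxC r σ) : IsCh p Q₀ (tg Q₀ R σ) := by
  obtain ⟨A, hA⟩ : ∃ A, A = Q₀ ⊔ (σ.filter fun Q => ¬ R ≤ Q).sup id := ⟨_, rfl⟩
  have hB : tb Q₀ R σ = A ⊔ R := by rw [hA, tb]
  have hle : ∀ Q ∈ σ, ¬ R ≤ Q → Q ≤ A := fun Q hQ' hn' =>
    hA ▸ le_sup_of_le_right (Finset.le_sup (f := id) (mem_filter.2 ⟨hQ', hn'⟩))
  have hQA : Q₀ ≤ A := hA ▸ le_sup_left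
  have ht := TB_top (R := R) hσ
  rw [← hA, mem_filter] at ht
  have key : IsPGroup p A ∧ ¬ R ≤ A ∧ (∀ r ∈ R, Fx r A) ∧ ∀ Q ∈ σ, Q ≤ A ∨ A ≤ Q := by
    rcases ht with ht | ht
    · rw [ht]
      exact ⟨hQ, hn, h0, fun Q hQ' => Or.inr (hσ.1 Q hQ').2.le⟩
    · exact ⟨(hσ.1 A ht.1).1, ht.2, fun r hr => h1 r hr A ht.1, fun Q hQ' => hσ.2 Q hQ' A ht.1⟩
  obtain ⟨k1, k2, k3, k4⟩ := key
  have hp : IsPGroup p (A ⊔ R : Subgroup H) := IsPGroup.to_sup_of_normal_left' k1 hR k3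
  have hlt : Q₀ < A ⊔ R :=
    lt_of_le_of_ne (le_sup_of_le_left hQA) fun e => hn (e ▸ le_sup_right)
  have hcmp : ∀ Q ∈ σ, Q ≤ A ⊔ R ∨ A ⊔ R ≤ Q := by
    intro Q hQ'
    by_cases hRQ : R ≤ Q
    · rcases k4 Q hQ' with e | e
      · exact absurd (hRQ.trans e) k2
      · exact Or.inr (sup_le e hRQ)
    · exact Or.inl (le_sup_of_le_left (hle Q hQ' hRQ))
  have hm : ∀ Q ∈ tg Q₀ R σ, Q = A ⊔ R ∨ Q ∈ σ := by
    intro Q hQ'
    by_cases e : Q = tb Q₀ R σ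
    · exact Or.inl (e.trans hB)
    · exact Or.inr ((TB_mem e).1 hQ')
  refine ⟨fun Q hQ' => ?_, fun Q hQ' Q' hQ'' => ?_⟩
  · rcases hm Q hQ' with rfl | e
    · exact ⟨hp, hlt⟩
    · exact hσ.1 Q e
  · rcases hm Q hQ' with rfl | e
    · rcases hm Q' hQ'' with rfl | e'
      · exact Or.inl le_rfl
      · exact (hcmp Q' e').symm
    · rcases hm Q' hQ'' with rfl | e'
      · exact hcmp Q e
      · exact hσ.2 Q e Q' e'

theorem tg_tg (Q₀ R : Subgroup H) (σ : Finset (Subgroup H)) : tg Q₀ R (tg Q₀ R σ) = σ := by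
  ext Q
  by_cases e : Q = tb Q₀ R σ
  · have h1 := TB_self Q₀ R (tg Q₀ R σ)
    rw [TB_tb, TB_self, not_not] at h1
    rw [e]
    exact h1
  · rw [TB_mem (by rwa [TB_tb]), TB_mem e]

theorem sg_tg (Q₀ R : Subgroup H) (σ : Finset (Subgroup H)) : sg (tg Q₀ R σ) = - sg σ := by
  unfold tg sg
  split_ifs with h
  · rw [← card_erase_add_one h, pow_succ]
    ring
  · rw [card_insert_of_notMem h, pow_succ]
    ring

theorem fxC_tg {Q₀ R : Subgroup H} {σ : Finset (Subgroup H)} {g : H} (h0 : Fx g Q₀) (h1 : Fx g R) :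
    FxC g (tg Q₀ R σ) ↔ FxC g σ := by
  have hne : ∀ Q, ¬ R ≤ Q → Q ≠ tb Q₀ R σ := fun Q hQ e => hQ (e ▸ TB_le Q₀ R σ)
  constructor
  · intro h Q hQ
    by_cases e : Q = tb Q₀ R σ
    · rw [e]
      exact TB_fx h0 h1 fun Q' hQ' hn => h Q' ((TB_mem (hne Q' hn)).2 hQ')
    · exact h Q ((TB_mem e).2 hQ)
  · intro h Q hQ
    by_cases e : Q = tb Q₀ R σ
    · rw [e]
      exact TB_fx h0 h1 fun Q' hQ' _ => h Q' hQ'
    · exact h Q ((TB_mem e).1 hQ)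

theorem tg_cc (y : H) (Q₀ R : Subgroup H) (σ : Finset (Subgroup H)) :
    tg (cs y Q₀) (cs y R) (cc y σ) = cc y (tg Q₀ R σ) := by
  have hm : cs y (tb Q₀ R σ) ∈ cc y σ ↔ tb Q₀ R σ ∈ σ := (cs_inj y).mem_finset_image
  rw [tg, tg, TB_cs]
  by_cases h : tb Q₀ R σ ∈ σ
  · rw [if_pos h, if_pos (hm.2 h), cc, cc, image_erase (cs_inj y)]
  · rw [if_neg h, if_neg (fun e => h (hm.1 e)), cc, cc, image_insert]

theorem sum_sg_zero (S : Finset (Finset (Subgroup H))) (Q₀ : Subgroup H)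
    (R : Finset (Subgroup H) → Subgroup H)
    (h : ∀ σ ∈ S, tg Q₀ (R σ) σ ∈ S ∧ R (tg Q₀ (R σ) σ) = R σ) : ∑ σ ∈ S, sg σ = 0 := by
  refine Finset.sum_involution (fun σ _ => tg Q₀ (R σ) σ) (fun σ _ => ?_) (fun σ _ hσ e => ?_)
    (fun σ hσ => (h σ hσ).1) fun σ hσ => ?_
  · rw [sg_tg, add_neg_cancel]
  · have h1 := sg_tg Q₀ (R σ) σ
    rw [e] at h1
    omega
  · rw [(h σ hσ).2, tg_tg]

end Vale.Agent.P179
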