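import Vale.Agent.P179.TA
import Vale.Agent.P179.HA

/-! P179: the braid action on triples.

Direct computations with group; y • ξ is cj (C.val y) ξ by rfl. delta4: (s1 * s2 * s1) (σ, a, b) = (σ, b⁻¹, b a b⁻¹);
cc x⁻¹ σ = σ as x = cm a b fixes σ (fxC_iff, cc_eq_iff). Freeness is kept by Eqv.free and by translation.
-/

open Finset
open scoped Classical

noncomputable section

namespace Vale.Agent.P179

set_option linter.unusedSectionVars false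

variable {p : ℕ} [Fact p.Prime] {H : Type} [Group H] [Fintype H] {C : CSub H} {x : H}

theorem val_mul (y z : C.G) : C.val (y * z) = C.val y * C.val z := rfl

theorem val_mem (y : C.G) : C.val y ∈ C.P := y.2

theorem val_inj : Function.Injective C.val := fun _ _ h => Subtype.ext h

theorem mem_E0 {ξ : Tr H} {e : H} :
    e ∈ E0 C ξ ↔ e ∈ C.P ∧ e * ξ.2.1 = ξ.2.1 * e ∧ FxC e ξ.1 := by
  rw [E0, Subgroup.mem_inf, Subgroup.mem_inf, Subgroup.mem_centralizer_singleton_iff, fxC_iff,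
    and_assoc]

theorem smul_eq_iff {ξ : Tr H} (hσ : IsCh p ⊥ ξ.1) (y : C.G) :
    y • ξ = ξ ↔ C.val y ∈ E0 C ξ ∧ C.val y * ξ.2.2 = ξ.2.2 * C.val y := by
  change cj (C.val y) ξ = ξ ↔ _
  rw [mem_E0, ← cc_eq_iff hσ, cj, Prod.ext_iff, Prod.ext_iff, mul_inv_eq_iff_eq_mul,
    mul_inv_eq_iff_eq_mul]
  exact ⟨fun h => ⟨⟨val_mem y, h.2.1, h.1⟩, h.2.2⟩, fun h => ⟨h.1.2.2, h.1.2.1, h.2⟩⟩

theorem free_iff {ξ : Tr H} (hσ : IsCh p ⊥ ξ.1) :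
    Free C.G ξ ↔ ∀ e ∈ E0 C ξ, e * ξ.2.2 = ξ.2.2 * e → e = 1 := by
  refine ⟨fun h e he hb => ?_, fun h y hy => val_inj ?_⟩
  · exact congrArg C.val (h ⟨e, (mem_E0.1 he).1⟩ ((smul_eq_iff hσ _).2 ⟨he, hb⟩))
  · exact h _ ((smul_eq_iff hσ y).1 hy).1 ((smul_eq_iff hσ y).1 hy).2

theorem E0_smul (y : C.G) (ξ : Tr H) : E0 C (y • ξ) = E0 C ξ := by
  ext e
  rw [mem_E0, mem_E0]
  refine and_congr_right fun he => ?_
  have h : C.val y * e * (C.val y)⁻¹ = e := by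
    rw [C.comm _ (val_mem y) _ he, mul_inv_cancel_right]
  change e * (C.val y * ξ.2.1 * (C.val y)⁻¹) = C.val y * ξ.2.1 * (C.val y)⁻¹ * e ∧
    FxC e (cc (C.val y) ξ.1) ↔ _
  rw [← h, fxC_cc, conj_mul, conj_mul, mul_left_inj, mul_right_inj, h]

theorem eqv_s1 : Eqv C.G (s1 : Equiv.Perm (Tr H)) := fun y ξ => by
  change s1 (cj _ ξ) = cj _ (s1 ξ)
  simp [s1, cj, mul_assoc]

theorem eqv_s2 : Eqv C.G (s2 : Equiv.Perm (Tr H)) := fun y ξ => by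
  change s2 (cj _ ξ) = cj _ (s2 ξ)
  simp [s2, cj, mul_assoc]

theorem s_braid : (s1 * s2 * s1 : Equiv.Perm (Tr H)) = s2 * s1 * s2 := by
  ext1 ξ
  simp [s1, s2, mul_assoc]

theorem s1_pow (n : ℕ) (ξ : Tr H) : (s1 ^ n : Equiv.Perm (Tr H)) ξ = (ξ.1, ξ.2.1, ξ.2.2 * ξ.2.1 ^ n) := by
  induction n with
  | zero => simp
  | succ n ih =>
    rw [pow_succ', Equiv.Perm.mul_apply, ih, pow_succ, ← mul_assoc]
    rfl

theorem delta4 {ξ : Tr H} (hξ : InX p x ξ) {y : C.G} (hy : C.val y = x) :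
    ((s1 * s2 * s1) ^ 4 : Equiv.Perm (Tr H)) ξ = y⁻¹ • ξ := by
  have h1 : ∀ ξ : Tr H, (s1 * s2 * s1 : Equiv.Perm (Tr H)) ξ =
      (ξ.1, ξ.2.2⁻¹, ξ.2.2 * ξ.2.1 * ξ.2.2⁻¹) := fun ξ => by simp [s1, s2, mul_assoc]
  have h2 : cc x⁻¹ ξ.1 = ξ.1 := by
    have a := fxC_iff.1 hξ.2.1
    have b := fxC_iff.1 hξ.2.2.1
    rw [cc_eq_iff hξ.1, fxC_iff, ← hξ.2.2.2]
    exact inv_mem (mul_mem (mul_mem (mul_mem a b) (inv_mem a)) (inv_mem b))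
  change _ = cj (C.val y)⁻¹ ξ
  rw [hy, cj, h2, ← hξ.2.2.2, show 4 = 1 + 1 + 1 + 1 from rfl]
  generalize (s1 * s2 * s1 : Equiv.Perm (Tr H)) = D at h1
  simp only [pow_succ, pow_zero, one_mul, Equiv.Perm.mul_apply, h1, cm, Prod.mk.injEq, true_and]
  constructor <;> group

theorem inX_smul (hx : x ∈ C.P) (y : C.G) (ξ : Tr H) : InX p x (y • ξ) ↔ InX p x ξ := by
  have h : C.val y * x * (C.val y)⁻¹ = x := by
    rw [C.comm _ (val_mem y) _ hx, mul_inv_cancel_right]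
  have h1 : cm (C.val y * ξ.2.1 * (C.val y)⁻¹) (C.val y * ξ.2.2 * (C.val y)⁻¹) =
      C.val y * cm ξ.2.1 ξ.2.2 * (C.val y)⁻¹ := by
    unfold cm
    group
  change InX p x (cj (C.val y) ξ) ↔ _
  unfold InX cj
  rw [fxC_cc, fxC_cc, h1, ← h, mul_left_inj, mul_right_inj, h, ← cs_bot (C.val y), isCh_cc,
    cs_bot]

theorem wt_wx (hx : x ∈ C.P) : Wt C.G (wx p C x) := by
  refine ⟨fun ξ h => ?_, fun y ξ => ?_⟩
  · by_contra h1
    exact h (if_neg fun h2 => h1 h2.2)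
  · have h : Free C.G (y • ξ) ↔ Free C.G ξ := forall_congr' fun z => by
      rw [smul_comm z y, smul_left_cancel_iff]
    unfold wx
    rw [inX_smul hx, h]
    exact congrArg (ite _ · _) (sg_cc _ _)

theorem wx_s1 (ξ : Tr H) : wx p C x (s1 ξ) = wx p C x ξ := by
  have h : InX p x (s1 ξ) ↔ InX p x ξ := by
    have e : cm ξ.2.1 (ξ.2.2 * ξ.2.1) = cm ξ.2.1 ξ.2.2 := by
      unfold cm
      group
    change _ ∧ FxC ξ.2.1 ξ.1 ∧ FxC (ξ.2.2 * ξ.2.1) ξ.1 ∧ cm ξ.2.1 (ξ.2.2 * ξ.2.1) = x ↔ _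
    refine and_congr_right fun _ => and_congr_right fun ha => and_congr ?_ (by rw [e])
    rw [fxC_iff, fxC_iff, mul_mem_cancel_right (fxC_iff.1 ha)]
  unfold wx
  rw [h, eqv_s1.free]
  rfl

theorem wx_s2 (ξ : Tr H) : wx p C x (s2 ξ) = wx p C x ξ := by
  have h : InX p x (s2 ξ) ↔ InX p x ξ := by
    have e : cm (ξ.2.1 * ξ.2.2⁻¹) ξ.2.2 = cm ξ.2.1 ξ.2.2 := by
      unfold cm
      group
    change _ ∧ FxC (ξ.2.1 * ξ.2.2⁻¹) ξ.1 ∧ FxC ξ.2.2 ξ.1 ∧ cm (ξ.2.1 * ξ.2.2⁻¹) ξ.2.2 = x ↔ _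
    rw [e]
    refine and_congr_right fun _ => and_congr_left fun hb => ?_
    rw [fxC_iff, fxC_iff, mul_mem_cancel_right (inv_mem (fxC_iff.1 hb.1))]
  unfold wx
  rw [h, eqv_s2.free]
  rfl

theorem wx_val (ξ : Tr H) : wx p C x ξ = 0 ∨ wx p C x ξ = 1 ∨ wx p C x ξ = -1 := by
  unfold wx
  split_ifs
  · exact Or.inr (neg_one_pow_eq_or ℤ _)
  · exact Or.inl rfl

theorem wx_ne {ξ : Tr H} : wx p C x ξ ≠ 0 ↔ InX p x ξ ∧ Free C.G ξ := by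
  unfold wx
  split_ifs with h
  · exact iff_of_true (pow_ne_zero _ (by norm_num)) h
  · exact iff_of_false (fun h => h rfl) h

end Vale.Agent.P179
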