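import Vale.Agent.P179.XA
import Vale.Agent.P179.TB

/-! P179: triples with a stabilizer cancel.

Write the right side as a sum over pairs (a, b) and chains σ. For fixed (a, b) with cm a b = x the chains with a non free
triple cancel: sum_sg_zero with Q₀ = ⊥ and R σ = E0 C (σ, a, b) ⊓ centralizer {b} ≠ ⊥ (free_iff), a p-group
centralized by a, b and by C.P; tg_isCh, fxC_tg show that the toggled chain is fixed by a, b and has the same R.
-/

open Finset
open scoped Classical

noncomputable section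

namespace Vale.Agent.P179

set_option linter.unusedSectionVars false

variable {p : ℕ} [Fact p.Prime] {H : Type} [Group H] [Fintype H] {C : CSub H} {x : H}

theorem XB_fx {g : H} {R : Subgroup H} (h : ∀ r ∈ R, r * g = g * r) : Fx g R := by
  refine Subgroup.mem_normalizer_iff.2 fun r => ⟨fun hr => ?_, fun hr => ?_⟩
  · rwa [← h r hr, mul_inv_cancel_right]
  · have := h _ hr
    rw [inv_mul_cancel_right, mul_right_inj] at this
    rwa [this]

theorem XB_zero (hP : IsPGroup p C.P) (a b : H) :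
    ∑ σ : Finset (Subgroup H) with (IsCh p ⊥ σ ∧ FxC a σ ∧ FxC b σ) ∧
      ¬ Free C.G ((σ, a, b) : Tr H), sg σ = 0 := by
  have hb : ∀ g : H, Fx g ⊥ := fun g => XB_fx fun r hr => by simp [Subgroup.mem_bot.1 hr]
  let R : Finset (Subgroup H) → Subgroup H := fun σ =>
    E0 C ((σ, a, b) : Tr H) ⊓ Subgroup.centralizer {b}
  have hm : ∀ σ e, e ∈ R σ ↔ (e ∈ C.P ∧ e * a = a * e ∧ FxC e σ) ∧ e * b = b * e := fun σ e => by
    rw [Subgroup.mem_inf, mem_E0, Subgroup.mem_centralizer_singleton_iff]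
  have hf : ∀ σ, IsCh p ⊥ σ → (Free C.G ((σ, a, b) : Tr H) ↔ R σ ≤ ⊥) := fun σ hσ => by
    rw [free_iff (p := p) hσ]
    exact ⟨fun h e he => h e he.1 ((hm σ e).1 he).2, fun h e he h' =>
      h ⟨he, Subgroup.mem_centralizer_singleton_iff.2 h'⟩⟩
  refine sum_sg_zero _ ⊥ R fun σ hσ => ?_
  obtain ⟨⟨h1, h2, h3⟩, h4⟩ := (mem_filter.1 hσ).2
  rw [hf σ h1] at h4
  have h5 := tg_isCh IsPGroup.of_bot (hP.to_le fun e he => ((hm σ e).1 he).1.1) h4
    (fun r _ => hb r) h1 fun r hr => ((hm σ r).1 hr).1.2.2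
  have h6 : R (tg ⊥ (R σ) σ) = R σ := by
    ext e
    rw [hm, hm]
    refine and_congr_left' (and_congr_right fun he => and_congr_right' ?_)
    exact fxC_tg (hb e) (XB_fx fun r hr => C.comm _ ((hm σ r).1 hr).1.1 _ he)
  refine ⟨mem_filter.2 ⟨mem_univ _, ⟨h5,
    (fxC_tg (hb a) (XB_fx fun r hr => ((hm σ r).1 hr).1.2.1)).2 h2,
    (fxC_tg (hb b) (XB_fx fun r hr => ((hm σ r).1 hr).2)).2 h3⟩, ?_⟩, h6⟩
  rwa [hf _ h5, h6]

theorem sum_wx (hP : IsPGroup p C.P) :
    ∑ y : H × H with cm y.1 y.2 = x, mu p ⊥ y.1 y.2 = ∑ ξ : Tr H, wx p C x ξ := by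
  rw [sum_filter]
  refine Eq.trans (sum_congr rfl fun y _ => ?_) (Fintype.sum_prod_type_right (wx p C x)).symm
  split_ifs with h
  · rw [mu, ← sum_filter_add_sum_filter_not _ fun σ => Free C.G ((σ, y.1, y.2) : Tr H),
      filter_filter, filter_filter, XB_zero hP, add_zero, sum_filter]
    refine sum_congr rfl fun σ _ => ?_
    simp only [wx, InX, h, and_true]
  · refine (sum_eq_zero fun σ _ => if_neg fun k => h k.1.2.2.2).symm

end Vale.Agent.P179
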