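import Vale.Agent.P179.XA
import Vale.Agent.P179.TB

/-! P179: the normal type.

E0_smul, E0 C (s1 ξ) = E0 C ξ by rfl; elements of C.P and a centralize E0 C ξ, so they normalize it.
With R = E0 C ξ: tg_isCh, fxC_tg (for a, b and for every element of C.P, so E0 is unchanged, mem_E0), tg_tg, sg_tg, free_iff,
tg_cc with cs y ⊥ = ⊥ and cs y (E0 C ξ) = E0 C ξ.
-/

open Finset
open scoped Classical

noncomputable section

namespace Vale.Agent.P179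

set_option linter.unusedSectionVars false

variable {p : ℕ} [Fact p.Prime] {H : Type} [Group H] [Fintype H] {C : CSub H} {x : H}

theorem XC_cent {g : H} {Q : Subgroup H} (h : ∀ e ∈ Q, e * g = g * e) : Fx g Q := by
  refine fx_iff.2 (Subgroup.ext fun z => mem_cs.trans ⟨fun k => ?_, fun k => ?_⟩)
  · have e := h _ k
    rw [← mul_assoc, ← mul_assoc, mul_inv_cancel, one_mul] at e
    rwa [mul_right_cancel e] at k
  · rwa [mul_assoc, h z k, inv_mul_cancel_left]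

theorem XC_P {y : H} (hy : y ∈ C.P) (ξ : Tr H) : Fx y (E0 C ξ) :=
  XC_cent fun e he => C.comm e (mem_E0.1 he).1 y hy

theorem XC_a (ξ : Tr H) : Fx ξ.2.1 (E0 C ξ) := XC_cent fun _ he => (mem_E0.1 he).2.1

theorem XC_E (ξ : Tr H) : E0 C ((tg ⊥ (E0 C ξ) ξ.1, ξ.2) : Tr H) = E0 C ξ :=
  Subgroup.ext fun e => by
    rw [mem_E0, mem_E0]
    exact and_congr_right fun he => and_congr_right fun _ => fxC_tg (fx_bot e) (XC_P he ξ)

theorem nx_smul (y : C.G) (ξ : Tr H) : Nx C (y • ξ) ↔ Nx C ξ := by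
  rw [Nx, Nx, E0_smul]
  refine and_congr_right fun _ => ?_
  have k := fx_cs (y := C.val y) (g := ξ.2.2) (Q := E0 C ξ)
  rw [fx_iff.1 (XC_P (val_mem y) ξ)] at k
  exact k

theorem nx_s1 (ξ : Tr H) : Nx C (s1 ξ) ↔ Nx C ξ := by
  refine and_congr_right fun _ => ?_
  exact Subgroup.mul_mem_cancel_right _ (XC_a (C := C) ξ)

theorem nx_tau (hP : IsPGroup p C.P) (τ : Tr H → Tr H)
    (hτ : ∀ ξ, τ ξ = (tg ⊥ (E0 C ξ) ξ.1, ξ.2)) (ξ : Tr H) (h0 : wx p C x ξ ≠ 0) (hN : Nx C ξ) :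
    Nx C (τ ξ) ∧ τ (τ ξ) = ξ ∧ wx p C x (τ ξ) = - wx p C x ξ ∧ τ (s1 ξ) = s1 (τ ξ) ∧
      ∀ y : C.G, τ (y • ξ) = y • τ ξ := by
  obtain ⟨⟨h1, h2, h3, h4⟩, h5⟩ := wx_ne.1 h0
  have e1 : E0 C (τ ξ) = E0 C ξ := by rw [hτ, XC_E]
  have k1 : IsCh p ⊥ (tg ⊥ (E0 C ξ) ξ.1) := tg_isCh IsPGroup.of_bot
    (hP.to_le fun e he => (mem_E0.1 he).1) (fun k => hN.1 (le_bot_iff.1 k))
    (fun r _ => fx_bot r) h1 fun r hr => (mem_E0.1 hr).2.2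
  have k2 : InX p x (τ ξ) := by
    rw [hτ]
    exact ⟨k1, (fxC_tg (fx_bot _) (XC_a ξ)).2 h2, (fxC_tg (fx_bot _) hN.2).2 h3, h4⟩
  have k3 : Free C.G (τ ξ) := by
    rw [free_iff k2.1, e1, hτ]
    exact (free_iff h1).1 h5
  refine ⟨?_, ?_, ?_, ?_, fun y => ?_⟩
  · rw [Nx, e1, hτ]
    exact hN
  · rw [hτ (τ ξ), e1, hτ, tg_tg]
  · rw [wx, wx, if_pos ⟨k2, k3⟩, if_pos ⟨⟨h1, h2, h3, h4⟩, h5⟩, hτ, sg_tg]
  · rw [hτ, hτ]
    rfl
  · rw [hτ, hτ, E0_smul]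
    have k := tg_cc (C.val y) ⊥ (E0 C ξ) ξ.1
    rw [cs_bot, fx_iff.1 (XC_P (val_mem y) ξ)] at k
    exact Prod.ext k rfl

end Vale.Agent.P179
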