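import Vale.Agent.P179.XA

/-! P179: the pieces.

M = Mx C ξ = zpowers a ⊔ E0 is commutative, centralizes a and E0, fixes the chain (if a does). Mx C (σ, a, b g) = Mx C ξ by rfl,
Mx C (y • ξ) = cs y (Mx C ξ). cm a (b g) = cm a b for g commuting with a. Freeness and Nx do not change under b ↦ b g
(free_iff, g centralizes E0). ox_hom: (s1 ^ n) ξ = y • ξ forces y ∈ E0 (cc_eq_iff) and b a ^ n = y b y⁻¹; multiply by g on the right
(g commutes with a and y), then translate by equivariance (the group is commutative); use symmetry through ox_iff.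
-/

open Finset
open scoped Classical

noncomputable section

namespace Vale.Agent.P179

set_option linter.unusedSectionVars false

variable {p : ℕ} [Fact p.Prime] {H : Type} [Group H] [Fintype H] {C : CSub H} {x : H}

theorem XD_cs {g : H} {E : Subgroup H} (h : ∀ e ∈ E, g * e = e * g) : cs g E = E := by
  ext z
  rw [mem_cs]
  constructor
  · intro hz
    have h1 := h _ hz
    have h2 : z = g⁻¹ * z * g := by
      apply mul_right_cancel (b := g)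
      rw [← h1]
      group
    rwa [h2]
  · intro hz
    have h2 : g⁻¹ * z * g = z := by rw [mul_assoc, ← h z hz]; group
    rwa [h2]

theorem XD_val (y : C.G) (ξ : Tr H) : ∀ e ∈ E0 C ξ, C.val y * e = e * C.val y :=
  fun e he => C.comm _ (val_mem y) _ (mem_E0.1 he).1

theorem XD_comm {ξ : Tr H} {g : H} (hg : g ∈ Mx C ξ) :
    g * ξ.2.1 = ξ.2.1 * g ∧ ∀ e ∈ E0 C ξ, g * e = e * g := by
  have h : Mx C ξ ≤ Subgroup.centralizer (insert ξ.2.1 (E0 C ξ : Set H)) := by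
    refine sup_le (Subgroup.zpowers_le.2 ?_) fun e he => ?_
    · rw [Subgroup.mem_centralizer_iff]
      rintro z (rfl | hz)
      · rfl
      · exact (mem_E0.1 hz).2.1
    · rw [Subgroup.mem_centralizer_iff]
      rintro z (rfl | hz)
      · exact (mem_E0.1 he).2.1.symm
      · exact C.comm _ (mem_E0.1 hz).1 _ (mem_E0.1 he).1
  have h1 := Subgroup.mem_centralizer_iff.1 (h hg)
  exact ⟨(h1 _ (Or.inl rfl)).symm, fun e he => (h1 e (Or.inr he)).symm⟩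

theorem XD_Mx (y : C.G) (ξ : Tr H) : Mx C (y • ξ) = cs (C.val y) (Mx C ξ) := by
  unfold Mx
  rw [cs_sup, E0_smul, XD_cs (XD_val y ξ)]
  have h : cs (C.val y) (Subgroup.zpowers ξ.2.1) = Subgroup.zpowers (y • ξ).2.1 :=
    MonoidHom.map_zpowers _ _
  rw [h]

theorem XD_tw (y : C.G) (ξ : Tr H) (g : H) :
    (((y • ξ).1, (y • ξ).2.1, (y • ξ).2.2 * (C.val y * g * (C.val y)⁻¹)) : Tr H) =
      y • ((ξ.1, ξ.2.1, ξ.2.2 * g) : Tr H) := by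
  refine Prod.ext rfl (Prod.ext rfl ?_)
  change C.val y * ξ.2.2 * (C.val y)⁻¹ * (C.val y * g * (C.val y)⁻¹) =
    C.val y * (ξ.2.2 * g) * (C.val y)⁻¹
  group

theorem XD_pow (n : ℕ) (y : C.G) (ξ : Tr H) :
    (s1 ^ n : Equiv.Perm (Tr H)) (y • ξ) = y • (s1 ^ n : Equiv.Perm (Tr H)) ξ := by
  induction n with
  | zero => rfl
  | succ n ih => rw [pow_succ', Equiv.Perm.mul_apply, Equiv.Perm.mul_apply, ih, eqv_s1]

theorem ox_refl (ξ : Tr H) : Ox C ξ ξ :=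
  ⟨1, 1, one_mem _, by rw [one_smul, mul_one]⟩

theorem ox_iff {ξ η : Tr H} (h : Ox C ξ η) (ζ : Tr H) : Ox C η ζ ↔ Ox C ξ ζ := by
  obtain ⟨y, g, hg, rfl⟩ := h
  have hM : Mx C (y • ((ξ.1, ξ.2.1, ξ.2.2 * g) : Tr H)) = cs (C.val y) (Mx C ξ) := XD_Mx y _
  constructor
  · rintro ⟨z, g', hg', rfl⟩
    rw [hM, mem_cs] at hg'
    refine ⟨z * y, g * ((C.val y)⁻¹ * g' * C.val y), mul_mem hg hg', ?_⟩
    have e : g' = C.val y * ((C.val y)⁻¹ * g' * C.val y) * (C.val y)⁻¹ := by group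
    rw [mul_smul, ← mul_assoc ξ.2.2]
    refine congrArg (z • ·) ?_
    conv_lhs => rw [e]
    exact XD_tw y _ _
  · rintro ⟨z, g', hg', rfl⟩
    refine ⟨z * y⁻¹, C.val y * (g⁻¹ * g') * (C.val y)⁻¹, ?_, ?_⟩
    · rw [hM, mem_cs]
      have e : (C.val y)⁻¹ * (C.val y * (g⁻¹ * g') * (C.val y)⁻¹) * C.val y = g⁻¹ * g' := by group
      rw [e]
      exact mul_mem (inv_mem hg) hg'
    · rw [XD_tw, mul_smul, inv_smul_smul]
      refine congrArg (z • ·) (Prod.ext rfl (Prod.ext rfl ?_))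
      change ξ.2.2 * g' = ξ.2.2 * g * (g⁻¹ * g')
      group

theorem ox_wx (hx : x ∈ C.P) {ξ η : Tr H} (h0 : wx p C x ξ ≠ 0) (h : Ox C ξ η) :
    wx p C x η = wx p C x ξ := by
  obtain ⟨y, g, hg, rfl⟩ := h
  obtain ⟨hI, hF⟩ := wx_ne.1 h0
  obtain ⟨c1, c2⟩ := XD_comm hg
  have hle : Mx C ξ ≤ ⨅ Q ∈ ξ.1, Subgroup.normalizer (Q : Set H) :=
    sup_le (Subgroup.zpowers_le.2 (fxC_iff.1 hI.2.1)) inf_le_right
  have hI' : InX p x ((ξ.1, ξ.2.1, ξ.2.2 * g) : Tr H) := by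
    refine ⟨hI.1, hI.2.1, fxC_iff.2 (mul_mem (fxC_iff.1 hI.2.2.1) (hle hg)), ?_⟩
    rw [← hI.2.2.2]
    change ξ.2.1 * (ξ.2.2 * g) * ξ.2.1⁻¹ * (ξ.2.2 * g)⁻¹ = ξ.2.1 * ξ.2.2 * ξ.2.1⁻¹ * ξ.2.2⁻¹
    have e : g = ξ.2.1⁻¹ * g * ξ.2.1 := by rw [mul_assoc, c1]; group
    conv_lhs => enter [1, 1, 2, 2]; rw [e]
    group
  have hF' : Free C.G ((ξ.1, ξ.2.1, ξ.2.2 * g) : Tr H) := by
    refine (free_iff (p := p) hI'.1).2 fun e he h1 => (free_iff (p := p) hI.1).1 hF e he ?_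
    have h2 : e * (ξ.2.2 * g) = ξ.2.2 * g * e := h1
    rw [mul_assoc ξ.2.2, c2 e he, ← mul_assoc, ← mul_assoc] at h2
    exact mul_right_cancel h2
  rw [(wt_wx hx).2]
  unfold wx
  rw [if_pos ⟨hI', hF'⟩, if_pos ⟨hI, hF⟩]

theorem ox_nx {ξ η : Tr H} (h : Ox C ξ η) : Nx C η ↔ Nx C ξ := by
  obtain ⟨y, g, hg, rfl⟩ := h
  have hE : E0 C (y • ((ξ.1, ξ.2.1, ξ.2.2 * g) : Tr H)) = E0 C ξ := E0_smul y _
  have h1 : C.val y ∈ Subgroup.normalizer (E0 C ξ : Set H) := fx_iff.2 (XD_cs (XD_val y ξ))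
  have h2 : g ∈ Subgroup.normalizer (E0 C ξ : Set H) := fx_iff.2 (XD_cs (XD_comm hg).2)
  unfold Nx
  rw [hE]
  refine and_congr_right fun _ => ?_
  change C.val y * (ξ.2.2 * g) * (C.val y)⁻¹ ∈ Subgroup.normalizer (E0 C ξ : Set H) ↔
    ξ.2.2 ∈ Subgroup.normalizer (E0 C ξ : Set H)
  rw [mul_mem_cancel_right (inv_mem h1), mul_mem_cancel_left h1, mul_mem_cancel_right h2]

theorem ox_smul {ξ η : Tr H} (h : Ox C ξ η) (y : C.G) : Ox C ξ (y • η) := by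
  obtain ⟨z, g, hg, rfl⟩ := h
  exact ⟨y * z, g, hg, (mul_smul _ _ _).symm⟩

theorem ox_s1 {ξ η : Tr H} (h : Ox C ξ η) : Ox C ξ (s1 η) := by
  obtain ⟨z, g, hg, rfl⟩ := h
  refine ⟨z, g * ξ.2.1, mul_mem hg (Subgroup.mem_sup_left (Subgroup.mem_zpowers _)), ?_⟩
  rw [eqv_s1, ← mul_assoc]
  rfl

theorem ox_order {ξ η : Tr H} (h : Ox C ξ η) : orderOf η.2.1 = orderOf ξ.2.1 := by
  obtain ⟨z, g, -, rfl⟩ := h
  exact (MulAut.conj (C.val z)).orderOf_eq ξ.2.1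

theorem ox_hom {ξ η : Tr H} (hσ : IsCh p ⊥ ξ.1) (h : Ox C ξ η) (n : ℕ) (y : C.G)
    (e : (s1 ^ n : Equiv.Perm (Tr H)) ξ = y • ξ) : (s1 ^ n : Equiv.Perm (Tr H)) η = y • η := by
  obtain ⟨z, g, hg, rfl⟩ := h
  rw [s1_pow] at e
  have e1 : ξ.1 = cc (C.val y) ξ.1 := congrArg Prod.fst e
  have e2 : ξ.2.1 = C.val y * ξ.2.1 * (C.val y)⁻¹ := congrArg (fun u : Tr H => u.2.1) e
  have e3 : ξ.2.2 * ξ.2.1 ^ n = C.val y * ξ.2.2 * (C.val y)⁻¹ := congrArg (fun u : Tr H => u.2.2) e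
  have hy : C.val y ∈ E0 C ξ :=
    mem_E0.2 ⟨val_mem y, (eq_mul_inv_iff_mul_eq.1 e2).symm, (cc_eq_iff hσ).1 e1.symm⟩
  obtain ⟨c1, c2⟩ := XD_comm hg
  have c3 : g * ξ.2.1 ^ n = ξ.2.1 ^ n * g := (Commute.pow_right c1 n).eq
  have c4 : g * (C.val y)⁻¹ = (C.val y)⁻¹ * g := (Commute.inv_right (c2 _ hy)).eq
  rw [XD_pow, ← mul_smul, mul_comm y z, mul_smul, s1_pow]
  refine congrArg (z • ·) (Prod.ext e1 (Prod.ext e2 ?_))
  change ξ.2.2 * g * ξ.2.1 ^ n = C.val y * (ξ.2.2 * g) * (C.val y)⁻¹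
  rw [mul_assoc, c3, ← mul_assoc, e3, mul_assoc, ← c4]
  group

end Vale.Agent.P179
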