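import Vale.Agent.P179.XA

/-! P179: the size of a piece.

k = index of D = Dx C ξ in M = Mx C ξ (D ≤ E0 ≤ M). The map (y, g) ↦ y • (σ, a, b g) from C.G × M onto the piece has fibres
of size |D|: (y1, g1) has the same image as (y, g) iff e = y⁻¹ y1 lies in E0 (cc_eq_iff) and b g = e b g1 e⁻¹, that is
g1 = b⁻¹ e⁻¹ b g e, which lies in M iff e ∈ D (mem_cs). Finset.card_eq_sum_card_fiberwise, then cancel |D|.
-/

open Finset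
open scoped Classical

noncomputable section

namespace Vale.Agent.P179

set_option linter.unusedSectionVars false

variable {p : ℕ} [Fact p.Prime] {H : Type} [Group H] [Fintype H] {C : CSub H} {x : H}

theorem XE_eq {ξ : Tr H} (hσ : IsCh p ⊥ ξ.1) (e : C.G) (g g' : H) :
    e • ((ξ.1, ξ.2.1, ξ.2.2 * g') : Tr H) = (ξ.1, ξ.2.1, ξ.2.2 * g) ↔
      C.val e ∈ E0 C ξ ∧ g' = ξ.2.2⁻¹ * (C.val e)⁻¹ * ξ.2.2 * g * C.val e := by
  change cj (C.val e) _ = _ ↔ _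
  simp only [cj, Prod.mk.injEq, cc_eq_iff hσ, mem_E0, val_mem, true_and, mul_inv_eq_iff_eq_mul]
  constructor
  · rintro ⟨h1, h2, h3⟩
    refine ⟨⟨h2, h1⟩, ?_⟩
    rw [mul_assoc, mul_assoc, mul_assoc, ← mul_assoc ξ.2.2 g, ← h3]
    group
  · rintro ⟨⟨h1, h2⟩, rfl⟩
    exact ⟨h2, h1, by group⟩

theorem XE_fib {ξ : Tr H} (hσ : IsCh p ⊥ ξ.1) (y : C.G) (g : Mx C ξ) :
    Nat.card {z : C.G × Mx C ξ // z.1 • ((ξ.1, ξ.2.1, ξ.2.2 * z.2) : Tr H) =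
      y • ((ξ.1, ξ.2.1, ξ.2.2 * g) : Tr H)} = Nat.card (Dx C ξ) := by
  have hM : E0 C ξ ≤ Mx C ξ := le_sup_right
  have k1 : ∀ z : C.G × Mx C ξ, z.1 • ((ξ.1, ξ.2.1, ξ.2.2 * z.2) : Tr H) =
      y • ((ξ.1, ξ.2.1, ξ.2.2 * g) : Tr H) ↔ C.val (y⁻¹ * z.1) ∈ E0 C ξ ∧
        (z.2 : H) = ξ.2.2⁻¹ * (C.val (y⁻¹ * z.1))⁻¹ * ξ.2.2 * g * C.val (y⁻¹ * z.1) := fun z => by
    rw [← XE_eq hσ, mul_smul, inv_smul_eq_iff]
  refine Nat.card_congr (Equiv.ofBijective (fun z => ⟨C.val (y⁻¹ * z.1.1), ((k1 _).1 z.2).1, ?_⟩)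
    ⟨fun z z' h => ?_, fun d => ?_⟩)
  · obtain ⟨h1, h2⟩ := (k1 _).1 z.2
    have h3 := (Mx C ξ).inv_mem ((Mx C ξ).mul_mem ((Mx C ξ).mul_mem z.1.2.2
      ((Mx C ξ).inv_mem (hM h1))) ((Mx C ξ).inv_mem g.2))
    rw [h2] at h3
    refine mem_cs.2 ?_
    simpa [mul_assoc] using h3
  · have h1 : C.val (y⁻¹ * z.1.1) = C.val (y⁻¹ * z'.1.1) :=
      congrArg (fun d : Dx C ξ => (d : H)) h
    refine Subtype.ext (Prod.ext (mul_left_cancel (val_inj h1)) (Subtype.ext ?_))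
    rw [((k1 _).1 z.2).2, ((k1 _).1 z'.2).2, h1]
  · obtain ⟨d, h1, h2⟩ := d
    let e : C.G := (⟨d, (mem_E0.1 h1).1⟩ : C.P)
    have h3 : C.val (y⁻¹ * (y * e)) = d := by
      rw [inv_mul_cancel_left]
      rfl
    have h4 : ξ.2.2⁻¹ * d⁻¹ * ξ.2.2 * g * d ∈ Mx C ξ := by
      refine (Mx C ξ).mul_mem ((Mx C ξ).mul_mem ?_ g.2) (hM h1)
      simpa [mul_assoc] using (Mx C ξ).inv_mem (mem_cs.1 h2)
    exact ⟨⟨(y * e, ⟨_, h4⟩), (k1 _).2 ⟨h3.symm ▸ h1, by rw [h3]⟩⟩, Subtype.ext h3⟩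

theorem ox_card {ξ : Tr H} (hσ : IsCh p ⊥ ξ.1) : ∃ k : ℕ, k * Nat.card (Dx C ξ) = Nat.card (Mx C ξ) ∧
    #{η : Tr H | Ox C ξ η} = Nat.card C.G * k := by
  have hD : Dx C ξ ≤ Mx C ξ := inf_le_left.trans le_sup_right
  obtain ⟨k, hk⟩ := Subgroup.card_dvd_of_le hD
  refine ⟨k, by rw [hk, mul_comm], ?_⟩
  have := Fintype.ofFinite C.G
  have h1 := card_eq_sum_card_fiberwise (s := (univ : Finset (C.G × Mx C ξ)))
    (t := ({η : Tr H | Ox C ξ η} : Finset (Tr H)))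
    (f := fun z => z.1 • ((ξ.1, ξ.2.1, ξ.2.2 * z.2) : Tr H))
    fun z _ => mem_coe.2 (mem_filter.2 ⟨mem_univ _, z.1, z.2, z.2.2, rfl⟩)
  rw [sum_congr rfl (g := fun _ => Nat.card (Dx C ξ)) fun η hη => by
    obtain ⟨y, g, hg, rfl⟩ := (mem_filter.1 hη).2
    rw [← XE_fib hσ y ⟨g, hg⟩, Nat.card_eq_fintype_card, Fintype.card_subtype],
    sum_const, smul_eq_mul, card_univ, ← Nat.card_eq_fintype_card, Nat.card_prod, hk] at h1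
  refine Nat.eq_of_mul_eq_mul_right (Nat.card_pos (α := Dx C ξ)) ?_
  rw [← h1]
  ring

end Vale.Agent.P179
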