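import Vale.Agent.P179.HB
import Vale.Agent.P179.HC
import Vale.Agent.P179.GB
import Vale.Agent.P179.XB
import Vale.Agent.P179.XC
import Vale.Agent.P179.XD
import Vale.Agent.P179.XE

/-! P179: pairs with a given nontrivial commutator. -/

open Finset
open scoped Classical

noncomputable section

namespace Vale.Agent.P179

set_option linter.unusedSectionVars false

variable {p : ℕ} [Fact p.Prime] {H : Type} [Group H] [Fintype H] {C : CSub H} {x : H}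

theorem hol_s1 (hab : Ab p H) (hP : IsPGroup p C.P) (hx : x ∈ C.P) {j : ℕ}
    (hj : x ^ p ^ (j + 1) = 1) {h : Tr H → C.G} (hh : Triv h) :
    hol h (wx p C x) s1 ^ p ^ j = 1 := by
  refine hol_pow hh (wt_wx hx) eqv_s1 wx_s1 wx_val (Nx C) (fun ξ => (tg ⊥ (E0 C ξ) ξ.1, ξ.2))
    nx_smul nx_s1 (nx_tau hP _ fun _ => rfl) (Ox C) fun ξ h0 hN => ⟨ox_refl ξ, fun η e =>
      ⟨ox_wx hx h0 e, fun a => hN ((ox_nx e).1 a), ox_iff e⟩, ?_⟩
  obtain ⟨a1, a2⟩ := wx_ne.1 h0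
  obtain ⟨k, k1, k2⟩ := ox_card (C := C) a1.1
  have w0 : ∀ η, Ox C ξ η → wx p C x η ≠ 0 := fun η e => by rwa [ox_wx hx h0 e]
  have ha : ξ.2.1 ^ (p ^ j * k) = 1 := by
    by_contra hne
    exact hN (lemG hab a1.2.2.2 hj (E0 C ξ) (hP.to_le fun e he => (mem_E0.1 he).1)
      (fun e he => (mem_E0.1 he).2.1) (fun e he => C.comm _ (mem_E0.1 he).1 _ hx)
      ((free_iff a1.1).1 a2) k1 hne)
  have key := hol_cyc hh eqv_s1 (univ.filter fun η => Ox C ξ η)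
    (fun η e => (wx_ne.1 (w0 η (mem_filter.1 e).2)).2)
    (fun y η e => mem_filter.2 ⟨mem_univ _, ox_smul (mem_filter.1 e).2 y⟩)
    (fun η e => mem_filter.2 ⟨mem_univ _, ox_s1 (mem_filter.1 e).2⟩)
    (fun η e ζ e' n y => ox_hom (wx_ne.1 (w0 η (mem_filter.1 e).2)).1.1
      ((ox_iff (mem_filter.1 e).2 ζ).2 (mem_filter.1 e').2) n y) k2 (q := p ^ j) fun η e => by
      rw [s1_pow, orderOf_dvd_iff_pow_eq_one.1
        (ox_order (mem_filter.1 e).2 ▸ orderOf_dvd_iff_pow_eq_one.2 ha), mul_one]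
  simpa only [mem_filter, mem_univ, true_and] using key

theorem sum_comm_dvd (hab : Ab p H) (hx : IsP p x) (h1 : x ≠ 1) :
    (p * pp p H : ℤ) ∣ ∑ y : H × H with cm y.1 y.2 = x, mu p ⊥ y.1 y.2 := by
  obtain ⟨S, hS⟩ := (isP_iff.1 hx).exists_le_sylow
  let C : CSub H := ⟨S, hab S S.isPGroup'⟩
  have hxP : x ∈ C.P := hS (Subgroup.mem_zpowers x)
  obtain ⟨k, hk⟩ := hx
  obtain ⟨i, -, hi⟩ := (Nat.dvd_prime_pow Fact.out).1 (orderOf_dvd_of_pow_eq_one hk)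
  obtain ⟨j, rfl⟩ : ∃ j, i = j + 1 := by
    refine Nat.exists_eq_succ_of_ne_zero fun e => h1 ?_
    rwa [e, pow_zero, orderOf_eq_one_iff] at hi
  obtain ⟨h, hh⟩ := exists_triv C.G (Tr H)
  let y : C.G := ⟨x, hxP⟩
  obtain ⟨m, m1, m2⟩ := braid hh (wt_wx hxP) eqv_s1 eqv_s2 wx_s1 wx_s2 s_braid (x := y⁻¹)
    (fun ξ h0 => delta4 (wx_ne.1 h0).1 rfl)
    (hol_s1 hab S.isPGroup' hxP (hi ▸ pow_orderOf_eq_one x) hh)
  have e1 : Nat.card C.G = pp p H := card_sylow S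
  have e2 : x ^ (m * (p ^ j : ℕ)) = 1 := by
    rw [inv_zpow, inv_eq_one] at m2
    exact congrArg Subtype.val m2
  rw [← orderOf_dvd_iff_zpow_eq_one, hi, pow_succ'] at e2
  push_cast at e2
  have p0 : (p : ℤ) ^ j ≠ 0 := pow_ne_zero _ (by exact_mod_cast (Fact.out : p.Prime).ne_zero)
  rw [sum_wx (C := C) S.isPGroup', m1, e1, mul_comm]
  exact mul_dvd_mul_left _ ((mul_dvd_mul_iff_right p0).1 e2)

end Vale.Agent.P179
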